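import Vale.Agent.P231.Fm.Homot

/-!
# P267, UNI-XT (helper368), part 1: integrals along a direction
-/

set_option linter.unusedSectionVars false

open MeasureTheory Set Function
open scoped ContDiff

noncomputable section

namespace Vale.Agent.P267.H368.Bog

open Vale.Agent.P231.Fm

variable {E : Type*} [NormedAddCommGroup E] [NormedSpace ℝ E] [FiniteDimensional ℝ E]

/-- weighted integral along the direction `v` -/
def W (φ : ℝ → ℝ) (v : E) (g : E → ℂ) (x : E) : ℂ := ∫ s, φ s • g (x + s • v)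

/-- `g` vanishes where `r < |l|` -/
def Slab (r : ℝ) (l : E →L[ℝ] ℝ) (g : E → ℂ) : Prop := ∀ y, r < |l y| → g y = 0

variable {φ : ℝ → ℝ} {v : E} {l : E →L[ℝ] ℝ} {g : E → ℂ} {r : ℝ}

theorem Slab.line (hg : Slab r l g) (hl : l v = 1) {R : ℝ} {x : E} (hx : x ∈ Metric.ball (0 : E) R)
    {s : ℝ} (hs : s ∉ Icc (-(|r| + ‖l‖ * R)) (|r| + ‖l‖ * R)) : g (x + s • v) = 0 := by
  apply hg
  rw [map_add, map_smul, hl, smul_eq_mul, mul_one]
  have h1 : |l x| ≤ ‖l‖ * R := by
    have := l.le_opNorm x
    rw [Metric.mem_ball, dist_zero_right] at hx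
    calc |l x| ≤ ‖l‖ * ‖x‖ := this
      _ ≤ ‖l‖ * R := by gcongr
  rw [mem_Icc, not_and_or, not_le, not_le] at hs
  have h2 := le_abs_self r
  have h3 := abs_le.1 h1
  rcases hs with h | h
  · rw [abs_of_neg (by linarith [abs_nonneg r])]
    linarith
  · rw [abs_of_pos (by linarith [abs_nonneg r])]
    linarith

theorem smooth_line {n : WithTop ℕ∞} (hg : ContDiff ℝ n g) (v : E) :
    ContDiff ℝ n fun p : E × ℝ => g (p.1 + p.2 • v) :=
  hg.comp (contDiff_fst.add (contDiff_snd.smul contDiff_const))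

theorem contDiff_W (hφ : LocallyIntegrable φ) (hl : l v = 1) (hg : ContDiff ℝ ∞ g)
    (h0 : Slab r l g) : ContDiff ℝ ∞ (W φ v g) := by
  rw [contDiff_iff_contDiffAt]
  intro x
  set R : ℝ := ‖x‖ + 1
  have hx : x ∈ Metric.ball (0 : E) R := by
    rw [Metric.mem_ball, dist_zero_right]; linarith
  have h1 := contDiffOn_param (n := ⊤) (volume : Measure ℝ) (Metric.isOpen_ball (x := (0 : E)) (ε := R))
    (isCompact_Icc (a := -(|r| + ‖l‖ * R)) (b := (|r| + ‖l‖ * R))) hφ
    (g := fun p : E × ℝ => g (p.1 + p.2 • v)) ((smooth_line hg v).contDiffOn)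
    (fun x hx y hy => h0.line hl hx hy)
  exact h1.contDiffAt (Metric.isOpen_ball.mem_nhds hx)

theorem integrable_line (hφ : LocallyIntegrable φ) (hl : l v = 1) (hg : Continuous g)
    (h0 : Slab r l g) (x : E) : Integrable fun s => φ s • g (x + s • v) := by
  set R : ℝ := ‖x‖ + 1
  have hx : x ∈ Metric.ball (0 : E) R := by
    rw [Metric.mem_ball, dist_zero_right]; linarith
  exact hφ.integrable_smul_right_of_hasCompactSupport (by fun_prop)
    (HasCompactSupport.intro (isCompact_Icc (a := -(|r| + ‖l‖ * R)) (b := (|r| + ‖l‖ * R)))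
      fun y hy => h0.line hl hx hy)

theorem slab_fderiv (h0 : Slab r l g) (u : E) : Slab r l fun y => fderiv ℝ g y u := by
  intro y hy
  have h1 : g =ᶠ[nhds y] fun _ => (0 : ℂ) := by
    have h2 : Continuous fun z : E => |l z| := by fun_prop
    filter_upwards [h2.continuousAt.eventually (lt_mem_nhds hy)] with z hz using h0 z hz
  simp only
  rw [h1.fderiv_eq]
  simp

theorem smooth_fderiv (hg : ContDiff ℝ ∞ g) (u : E) : ContDiff ℝ ∞ fun y => fderiv ℝ g y u :=
  (hg.fderiv_right (m := ∞) (by simp)).clm_apply contDiff_const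

theorem fderiv_W (hφ : LocallyIntegrable φ) (hl : l v = 1) (hg : ContDiff ℝ ∞ g)
    (h0 : Slab r l g) (x u : E) :
    fderiv ℝ (W φ v g) x u = W φ v (fun y => fderiv ℝ g y u) x := by
  set R : ℝ := ‖x‖ + 1
  have hx : x ∈ Metric.ball (0 : E) R := by
    rw [Metric.mem_ball, dist_zero_right]; linarith
  have h1 := hasFDerivAt_param (volume : Measure ℝ) (Metric.isOpen_ball (x := (0 : E)) (ε := R))
    (isCompact_Icc (a := -(|r| + ‖l‖ * R)) (b := (|r| + ‖l‖ * R))) hφ
    (g := fun p : E × ℝ => g (p.1 + p.2 • v)) ((smooth_line (hg.of_le (by simp)) v).contDiffOn)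
    (fun x hx y hy => h0.line hl hx hy) hx
  have h2 : ∀ y : ℝ, fderiv ℝ (fun p : E × ℝ => g (p.1 + p.2 • v)) (x, y) ∘L
      ContinuousLinearMap.inl ℝ E ℝ = fderiv ℝ g (x + y • v) := by
    intro y
    have h3 : HasFDerivAt (fun p : E × ℝ => p.1 + p.2 • v)
        (ContinuousLinearMap.fst ℝ E ℝ + (ContinuousLinearMap.snd ℝ E ℝ).smulRight v) (x, y) :=
      (ContinuousLinearMap.fst ℝ E ℝ).hasFDerivAt.add
        ((ContinuousLinearMap.snd ℝ E ℝ).smulRight v).hasFDerivAt
    have h4 : HasFDerivAt g (fderiv ℝ g (x + y • v)) ((fun p : E × ℝ => p.1 + p.2 • v) (x, y)) :=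
      (hg.differentiable (by simp) _).hasFDerivAt
    have h5 := (h4.comp (x, y) h3).fderiv
    have h6 : (g ∘ fun p : E × ℝ => p.1 + p.2 • v) = fun p : E × ℝ => g (p.1 + p.2 • v) := rfl
    rw [h6] at h5
    rw [h5]
    ext w
    simp
  simp only [h2] at h1
  have h3 : W φ v g = fun x => ∫ y, φ y • g (x + y • v) := rfl
  rw [h3, h1.fderiv]
  have h4 : Integrable (fun y => φ y • fderiv ℝ g (x + y • v)) := by
    refine hφ.integrable_smul_right_of_hasCompactSupport ?_ ?_
    · exact (hg.continuous_fderiv (by simp)).comp (by fun_prop)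
    · refine HasCompactSupport.intro (isCompact_Icc (a := -(|r| + ‖l‖ * R))
        (b := (|r| + ‖l‖ * R))) fun y hy => ?_
      ext w
      exact (slab_fderiv h0 w).line hl hx hy
  rw [ContinuousLinearMap.integral_apply h4]
  rfl

theorem W_add {g' : E → ℂ} (hφ : LocallyIntegrable φ) (hl : l v = 1) (hg : Continuous g)
    (h0 : Slab r l g) (hg' : Continuous g') (h0' : Slab r l g') (x : E) :
    W φ v (fun y => g y + g' y) x = W φ v g x + W φ v g' x := by
  unfold W
  rw [← integral_add (integrable_line hφ hl hg h0 x) (integrable_line hφ hl hg' h0' x)]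
  simp only [smul_add]

theorem W_sub {g' : E → ℂ} (hφ : LocallyIntegrable φ) (hl : l v = 1) (hg : Continuous g)
    (h0 : Slab r l g) (hg' : Continuous g') (h0' : Slab r l g') (x : E) :
    W φ v (fun y => g y - g' y) x = W φ v g x - W φ v g' x := by
  unfold W
  rw [← integral_sub (integrable_line hφ hl hg h0 x) (integrable_line hφ hl hg' h0' x)]
  simp only [smul_sub]

/-! ### the two weights -/

/-- the weight of the half line -/
def neg (s : ℝ) : ℝ := (Iic (0 : ℝ)).indicator (fun _ => 1) s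

theorem loc_neg : LocallyIntegrable neg volume := by
  have h : LocallyIntegrable (fun _ : ℝ => (1 : ℝ)) volume := locallyIntegrable_const _
  exact h.indicator measurableSet_Iic

theorem loc_one : LocallyIntegrable (fun _ : ℝ => (1 : ℝ)) volume := locallyIntegrable_const _

/-- the primitive along `v` -/
def Pr (v : E) (g : E → ℂ) : E → ℂ := W neg v g

/-- the integral along `v` -/
def To (v : E) (g : E → ℂ) : E → ℂ := W (fun _ => 1) v g

theorem Pr_eq (v : E) (g : E → ℂ) (x : E) : Pr v g x = ∫ s in Iic (0 : ℝ), g (x + s • v) := by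
  unfold Pr W neg
  rw [← integral_indicator measurableSet_Iic]
  congr 1
  ext s
  by_cases hs : s ∈ Iic (0 : ℝ)
  · simp only [indicator_of_mem hs, one_smul]
  · simp only [indicator_of_notMem hs, zero_smul]

theorem To_eq (v : E) (g : E → ℂ) (x : E) : To v g x = ∫ s : ℝ, g (x + s • v) := by
  simp only [To, W, one_smul]

theorem hasDerivAt_line (hg : ContDiff ℝ ∞ g) (x : E) (s : ℝ) :
    HasDerivAt (fun s : ℝ => g (x + s • v)) (fderiv ℝ g (x + s • v) v) s := by
  have h1 : HasDerivAt (fun s : ℝ => x + s • v) v s := by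
    simpa using ((hasDerivAt_id s).smul_const v).const_add x
  exact (hg.differentiable (by simp) _).hasFDerivAt.comp_hasDerivAt s h1

theorem tendsto_line_atBot (hl : l v = 1) (h0 : Slab r l g) (x : E) :
    Filter.Tendsto (fun s : ℝ => g (x + s • v)) Filter.atBot (nhds 0) := by
  set R : ℝ := ‖x‖ + 1
  have hx : x ∈ Metric.ball (0 : E) R := by
    rw [Metric.mem_ball, dist_zero_right]; linarith
  refine tendsto_const_nhds.congr' ?_
  filter_upwards [Filter.eventually_lt_atBot (-(|r| + ‖l‖ * R))] with s hs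
  exact (h0.line hl hx fun h => by rw [mem_Icc] at h; linarith).symm

theorem tendsto_line_atTop (hl : l v = 1) (h0 : Slab r l g) (x : E) :
    Filter.Tendsto (fun s : ℝ => g (x + s • v)) Filter.atTop (nhds 0) := by
  set R : ℝ := ‖x‖ + 1
  have hx : x ∈ Metric.ball (0 : E) R := by
    rw [Metric.mem_ball, dist_zero_right]; linarith
  refine tendsto_const_nhds.congr' ?_
  filter_upwards [Filter.eventually_gt_atTop (|r| + ‖l‖ * R)] with s hs
  exact (h0.line hl hx fun h => by rw [mem_Icc] at h; linarith).symm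

theorem Pr_deriv (hl : l v = 1) (hg : ContDiff ℝ ∞ g) (h0 : Slab r l g) (x : E) :
    Pr v (fun y => fderiv ℝ g y v) x = g x := by
  rw [Pr_eq]
  have h1 : Integrable fun s : ℝ => fderiv ℝ g (x + s • v) v := by
    have := integrable_line (φ := fun _ => 1) loc_one hl (smooth_fderiv hg v).continuous
      (slab_fderiv h0 v) x
    simpa using this
  have h2 := integral_Iic_of_hasDerivAt_of_tendsto' (a := (0 : ℝ))
    (f := fun s : ℝ => g (x + s • v)) (f' := fun s => fderiv ℝ g (x + s • v) v) (m := 0)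
    (fun s _ => hasDerivAt_line hg x s) h1.integrableOn (tendsto_line_atBot hl h0 x)
  rw [h2]
  simp

theorem To_deriv (hl : l v = 1) (hg : ContDiff ℝ ∞ g) (h0 : Slab r l g) (x : E) :
    To v (fun y => fderiv ℝ g y v) x = 0 := by
  rw [To_eq]
  have h1 : Integrable fun s : ℝ => fderiv ℝ g (x + s • v) v := by
    have := integrable_line (φ := fun _ => 1) loc_one hl (smooth_fderiv hg v).continuous
      (slab_fderiv h0 v) x
    simpa using this
  have h2 := integral_of_hasDerivAt_of_tendsto
    (f := fun s : ℝ => g (x + s • v)) (f' := fun s => fderiv ℝ g (x + s • v) v) (m := 0) (n := 0)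
    (fun s => hasDerivAt_line hg x s) h1 (tendsto_line_atBot hl h0 x) (tendsto_line_atTop hl h0 x)
  rw [h2]
  simp

theorem To_shift (v : E) (g : E → ℂ) (x : E) (t : ℝ) : To v g (x + t • v) = To v g x := by
  rw [To_eq, To_eq, ← integral_add_right_eq_self (fun s : ℝ => g (x + s • v)) t]
  congr 1
  ext s
  rw [add_smul, add_assoc, add_comm (t • v)]

/-- the full primitive, if the part on the positive half line vanishes -/
theorem Pr_eq_To {x : E} (h : ∀ s : ℝ, 0 < s → g (x + s • v) = 0) : Pr v g x = To v g x := by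
  rw [Pr_eq, To_eq, ← integral_indicator measurableSet_Iic]
  congr 1
  ext s
  by_cases hs : s ∈ Iic (0 : ℝ)
  · rw [indicator_of_mem hs]
  · rw [indicator_of_notMem hs, h s (not_le.1 hs)]

end Vale.Agent.P267.H368.Bog
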