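import Vale.Agent.P267.H368.BogA

/-!
# P267, UNI-XT (helper368), part 2: compactly supported divergences in a box
-/

set_option linter.unusedSectionVars false

open MeasureTheory Set Function
open scoped ContDiff

noncomputable section

namespace Vale.Agent.P267.H368.Bog

open Vale.Agent.P231.Fm

variable {E : Type*} [NormedAddCommGroup E] [NormedSpace ℝ E] [FiniteDimensional ℝ E]
variable {ι : Type*} [Fintype ι] [DecidableEq ι]

/-- a linear coordinate system -/
structure Frame (E : Type*) [NormedAddCommGroup E] [NormedSpace ℝ E] (ι : Type*) [Fintype ι]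
    [DecidableEq ι] where
  v : ι → E
  l : ι → E →L[ℝ] ℝ
  dual : ∀ i j, l i (v j) = if i = j then 1 else 0
  expand : ∀ x, ∑ i, l i x • v i = x

namespace Frame

variable (b : Frame E ι)

theorem dual_self (i : ι) : b.l i (b.v i) = 1 := by rw [b.dual, if_pos rfl]

theorem dual_ne {i j : ι} (h : i ≠ j) : b.l i (b.v j) = 0 := by rw [b.dual, if_neg h]

/-- the closed box -/
def box (r : ℝ) : Set E := {x | ∀ i, |b.l i x| ≤ r}

theorem isClosed_box (r : ℝ) : IsClosed (b.box r) := by
  have : b.box r = ⋂ i, {x | |b.l i x| ≤ r} := by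
    ext x; simp [box]
  rw [this]
  exact isClosed_iInter fun i => isClosed_le (by fun_prop) continuous_const

theorem norm_le_of_mem_box {r : ℝ} {x : E} (hx : x ∈ b.box r) : ‖x‖ ≤ r * ∑ i, ‖b.v i‖ := by
  calc ‖x‖ = ‖∑ i, b.l i x • b.v i‖ := by rw [b.expand]
    _ ≤ ∑ i, ‖b.l i x • b.v i‖ := norm_sum_le _ _
    _ ≤ ∑ i, r * ‖b.v i‖ := by
      refine Finset.sum_le_sum fun i _ => ?_
      rw [norm_smul, Real.norm_eq_abs]
      exact mul_le_mul_of_nonneg_right (hx i) (norm_nonneg _)
    _ = r * ∑ i, ‖b.v i‖ := by rw [Finset.mul_sum]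

theorem isCompact_box (r : ℝ) : IsCompact (b.box r) := by
  refine (isCompact_closedBall (0 : E) (r * ∑ i, ‖b.v i‖)).of_isClosed_subset (b.isClosed_box r) ?_
  intro x hx
  rw [Metric.mem_closedBall, dist_zero_right]
  exact b.norm_le_of_mem_box hx

/-- derivative in the direction `v i` -/
def D (i : ι) (g : E → ℂ) (x : E) : ℂ := fderiv ℝ g x (b.v i)

/-- smooth with support in the box -/
structure TB (r : ℝ) (g : E → ℂ) : Prop where
  smooth : ContDiff ℝ ∞ g
  zero : ∀ x ∉ b.box r, g x = 0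

variable {b} {r : ℝ} {g g' : E → ℂ}

theorem TB.slab (h : b.TB r g) (i : ι) : Slab r (b.l i) g := fun y hy =>
  h.zero y fun h' => not_lt.2 (h' i) hy

theorem TB.compact (h : b.TB r g) : HasCompactSupport g :=
  HasCompactSupport.intro (b.isCompact_box r) h.zero

theorem TB.tsupport_subset (h : b.TB r g) : tsupport g ⊆ b.box r :=
  closure_minimal (fun y hy => by_contra fun h' => hy (h.zero y h')) (b.isClosed_box r)

theorem TB.add (h : b.TB r g) (h' : b.TB r g') : b.TB r fun x => g x + g' x :=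
  ⟨h.smooth.add h'.smooth, fun x hx => by rw [h.zero x hx, h'.zero x hx, add_zero]⟩

theorem TB.sub (h : b.TB r g) (h' : b.TB r g') : b.TB r fun x => g x - g' x :=
  ⟨h.smooth.sub h'.smooth, fun x hx => by rw [h.zero x hx, h'.zero x hx, sub_zero]⟩

theorem TB.neg (h : b.TB r g) : b.TB r fun x => -g x :=
  ⟨h.smooth.neg, fun x hx => by rw [h.zero x hx, neg_zero]⟩

theorem TB.const : b.TB r fun _ => 0 := ⟨contDiff_const, fun _ _ => rfl⟩

theorem TB.sum {κ : Type*} (s : Finset κ) {f : κ → E → ℂ} (h : ∀ k ∈ s, b.TB r (f k)) :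
    b.TB r fun x => ∑ k ∈ s, f k x :=
  ⟨ContDiff.sum fun k hk => (h k hk).smooth, fun x hx =>
    Finset.sum_eq_zero fun k hk => (h k hk).zero x hx⟩

theorem TB.D (h : b.TB r g) (i : ι) : b.TB r (b.D i g) := by
  refine ⟨smooth_fderiv h.smooth _, fun x hx => ?_⟩
  have h1 : g =ᶠ[nhds x] fun _ => (0 : ℂ) := by
    filter_upwards [(b.isClosed_box r).isOpen_compl.mem_nhds hx] with z hz using h.zero z hz
  rw [Frame.D, h1.fderiv_eq]
  simp

theorem D_sub (hg : ContDiff ℝ ∞ g) (hg' : ContDiff ℝ ∞ g') (i : ι) (x : E) :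
    b.D i (fun y => g y - g' y) x = b.D i g x - b.D i g' x := by
  unfold Frame.D
  rw [fderiv_fun_sub (hg.differentiable (by simp) x) (hg'.differentiable (by simp) x)]
  rfl

theorem D_add (hg : ContDiff ℝ ∞ g) (hg' : ContDiff ℝ ∞ g') (i : ι) (x : E) :
    b.D i (fun y => g y + g' y) x = b.D i g x + b.D i g' x := by
  unfold Frame.D
  rw [fderiv_fun_add (hg.differentiable (by simp) x) (hg'.differentiable (by simp) x)]
  rfl

theorem D_neg (i : ι) (x : E) : b.D i (fun y => - g y) x = - b.D i g x := by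
  unfold Frame.D
  rw [fderiv_fun_neg]
  rfl

theorem D_sum {κ : Type*} (s : Finset κ) {f : κ → E → ℂ} (h : ∀ k ∈ s, ContDiff ℝ ∞ (f k)) (i : ι)
    (x : E) : b.D i (fun y => ∑ k ∈ s, f k y) x = ∑ k ∈ s, b.D i (f k) x := by
  unfold Frame.D
  rw [fderiv_fun_sum fun k hk => (h k hk).differentiable (by simp) x]
  simp

theorem D_comm (hg : ContDiff ℝ ∞ g) (i j : ι) (x : E) :
    b.D i (b.D j g) x = b.D j (b.D i g) x := by
  have h1 : DifferentiableAt ℝ (fderiv ℝ g) x :=
    (hg.fderiv_right (m := ∞) (by simp)).differentiable (by simp) x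
  have h2 : ∀ u w : E, fderiv ℝ (fun y => fderiv ℝ g y u) x w = fderiv ℝ (fderiv ℝ g) x w u := by
    intro u w
    have h3 := h1.hasFDerivAt.clm_apply (hasFDerivAt_const u x)
    rw [h3.fderiv]
    simp
  unfold Frame.D
  rw [h2, h2]
  have h22 : (2 : WithTop ℕ∞) ≤ ∞ := by exact WithTop.coe_le_coe.2 le_top
  exact (hg.contDiffAt.isSymmSndFDerivAt (n := ∞) (by simpa using h22)) _ _

/-! ### the cut-off of the box -/

/-- a bump of integral one on the line, supported in `[-r, r]` -/
structure Bump (r : ℝ) where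
  f : ℝ → ℝ
  smooth : ContDiff ℝ ∞ f
  zero : ∀ t, r < |t| → f t = 0
  int : ∫ t, f t = 1
  pos : 0 < f 0
  nonneg : ∀ t, 0 ≤ f t

theorem exists_bump (hr : 0 < r) : Nonempty (Bump r) := by
  let f : ContDiffBump (0 : ℝ) := ⟨r / 2, r, by positivity, by linarith⟩
  refine ⟨⟨f.normed volume, f.contDiff_normed, fun t ht => ?_, f.integral_normed, ?_,
    fun t => f.nonneg_normed t⟩⟩
  · have : t ∉ support (f.normed volume) := by
      rw [f.support_normed_eq, Metric.mem_ball, dist_zero_right, Real.norm_eq_abs]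
      exact not_lt.2 ht.le
    simpa using this
  · have : (0 : ℝ) ∈ support (f.normed volume) := by
      rw [f.support_normed_eq]
      exact Metric.mem_ball_self hr
    exact lt_of_le_of_ne (f.nonneg_normed 0) (Ne.symm this)

variable (b) (χ : Bump r)

/-- `χ(x_i) ∫ g(x + s v_i) ds` -/
def P (i : ι) (g : E → ℂ) (x : E) : ℂ := (χ.f (b.l i x) : ℂ) * To (b.v i) g x

/-- primitive of `g - P g` -/
def J (i : ι) (g : E → ℂ) (x : E) : ℂ := Pr (b.v i) (fun y => g y - b.P χ i g y) x

variable {b} {χ}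

theorem TB.P (h : b.TB r g) (i : ι) : b.TB r (b.P χ i g) := by
  constructor
  · have h1 : ContDiff ℝ ∞ fun x => ((χ.f (b.l i x) : ℝ) : ℂ) :=
      Complex.ofRealCLM.contDiff.comp (χ.smooth.comp (b.l i).contDiff)
    exact h1.mul (contDiff_W loc_one (b.dual_self i) h.smooth (h.slab i))
  · intro x hx
    simp only [Frame.box, mem_ofPred_eq, not_forall, not_le] at hx
    obtain ⟨j, hj⟩ := hx
    unfold Frame.P
    by_cases hij : j = i
    · subst hij
      rw [χ.zero _ hj]; simp
    · rw [To_eq]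
      have : ∀ s : ℝ, g (x + s • b.v i) = 0 := fun s => by
        refine h.zero _ fun h' => ?_
        have h2 := h' j
        rw [map_add, map_smul, b.dual_ne hij, smul_zero, add_zero] at h2
        exact not_lt.2 h2 hj
      simp [this]

theorem TB.gP (h : b.TB r g) (i : ι) : b.TB r fun y => g y - b.P χ i g y := h.sub (h.P i)

theorem To_P (i : ι) (g : E → ℂ) (x : E) : To (b.v i) (b.P χ i g) x = To (b.v i) g x := by
  rw [To_eq]
  have h1 : ∀ s : ℝ, b.P χ i g (x + s • b.v i) =
      (χ.f (b.l i x + s) : ℂ) * To (b.v i) g x := by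
    intro s
    rw [Frame.P, To_shift, map_add, map_smul, b.dual_self, smul_eq_mul, mul_one]
  simp only [h1]
  rw [integral_mul_const]
  have h2 : ∫ s : ℝ, ((χ.f (b.l i x + s) : ℝ) : ℂ) = 1 := by
    rw [integral_complex_ofReal]
    have h3 := integral_add_left_eq_self (μ := (volume : Measure ℝ)) χ.f (b.l i x)
    rw [h3, χ.int]
    simp
  rw [h2, one_mul]

theorem To_gP (h : b.TB r g) (i : ι) (x : E) :
    To (b.v i) (fun y => g y - b.P χ i g y) x = 0 := by
  have := W_sub (φ := fun _ => 1) loc_one (b.dual_self i) h.smooth.continuous (h.slab i)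
    (h.P (χ := χ) i).smooth.continuous ((h.P i).slab i) x
  change To (b.v i) (fun y => g y - b.P χ i g y) x = To (b.v i) g x - To (b.v i) (b.P χ i g) x at this
  rw [this, To_P, sub_self]

theorem TB.J (h : b.TB r g) (i : ι) : b.TB r (b.J χ i g) := by
  have hg := h.gP (χ := χ) i
  refine ⟨contDiff_W loc_neg (b.dual_self i) hg.smooth (hg.slab i), fun x hx => ?_⟩
  simp only [Frame.box, mem_ofPred_eq, not_forall, not_le] at hx
  obtain ⟨j, hj⟩ := hx
  unfold Frame.J
  by_cases hij : j = i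
  · subst hij
    rcases le_or_gt 0 (b.l j x) with h0 | h0
    · rw [abs_of_nonneg h0] at hj
      rw [Pr_eq_To, To_gP h]
      intro s hs
      refine hg.zero _ fun h' => ?_
      have h2 := (le_abs_self _).trans (h' j)
      rw [map_add, map_smul, b.dual_self, smul_eq_mul, mul_one] at h2
      linarith
    · rw [abs_of_neg h0] at hj
      rw [Pr_eq]
      rw [setIntegral_eq_zero_of_forall_eq_zero]
      intro s hs
      refine hg.zero _ fun h' => ?_
      have h2 := (neg_le_abs _).trans (h' j)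
      rw [map_add, map_smul, b.dual_self, smul_eq_mul, mul_one] at h2
      rw [mem_Iic] at hs
      linarith
  · rw [Pr_eq]
    rw [setIntegral_eq_zero_of_forall_eq_zero]
    intro s hs
    refine hg.zero _ fun h' => ?_
    have h2 := h' j
    rw [map_add, map_smul, b.dual_ne hij, smul_zero, add_zero] at h2
    exact not_lt.2 h2 hj

/-- `∂_i J_i g = g - P_i g` -/
theorem D_J (h : b.TB r g) (i : ι) (x : E) : b.D i (b.J χ i g) x = g x - b.P χ i g x := by
  have hg := h.gP (χ := χ) i
  have h1 := fderiv_W loc_neg (b.dual_self i) hg.smooth (hg.slab i) x (b.v i)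
  have h2 := Pr_deriv (b.dual_self i) hg.smooth (hg.slab i) x
  exact h1.trans h2

theorem P_D (h : b.TB r g) (i : ι) (x : E) : b.P χ i (b.D i g) x = 0 := by
  unfold Frame.P
  have := To_deriv (b.dual_self i) h.smooth (h.slab i) x
  change _ * To (b.v i) (fun y => fderiv ℝ g y (b.v i)) x = 0
  rw [this, mul_zero]

/-- `J_i ∂_i g = g` -/
theorem J_D (h : b.TB r g) (i : ι) (x : E) : b.J χ i (b.D i g) x = g x := by
  unfold Frame.J
  have h1 : (fun y => b.D i g y - b.P χ i (b.D i g) y) = b.D i g := by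
    funext y
    rw [P_D h, sub_zero]
  rw [h1]
  exact Pr_deriv (b.dual_self i) h.smooth (h.slab i) x

theorem D_P {i j : ι} (hij : i ≠ j) (h : b.TB r g) (x : E) :
    b.D j (b.P χ i g) x = b.P χ i (b.D j g) x := by
  have hT := contDiff_W loc_one (b.dual_self i) h.smooth (h.slab i)
  have h1 := fderiv_W loc_one (b.dual_self i) h.smooth (h.slab i) x (b.v j)
  have h2 : ContDiff ℝ ∞ fun x => ((χ.f (b.l i x) : ℝ) : ℂ) :=
    Complex.ofRealCLM.contDiff.comp (χ.smooth.comp (b.l i).contDiff)
  have h3 : fderiv ℝ (fun x => ((χ.f (b.l i x) : ℝ) : ℂ)) x (b.v j) = 0 := by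
    have h4 : HasFDerivAt (fun x => ((χ.f (b.l i x) : ℝ) : ℂ))
        (Complex.ofRealCLM ∘L (fderiv ℝ χ.f (b.l i x) ∘L b.l i)) x :=
      Complex.ofRealCLM.hasFDerivAt.comp x
        ((χ.smooth.differentiable (by simp) _).hasFDerivAt.comp x (b.l i).hasFDerivAt)
    rw [h4.fderiv]
    simp [b.dual_ne hij]
  unfold Frame.D Frame.P
  have h5 := (h2.differentiable (by simp) x).hasFDerivAt.fun_mul
    ((hT.differentiable (by simp) x).hasFDerivAt)
  have h6 : (fun x => ((χ.f (b.l i x) : ℝ) : ℂ) * To (b.v i) g x) =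
    fun x => ((χ.f (b.l i x) : ℝ) : ℂ) * W (fun _ => 1) (b.v i) g x := rfl
  rw [h6, h5.fderiv]
  simp only [add_apply, smul_apply, smul_eq_mul]
  rw [h3, h1, mul_zero, add_zero]
  rfl

/-- `∂_j J_i = J_i ∂_j`, `j ≠ i` -/
theorem D_J_ne {i j : ι} (hij : i ≠ j) (h : b.TB r g) (x : E) :
    b.D j (b.J χ i g) x = b.J χ i (b.D j g) x := by
  have hg := h.gP (χ := χ) i
  have h1 := fderiv_W loc_neg (b.dual_self i) hg.smooth (hg.slab i) x (b.v j)
  refine h1.trans ?_
  unfold Frame.J Pr
  congr 1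
  funext y
  have h2 := D_sub (b := b) h.smooth (h.P (χ := χ) i).smooth j y
  have h3 := D_P (χ := χ) hij h y
  change b.D j (fun y => g y - b.P χ i g y) y = _
  rw [h2, h3]

theorem J_add (h : b.TB r g) (h' : b.TB r g') (i : ι) (x : E) :
    b.J χ i (fun y => g y + g' y) x = b.J χ i g x + b.J χ i g' x := by
  have hg := h.gP (χ := χ) i
  have hg' := h'.gP (χ := χ) i
  have h1 : (fun y => (g y + g' y) - b.P χ i (fun y => g y + g' y) y) =
      fun y => (g y - b.P χ i g y) + (g' y - b.P χ i g' y) := by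
    funext y
    have : b.P χ i (fun y => g y + g' y) y = b.P χ i g y + b.P χ i g' y := by
      unfold Frame.P
      have := W_add (φ := fun _ => 1) loc_one (b.dual_self i) h.smooth.continuous (h.slab i)
        h'.smooth.continuous (h'.slab i) y
      change _ * W _ _ _ _ = _ * W _ _ _ _ + _ * W _ _ _ _
      rw [this, mul_add]
    rw [this]
    ring
  unfold Frame.J
  rw [h1]
  exact W_add loc_neg (b.dual_self i) hg.smooth.continuous (hg.slab i) hg'.smooth.continuous
    (hg'.slab i) x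

theorem J_zero (i : ι) (x : E) : b.J χ i (fun _ => 0) x = 0 := by
  unfold Frame.J Frame.P Pr To W
  simp

theorem J_sum {κ : Type*} (s : Finset κ) {f : κ → E → ℂ} (h : ∀ k ∈ s, b.TB r (f k)) (i : ι)
    (x : E) : b.J χ i (fun y => ∑ k ∈ s, f k y) x = ∑ k ∈ s, b.J χ i (f k) x := by
  classical
  induction s using Finset.induction_on with
  | empty => simpa using J_zero i x
  | insert a s ha ih =>
    simp only [Finset.sum_insert ha]
    rw [J_add (h a (Finset.mem_insert_self _ _)) (TB.sum s fun k hk =>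
      h k (Finset.mem_insert_of_mem hk)), ih fun k hk => h k (Finset.mem_insert_of_mem hk)]

theorem J_neg (h : b.TB r g) (i : ι) (x : E) :
    b.J χ i (fun y => -g y) x = - b.J χ i g x := by
  have h1 := J_add (χ := χ) h h.neg i x
  simp only [add_neg_cancel] at h1
  rw [J_zero] at h1
  exact (neg_eq_of_add_eq_zero_right h1.symm).symm

end Frame

end Vale.Agent.P267.H368.Bog
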