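import Vale.Agent.P267.H368.BogB

/-!
# P267, UNI-XT (helper368), part 3: Poincare lemma with supports in a box
-/

set_option linter.unusedSectionVars false

open MeasureTheory Set Function
open scoped ContDiff

noncomputable section

namespace Vale.Agent.P267.H368.Bog

open Vale.Agent.P231.Fm

variable {E : Type*} [NormedAddCommGroup E] [NormedSpace ℝ E] [FiniteDimensional ℝ E]
variable {ι : Type*} [Fintype ι] [DecidableEq ι]

namespace Frame

variable {b : Frame E ι} {r : ℝ}

/-- the divergence of the divergence of an antisymmetric field -/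
theorem div_div {B : ι → ι → E → ℂ} (hB : ∀ i j, ContDiff ℝ ∞ (B i j))
    (hanti : ∀ i j x, B i j x = -B j i x) (x : E) :
    ∑ i, b.D i (fun y => ∑ j, b.D j (B i j) y) x = 0 := by
  have h1 : ∀ i, b.D i (fun y => ∑ j, b.D j (B i j) y) x = ∑ j, b.D i (b.D j (B i j)) x := fun i =>
    D_sum _ (fun j _ => smooth_fderiv (hB i j) _) i x
  simp only [h1]
  have h2 : ∑ i, ∑ j, b.D i (b.D j (B i j)) x = -∑ i, ∑ j, b.D i (b.D j (B i j)) x := by
    conv_lhs => rw [Finset.sum_comm]
    rw [← Finset.sum_neg_distrib]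
    refine Finset.sum_congr rfl fun i _ => ?_
    rw [← Finset.sum_neg_distrib]
    refine Finset.sum_congr rfl fun j _ => ?_
    have h3 : B j i = fun y => -B i j y := by
      funext y; exact hanti j i y
    rw [D_comm (hB j i), h3]
    have h4 : b.D j (fun y => -B i j y) = fun y => -b.D j (B i j) y := by
      funext y; exact D_neg j y
    rw [h4]
    exact D_neg i x
  have h3 : (2 : ℂ) * ∑ i, ∑ j, b.D i (b.D j (B i j)) x = 0 := by linear_combination h2
  simpa using h3

/-- one step: removes the component `a` -/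
theorem step (χ : Bump r) {V : ι → E → ℂ} (hV : ∀ i, b.TB r (V i))
    (hdiv : ∀ x, ∑ i, b.D i (V i) x = 0) (a : ι) :
    ∃ B : ι → ι → E → ℂ, (∀ i j, b.TB r (B i j)) ∧ (∀ i j x, B i j x = -B j i x) ∧
      (∀ i, i ≠ a → ∀ x, V i x - ∑ j, b.D j (B i j) x = b.P χ a (V i) x) ∧
      ∀ x, V a x - ∑ j, b.D j (B a j) x = 0 := by
  let B : ι → ι → E → ℂ := fun i j x =>
    (if j = a ∧ i ≠ a then b.J χ a (V i) x else 0) - (if i = a ∧ j ≠ a then b.J χ a (V j) x else 0)
  have hB : ∀ i j, B i j = if j = a ∧ i ≠ a then b.J χ a (V i) else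
      if i = a ∧ j ≠ a then fun x => -b.J χ a (V j) x else fun _ => 0 := by
    intro i j
    funext x
    by_cases h1 : j = a ∧ i ≠ a
    · have h2 : ¬ (i = a ∧ j ≠ a) := fun h => h1.2 h.1
      simp only [B, if_pos h1, if_neg h2, sub_zero]
    · by_cases h2 : i = a ∧ j ≠ a
      · simp only [B, if_neg h1, if_pos h2, zero_sub]
      · simp only [B, if_neg h1, if_neg h2, sub_zero]
  have hTB : ∀ i j, b.TB r (B i j) := by
    intro i j
    rw [hB]
    split_ifs
    · exact (hV i).J a
    · exact ((hV j).J a).neg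
    · exact TB.const
  refine ⟨B, hTB, fun i j x => ?_, fun i hi x => ?_, fun x => ?_⟩
  · simp only [B]; ring
  · have h1 : ∀ j, b.D j (B i j) x = if j = a then b.D a (b.J χ a (V i)) x else 0 := by
      intro j
      rw [hB]
      by_cases hj : j = a
      · subst hj
        rw [if_pos ⟨rfl, hi⟩, if_pos rfl]
      · rw [if_neg (fun h => hj h.1), if_neg (fun h => hi h.1), if_neg hj]
        simp [Frame.D]
    simp only [h1, Finset.sum_ite_eq', Finset.mem_univ, if_true]
    rw [D_J (hV i)]
    ring
  · have h1 : ∀ j, b.D j (B a j) x = if j = a then 0 else -b.J χ a (b.D j (V j)) x := by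
      intro j
      rw [hB]
      by_cases hj : j = a
      · subst hj
        rw [if_neg (fun h => h.2 rfl), if_neg (fun h => h.2 rfl), if_pos rfl]
        simp [Frame.D]
      · rw [if_neg (fun h => hj h.1), if_pos ⟨rfl, hj⟩, if_neg hj, D_neg, D_J_ne (Ne.symm hj) (hV j)]
    have h2 : b.J χ a (fun y => ∑ j, b.D j (V j) y) x = 0 := by
      have : (fun y => ∑ j, b.D j (V j) y) = fun _ => 0 := by
        funext y; exact hdiv y
      rw [this, J_zero]
    rw [J_sum _ fun j _ => (hV j).D j] at h2
    simp only [h1]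
    rw [← Finset.add_sum_erase _ _ (Finset.mem_univ a), if_pos rfl, zero_add]
    rw [← Finset.add_sum_erase _ _ (Finset.mem_univ a), J_D (hV a)] at h2
    have h3 : ∑ j ∈ Finset.univ.erase a, (if j = a then 0 else -b.J χ a (b.D j (V j)) x) =
        -∑ j ∈ Finset.univ.erase a, b.J χ a (b.D j (V j)) x := by
      rw [← Finset.sum_neg_distrib]
      refine Finset.sum_congr rfl fun j hj => ?_
      rw [if_neg (Finset.ne_of_mem_erase hj)]
    rw [h3, sub_neg_eq_add, h2]

/-- divergence free fields in a box (degree `n - 1`) -/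
theorem exists_curl (χ : Bump r) {V : ι → E → ℂ} (hV : ∀ i, b.TB r (V i))
    (hdiv : ∀ x, ∑ i, b.D i (V i) x = 0) :
    ∃ B : ι → ι → E → ℂ, (∀ i j, b.TB r (B i j)) ∧ (∀ i j x, B i j x = -B j i x) ∧
      ∀ i x, V i x = ∑ j, b.D j (B i j) x := by
  suffices h : ∀ (S : Finset ι) (V : ι → E → ℂ), (∀ i, b.TB r (V i)) →
      (∀ x, ∑ i, b.D i (V i) x = 0) → (∀ i ∉ S, ∀ x, V i x = 0) →
      ∃ B : ι → ι → E → ℂ, (∀ i j, b.TB r (B i j)) ∧ (∀ i j x, B i j x = -B j i x) ∧
      ∀ i x, V i x = ∑ j, b.D j (B i j) x from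
    h Finset.univ V hV hdiv fun i hi => absurd (Finset.mem_univ i) hi
  intro S
  induction S using Finset.induction_on with
  | empty =>
    intro V hV _ h0
    refine ⟨fun _ _ _ => 0, fun _ _ => TB.const, fun _ _ _ => by simp, fun i x => ?_⟩
    rw [h0 i (Finset.notMem_empty i)]
    simp [Frame.D]
  | insert a S ha ih =>
    intro V hV hdiv h0
    obtain ⟨B, hB, hanti, h1, h2⟩ := step χ hV hdiv a
    have hdiv' : ∀ x, ∑ i, b.D i (fun x => V i x - ∑ j, b.D j (B i j) x) x = 0 := by
      intro x
      have h4 : ∀ i, b.D i (fun x => V i x - ∑ j, b.D j (B i j) x) x =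
          b.D i (V i) x - b.D i (fun x => ∑ j, b.D j (B i j) x) x := fun i =>
        D_sub (hV i).smooth (TB.sum _ fun j _ => (hB i j).D j).smooth i x
      simp only [h4, Finset.sum_sub_distrib]
      rw [hdiv, div_div (fun i j => (hB i j).smooth) hanti, sub_zero]
    have h0' : ∀ i ∉ S, ∀ x, V i x - ∑ j, b.D j (B i j) x = 0 := by
      intro i hi x
      by_cases hia : i = a
      · subst hia
        exact h2 x
      · rw [h1 i hia x]
        have h5 : V i = fun _ => 0 := by
          funext y
          exact h0 i (by simp [hia, hi]) y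
        rw [h5]
        simp [Frame.P, To, W]
    obtain ⟨B', hB', hanti', h3⟩ := ih (fun i x => V i x - ∑ j, b.D j (B i j) x)
      (fun i => (hV i).sub (TB.sum _ fun j _ => (hB i j).D j)) hdiv' h0'
    refine ⟨fun i j x => B i j x + B' i j x, fun i j => (hB i j).add (hB' i j), fun i j x => ?_,
        fun i x => ?_⟩
    · change B i j x + B' i j x = -(B j i x + B' j i x)
      rw [hanti i j x, hanti' i j x]; ring
    · have h4 := h3 i x
      have h5 : ∀ j, b.D j (fun y => B i j y + B' i j y) x = b.D j (B i j) x + b.D j (B' i j) x :=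
          fun j => D_add (hB i j).smooth (hB' i j).smooth j x
      simp only [h5, Finset.sum_add_distrib]
      rw [← h4]
      ring

/-- `f` is a multiple of the bump in the directions of `S` -/
def Shape (b : Frame E ι) (χ : Bump r) (S : Finset ι) (f : E → ℂ) : Prop :=
  ∀ a ∈ S, ∀ x (t : ℝ), (χ.f (b.l a x) : ℂ) * f (x + t • b.v a) = (χ.f (b.l a x + t) : ℂ) * f x

theorem shape_P (χ : Bump r) {S : Finset ι} {f : E → ℂ} (hf : b.Shape χ S f) {c : ι} (hc : c ∉ S) :
    b.Shape χ (insert c S) (b.P χ c f) := by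
  intro a ha x t
  rcases Finset.mem_insert.1 ha with rfl | ha
  · simp only [Frame.P]
    rw [To_shift, map_add, map_smul, b.dual_self, smul_eq_mul, mul_one]
    ring
  · have hac : a ≠ c := fun h => hc (h ▸ ha)
    simp only [Frame.P]
    rw [map_add, map_smul, b.dual_ne (Ne.symm hac), smul_zero, add_zero, To_eq, To_eq]
    have h1 : ∀ s : ℝ, (χ.f (b.l a x) : ℂ) * f (x + t • b.v a + s • b.v c) =
        (χ.f (b.l a x + t) : ℂ) * f (x + s • b.v c) := by
      intro s
      have h2 := hf a ha (x + s • b.v c) t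
      rw [map_add, map_smul, b.dual_ne hac, smul_zero, add_zero] at h2
      rw [add_right_comm]
      exact h2
    have h3 : (χ.f (b.l a x) : ℂ) * ∫ s : ℝ, f (x + t • b.v a + s • b.v c) =
        (χ.f (b.l a x + t) : ℂ) * ∫ s : ℝ, f (x + s • b.v c) := by
      rw [← integral_const_mul, ← integral_const_mul]
      simp only [h1]
    linear_combination (χ.f (b.l c x) : ℂ) * h3

theorem shape_eq (χ : Bump r) {f : E → ℂ} (hf : b.Shape χ Finset.univ f) (x : E) :
    (∏ _i : ι, (χ.f 0 : ℂ)) * f x = (∏ i, (χ.f (b.l i x) : ℂ)) * f 0 := by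
  suffices h : ∀ T : Finset ι, (∏ _i ∈ T, (χ.f 0 : ℂ)) * f (∑ i ∈ T, b.l i x • b.v i) =
      (∏ i ∈ T, (χ.f (b.l i x) : ℂ)) * f 0 by
    have := h Finset.univ
    rwa [b.expand] at this
  intro T
  induction T using Finset.induction_on with
  | empty => simp
  | insert a T ha ih =>
    rw [Finset.prod_insert ha, Finset.prod_insert ha, Finset.sum_insert ha]
    set p := ∑ i ∈ T, b.l i x • b.v i with hp
    have h1 : b.l a p = 0 := by
      rw [hp, map_sum]
      refine Finset.sum_eq_zero fun i hi => ?_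
      rw [map_smul, b.dual_ne (i := a) (j := i) (fun h => ha (by rw [h]; exact hi)), smul_zero]
    have h2 := hf a (Finset.mem_univ a) p (b.l a x)
    rw [h1, zero_add] at h2
    rw [add_comm (b.l a x • b.v a)]
    linear_combination (∏ _i ∈ T, (χ.f 0 : ℂ)) * h2 + (χ.f (b.l a x) : ℂ) * ih

variable [MeasurableSpace E] [BorelSpace E]

theorem integral_D (μ : Measure E) [μ.IsAddHaarMeasure] {g : E → ℂ} (hg : ContDiff ℝ ∞ g)
    (hc : HasCompactSupport g) (i : ι) : ∫ x, b.D i g x ∂μ = 0 :=
  integral_fderiv_fibre μ (hg.of_le (by simp)) hc (b.v i)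

/-- functions of integral zero in a box (degree `n`) -/
theorem exists_div (μ : Measure E) [μ.IsAddHaarMeasure] (χ : Bump r) {f : E → ℂ} (hf : b.TB r f)
    (hint : ∫ x, f x ∂μ = 0) :
    ∃ V : ι → E → ℂ, (∀ i, b.TB r (V i)) ∧ ∀ x, f x = ∑ i, b.D i (V i) x := by
  have key : ∀ S : Finset ι, ∃ (V : ι → E → ℂ) (g : E → ℂ), (∀ i, b.TB r (V i)) ∧ b.TB r g ∧
      b.Shape χ S g ∧ ∀ x, f x = (∑ i, b.D i (V i) x) + g x := by
    intro S
    induction S using Finset.induction_on with
    | empty =>
      refine ⟨fun _ _ => 0, f, fun _ => TB.const, hf, fun a ha => absurd ha (Finset.notMem_empty a),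
        fun x => ?_⟩
      simp [Frame.D]
    | insert a S ha ih =>
      obtain ⟨V, g, hV, hg, hs, h1⟩ := ih
      refine ⟨fun i x => V i x + if i = a then b.J χ a g x else 0, b.P χ a g, fun i => ?_, hg.P a,
        shape_P χ hs ha, fun x => ?_⟩
      · by_cases hi : i = a
        · subst hi
          simpa using (hV i).add (hg.J i)
        · simpa [hi] using hV i
      · have h2 : ∀ i, b.D i (fun x => V i x + if i = a then b.J χ a g x else 0) x =
            b.D i (V i) x + if i = a then b.D a (b.J χ a g) x else 0 := by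
          intro i
          by_cases hi : i = a
          · subst hi
            simp only [if_true]
            exact D_add (hV i).smooth (hg.J i).smooth i x
          · simp [hi]
        simp only [h2, Finset.sum_add_distrib, Finset.sum_ite_eq', Finset.mem_univ, if_true]
        rw [D_J hg, h1]
        ring
  obtain ⟨V, g, hV, hg, hs, h1⟩ := key Finset.univ
  have h2 : ∫ x, g x ∂μ = 0 := by
    have h3 : ∀ x, g x = f x - ∑ i, b.D i (V i) x := fun x => by rw [h1]; ring
    simp only [h3]
    rw [integral_sub, integral_finsetSum, hint]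
    · simp [integral_D μ (hV _).smooth (hV _).compact]
    · intro i _
      exact ((hV i).D i).smooth.continuous.integrable_of_hasCompactSupport ((hV i).D i).compact
    · exact hf.smooth.continuous.integrable_of_hasCompactSupport hf.compact
    · have h4 := TB.sum Finset.univ fun i _ => (hV i).D i
      exact h4.smooth.continuous.integrable_of_hasCompactSupport h4.compact
  set C : ℂ := ∏ _i : ι, (χ.f 0 : ℂ) with hC
  have hC0 : C ≠ 0 := by
    rw [hC, Finset.prod_ne_zero_iff]
    intro i _
    exact_mod_cast χ.pos.ne'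
  have h3 : ∀ x, g x = (((∏ i, χ.f (b.l i x) : ℝ)) : ℂ) * (g 0 * C⁻¹) := by
    intro x
    have h4 := shape_eq χ hs x
    rw [← hC] at h4
    have : g x = C⁻¹ * (C * g x) := by rw [← mul_assoc, inv_mul_cancel₀ hC0, one_mul]
    rw [this, h4]
    push_cast
    ring
  have hpos : 0 < ∫ x, (∏ i, χ.f (b.l i x) : ℝ) ∂μ := by
    have hcont : Continuous fun x => (∏ i, χ.f (b.l i x) : ℝ) := by
      refine continuous_finsetProd _ fun i _ => χ.smooth.continuous.comp (b.l i).continuous
    have hsupp : HasCompactSupport fun x => (∏ i, χ.f (b.l i x) : ℝ) := by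
      refine HasCompactSupport.intro (b.isCompact_box r) fun x hx => ?_
      simp only [Frame.box, mem_ofPred_eq, not_forall, not_le] at hx
      obtain ⟨j, hj⟩ := hx
      exact Finset.prod_eq_zero (Finset.mem_univ j) (χ.zero _ hj)
    refine hcont.integral_pos_of_hasCompactSupport_nonneg_nonzero hsupp
      (fun x => Finset.prod_nonneg fun i _ => χ.nonneg _) (x := 0) ?_
    simp only [map_zero]
    exact (Finset.prod_pos fun i _ => χ.pos).ne'
  have h5 : g 0 * C⁻¹ = 0 := by
    have h6 : ∫ x, g x ∂μ = ((∫ x, (∏ i, χ.f (b.l i x) : ℝ) ∂μ : ℝ) : ℂ) * (g 0 * C⁻¹) := by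
      rw [← integral_complex_ofReal, ← integral_mul_const]
      exact integral_congr_ae (Filter.Eventually.of_forall h3)
    rw [h2] at h6
    rcases mul_eq_zero.1 h6.symm with h7 | h7
    · exact absurd (by exact_mod_cast h7) hpos.ne'
    · exact h7
  refine ⟨V, hV, fun x => ?_⟩
  rw [h1, h3 x, h5, mul_zero, add_zero]

end Frame

end Vale.Agent.P267.H368.Bog
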