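import Vale.Agent.P267.H368.BogC

/-!
# P267, UNI-XT (helper368), part 4: Poincare lemma with compact supports in a convex open set
-/

set_option linter.unusedSectionVars false

open MeasureTheory Set Function
open scoped ContDiff

noncomputable section

namespace Vale.Agent.P267.H368.Bog

open Vale.Agent.P231.Fm

variable {E : Type*} [NormedAddCommGroup E] [NormedSpace ℝ E] [FiniteDimensional ℝ E]
variable {ι : Type*} [Fintype ι] [DecidableEq ι]

/-- test functions on an open set -/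
structure TF (Ω : Set E) (f : E → ℂ) : Prop where
  smooth : ContDiff ℝ ∞ f
  compact : HasCompactSupport f
  sub : tsupport f ⊆ Ω

namespace TF

variable {Ω : Set E} {f g : E → ℂ}

theorem intro {K : Set E} (hK : IsCompact K) (hKΩ : K ⊆ Ω) (hf : ContDiff ℝ ∞ f)
    (h0 : ∀ x ∉ K, f x = 0) : TF Ω f := by
  have h1 : tsupport f ⊆ K :=
    closure_minimal (fun y hy => by_contra fun h' => hy (h0 y h')) hK.isClosed
  exact ⟨hf, HasCompactSupport.intro hK h0, h1.trans hKΩ⟩

theorem eq_zero (_h : TF Ω f) {x : E} (hx : x ∉ tsupport f) : f x = 0 :=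
  image_eq_zero_of_notMem_tsupport hx

theorem add (hf : TF Ω f) (hg : TF Ω g) : TF Ω fun x => f x + g x :=
  intro (hf.compact.isCompact.union hg.compact.isCompact) (union_subset hf.sub hg.sub)
    (hf.smooth.add hg.smooth) fun x hx => by
      rw [mem_union, not_or] at hx
      rw [hf.eq_zero hx.1, hg.eq_zero hx.2, add_zero]

theorem neg (hf : TF Ω f) : TF Ω fun x => -f x :=
  intro hf.compact.isCompact hf.sub hf.smooth.neg fun x hx => by rw [hf.eq_zero hx, neg_zero]

theorem sub' (hf : TF Ω f) (hg : TF Ω g) : TF Ω fun x => f x - g x := by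
  simpa only [sub_eq_add_neg] using hf.add hg.neg

theorem const : TF Ω fun _ => 0 := intro isCompact_empty (empty_subset _) contDiff_const fun _ _ => rfl

theorem sum {κ : Type*} (s : Finset κ) {f : κ → E → ℂ} (h : ∀ k ∈ s, TF Ω (f k)) :
    TF Ω fun x => ∑ k ∈ s, f k x := by
  classical
  induction s using Finset.induction_on with
  | empty => simpa using const
  | insert a s ha ih =>
    simp only [Finset.sum_insert ha]
    exact (h a (Finset.mem_insert_self _ _)).add (ih fun k hk => h k (Finset.mem_insert_of_mem hk))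

theorem mul (hf : TF Ω f) (hg : ContDiff ℝ ∞ g) : TF Ω fun x => g x * f x :=
  intro hf.compact.isCompact hf.sub (hg.mul hf.smooth) fun x hx => by rw [hf.eq_zero hx, mul_zero]

/-- product with a function which is smooth on `Ω` only -/
theorem mul_on (hΩ : IsOpen Ω) (hf : TF Ω f) (hg : ContDiffOn ℝ ∞ g Ω) :
    TF Ω fun x => g x * f x := by
  refine intro hf.compact.isCompact hf.sub ?_ fun x hx => by rw [hf.eq_zero hx, mul_zero]
  rw [contDiff_iff_contDiffAt]
  intro x
  by_cases hx : x ∈ tsupport f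
  · exact (hg.contDiffAt (hΩ.mem_nhds (hf.sub hx))).mul hf.smooth.contDiffAt
  · have h1 : (fun x => g x * f x) =ᶠ[nhds x] fun _ => 0 := by
      filter_upwards [(isClosed_tsupport f).isOpen_compl.mem_nhds hx] with y hy
      rw [hf.eq_zero hy, mul_zero]
    exact contDiffAt_const.congr_of_eventuallyEq h1

theorem const_mul (hf : TF Ω f) (c : ℂ) : TF Ω fun x => c * f x := hf.mul contDiff_const

theorem fderiv (hf : TF Ω f) (u : E) : TF Ω fun x => fderiv ℝ f x u := by
  refine intro hf.compact.isCompact hf.sub (smooth_fderiv hf.smooth u) fun x hx => ?_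
  have h1 : f =ᶠ[nhds x] fun _ => (0 : ℂ) := by
    filter_upwards [(isClosed_tsupport f).isOpen_compl.mem_nhds hx] with z hz using hf.eq_zero hz
  rw [h1.fderiv_eq]
  simp

theorem mono {Ω' : Set E} (hf : TF Ω f) (h : Ω ⊆ Ω') : TF Ω' f := ⟨hf.smooth, hf.compact, hf.sub.trans h⟩

theorem integrable [MeasurableSpace E] [BorelSpace E] {μ : Measure E} [IsFiniteMeasureOnCompacts μ]
    (hf : TF Ω f) : Integrable f μ :=
  hf.smooth.continuous.integrable_of_hasCompactSupport hf.compact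

end TF

theorem Frame.TB.toTF {b : Frame E ι} {r : ℝ} {f : E → ℂ} (h : b.TB r f) {Ω : Set E}
    (hΩ : b.box r ⊆ Ω) : TF Ω f := TF.intro (b.isCompact_box r) hΩ h.smooth h.zero

/-! ### homotheties -/

section homothety

variable {Ω : Set E} {f : E → ℂ} {T : ℝ}

/-- `∫_1^T t^k f(tx) dt`, parametrised by `[0,1]` -/
def Hom (T : ℝ) (k : ℕ) (f : E → ℂ) (x : E) : ℂ :=
  ∫ s in (0 : ℝ)..1, (((1 + s * (T - 1)) ^ k * (T - 1) : ℝ) : ℂ) * f ((1 + s * (T - 1)) • x)

/-- the integrand -/
def hint (T : ℝ) (k : ℕ) (f : E → ℂ) (p : E × ℝ) : ℂ :=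
  (((1 + p.2 * (T - 1)) ^ k * (T - 1) : ℝ) : ℂ) * f ((1 + p.2 * (T - 1)) • p.1)

theorem contDiff_hint (T : ℝ) (k : ℕ) (hf : ContDiff ℝ ∞ f) : ContDiff ℝ ∞ (hint T k f) := by
  unfold hint
  refine ContDiff.mul ?_ (hf.comp (by fun_prop))
  have h1 : ContDiff ℝ ∞ fun p : E × ℝ => (1 + p.2 * (T - 1)) ^ k * (T - 1) := by fun_prop
  exact Complex.ofRealCLM.contDiff.comp h1

theorem contDiff_Hom (T : ℝ) (k : ℕ) (hf : ContDiff ℝ ∞ f) : ContDiff ℝ ∞ (Hom T k f) :=
  contDiffOn_univ.1 (contDiffOn_time (n := ⊤) isOpen_univ (contDiff_hint T k hf).contDiffOn)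

theorem fderiv_Hom (T : ℝ) (k : ℕ) (hf : ContDiff ℝ ∞ f) (x u : E) :
    fderiv ℝ (Hom T k f) x u = Hom T (k + 1) (fun y => fderiv ℝ f y u) x := by
  have h1 := hasFDerivAt_time isOpen_univ (g := hint T k f)
    ((contDiff_hint T k hf).of_le (by simp)).contDiffOn (mem_univ x)
  have h2 : ∀ t : ℝ, fderiv ℝ (hint T k f) (x, t) ∘L ContinuousLinearMap.inl ℝ E ℝ =
      (((1 + t * (T - 1)) ^ (k + 1) * (T - 1) : ℝ) : ℂ) • fderiv ℝ f ((1 + t * (T - 1)) • x) := by
    intro t
    have h3 : HasFDerivAt (hint T k f) (fderiv ℝ (hint T k f) (x, t)) (x, t) :=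
      ((contDiff_hint T k hf).differentiable (by simp) _).hasFDerivAt
    have h4 : HasFDerivAt (fun z => hint T k f (z, t))
        (fderiv ℝ (hint T k f) (x, t) ∘L ContinuousLinearMap.inl ℝ E ℝ) x :=
      HasFDerivAt.comp (g := hint T k f) (f := fun z => (z, t)) x h3 (hasFDerivAt_prodMk_left x t)
    have h5 : HasFDerivAt (fun z => f ((1 + t * (T - 1)) • z))
        ((1 + t * (T - 1)) • fderiv ℝ f ((1 + t * (T - 1)) • x)) x := by
      have h6 : HasFDerivAt (fun z : E => (1 + t * (T - 1)) • z)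
          ((1 + t * (T - 1)) • ContinuousLinearMap.id ℝ E) x :=
        (hasFDerivAt_id x).const_smul (1 + t * (T - 1))
      have h7 : HasFDerivAt f (fderiv ℝ f ((1 + t * (T - 1)) • x)) ((1 + t * (T - 1)) • x) :=
        (hf.differentiable (by simp) _).hasFDerivAt
      have h8 := h7.comp x h6
      refine HasFDerivAt.congr_fderiv h8 ?_
      ext w
      simp
    have h9 := h5.const_mul (((1 + t * (T - 1)) ^ k * (T - 1) : ℝ) : ℂ)
    have h10 := h4.unique h9
    rw [h10]
    ext w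
    simp only [smul_apply, smul_eq_mul, Complex.real_smul]
    push_cast
    ring
  simp only [h2] at h1
  have h3 : Hom T k f = fun x => ∫ t in (0 : ℝ)..1, hint T k f (x, t) := rfl
  rw [h3, h1.fderiv]
  have h4 : IntervalIntegrable (fun t : ℝ => (((1 + t * (T - 1)) ^ (k + 1) * (T - 1) : ℝ) : ℂ) •
      fderiv ℝ f ((1 + t * (T - 1)) • x)) volume 0 1 := by
    refine Continuous.intervalIntegrable ?_ _ _
    refine Continuous.smul (Complex.continuous_ofReal.comp (by fun_prop)) ?_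
    exact (hf.continuous_fderiv (by simp)).comp (by fun_prop)
  rw [ContinuousLinearMap.intervalIntegral_apply h4]
  rfl

/-- Euler's identity -/
theorem euler (b : Frame E ι) (T : ℝ) (k : ℕ) (hf : ContDiff ℝ ∞ f) (x : E) :
    ((k + 1 : ℕ) : ℂ) * Hom T k f x + ∑ i, (b.l i x : ℂ) * b.D i (Hom T k f) x =
      ((T ^ (k + 1) : ℝ) : ℂ) * f (T • x) - f x := by
  have h1 : ∀ i, (b.l i x : ℂ) * b.D i (Hom T k f) x = ∫ s in (0 : ℝ)..1,
      (b.l i x : ℂ) * ((((1 + s * (T - 1)) ^ (k + 1) * (T - 1) : ℝ) : ℂ) *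
        fderiv ℝ f ((1 + s * (T - 1)) • x) (b.v i)) := by
    intro i
    rw [Frame.D, fderiv_Hom T k hf, Hom, intervalIntegral.integral_const_mul]
  have hci : ∀ i, Continuous fun s : ℝ => (b.l i x : ℂ) *
      ((((1 + s * (T - 1)) ^ (k + 1) * (T - 1) : ℝ) : ℂ) *
        fderiv ℝ f ((1 + s * (T - 1)) • x) (b.v i)) := by
    intro i
    have h2 : Continuous fun s : ℝ => fderiv ℝ f ((1 + s * (T - 1)) • x) :=
      (hf.continuous_fderiv (by simp)).comp (by fun_prop)
    have h3 : Continuous fun s : ℝ => (((1 + s * (T - 1)) ^ (k + 1) * (T - 1) : ℝ) : ℂ) :=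
      Complex.continuous_ofReal.comp (by fun_prop)
    exact continuous_const.mul (h3.mul (h2.clm_apply continuous_const))
  have hc0 : Continuous fun s : ℝ => ((k + 1 : ℕ) : ℂ) *
      ((((1 + s * (T - 1)) ^ k * (T - 1) : ℝ) : ℂ) * f ((1 + s * (T - 1)) • x)) := by
    have h3 : Continuous fun s : ℝ => (((1 + s * (T - 1)) ^ k * (T - 1) : ℝ) : ℂ) :=
      Complex.continuous_ofReal.comp (by fun_prop)
    exact continuous_const.mul (h3.mul (hf.continuous.comp (by fun_prop)))
  simp only [h1]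
  rw [← intervalIntegral.integral_finsetSum fun i _ => (hci i).intervalIntegrable _ _, Hom,
    ← intervalIntegral.integral_const_mul, ← intervalIntegral.integral_add
      (hc0.intervalIntegrable _ _)
      ((continuous_finsetSum _ fun i _ => hci i).intervalIntegrable _ _)]
  have hder : ∀ s : ℝ, HasDerivAt (fun s : ℝ => (((1 + s * (T - 1)) ^ (k + 1) : ℝ) : ℂ) *
      f ((1 + s * (T - 1)) • x))
      (((k + 1 : ℕ) : ℂ) *
      ((((1 + s * (T - 1)) ^ k * (T - 1) : ℝ) : ℂ) * f ((1 + s * (T - 1)) • x)) +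
      ∑ i, (b.l i x : ℂ) * ((((1 + s * (T - 1)) ^ (k + 1) * (T - 1) : ℝ) : ℂ) *
        fderiv ℝ f ((1 + s * (T - 1)) • x) (b.v i))) s := by
    intro s
    have h2 : HasDerivAt (fun s : ℝ => 1 + s * (T - 1)) (T - 1) s := by
      simpa using ((hasDerivAt_id s).mul_const (T - 1)).const_add 1
    have h3 : HasDerivAt (fun s : ℝ => (1 + s * (T - 1)) ^ (k + 1))
        (((k + 1 : ℕ) : ℝ) * (1 + s * (T - 1)) ^ k * (T - 1)) s := by
      simpa using h2.fun_pow (k + 1)
    have h4 : HasDerivAt (fun s : ℝ => (((1 + s * (T - 1)) ^ (k + 1) : ℝ) : ℂ))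
        ((((k + 1 : ℕ) : ℝ) * (1 + s * (T - 1)) ^ k * (T - 1) : ℝ) : ℂ) s := h3.ofReal_comp
    have h5 : HasDerivAt (fun s : ℝ => (1 + s * (T - 1)) • x) ((T - 1) • x) s := h2.smul_const x
    have h6 : HasDerivAt (fun s : ℝ => f ((1 + s * (T - 1)) • x))
        (fderiv ℝ f ((1 + s * (T - 1)) • x) ((T - 1) • x)) s :=
      (hf.differentiable (by simp) _).hasFDerivAt.comp_hasDerivAt s h5
    refine (h4.mul h6).congr_deriv ?_
    have h7 : fderiv ℝ f ((1 + s * (T - 1)) • x) ((T - 1) • x) =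
        ((T - 1 : ℝ) : ℂ) * ∑ i, (b.l i x : ℂ) * fderiv ℝ f ((1 + s * (T - 1)) • x) (b.v i) := by
      have h8 : ∀ L : E →L[ℝ] ℂ, L x = ∑ i, (b.l i x : ℂ) * L (b.v i) := fun L => by
        conv_lhs => rw [← b.expand x]
        rw [map_sum]
        simp
      rw [map_smul, Complex.real_smul, ← h8]
    rw [h7]
    push_cast
    rw [Finset.mul_sum, Finset.mul_sum]
    congr 1
    · ring
    · refine Finset.sum_congr rfl fun i _ => ?_
      ring
  have h2 := intervalIntegral.integral_eq_sub_of_hasDerivAt (a := (0 : ℝ)) (b := 1)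
    (fun s _ => hder s)
    ((hc0.add (continuous_finsetSum _ fun i _ => hci i)).intervalIntegrable _ _)
  rw [h2]
  simp

/-- support of the homotopy -/
theorem TF.Hom (hT : 1 ≤ T) (hΩ : Convex ℝ Ω) (h0 : (0 : E) ∈ Ω) (hf : TF Ω f) (k : ℕ) :
    TF Ω (Hom T k f) := by
  refine TF.intro (K := (fun p : E × ℝ => p.2 • p.1) '' (tsupport f ×ˢ Icc (0 : ℝ) 1))
    ((hf.compact.isCompact.prod isCompact_Icc).image (by fun_prop)) ?_ (contDiff_Hom T k hf.smooth) ?_
  · rintro _ ⟨⟨z, t⟩, ⟨hz, ht⟩, rfl⟩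
    have := hΩ.add_smul_sub_mem h0 (hf.sub hz) ht
    simpa using this
  · intro x hx
    unfold Bog.Hom
    rw [intervalIntegral.integral_congr (g := fun _ => 0)]
    · simp
    intro s hs
    rw [uIcc_of_le zero_le_one] at hs
    have hr : 1 ≤ 1 + s * (T - 1) := by nlinarith [hs.1, hs.2]
    have h6 : f ((1 + s * (T - 1)) • x) = 0 := by
      by_contra h7
      apply hx
      refine ⟨((1 + s * (T - 1)) • x, (1 + s * (T - 1))⁻¹), ⟨subset_tsupport f h7, ?_, ?_⟩, ?_⟩
      · simp only; positivity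
      · exact inv_le_one_of_one_le₀ hr
      · simp only
        rw [smul_smul, inv_mul_cancel₀ (by positivity), one_smul]
    simp only [h6, mul_zero]

end homothety

end Vale.Agent.P267.H368.Bog
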