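import Vale.Agent.P267.H368.BogD

/-!
# P267, UNI-XT (helper368), part 5: the compactly supported Poincare lemma in degrees `n`, `n - 1`
-/

set_option linter.unusedSectionVars false

open MeasureTheory Set Function
open scoped ContDiff

noncomputable section

namespace Vale.Agent.P267.H368.Bog

open Vale.Agent.P231.Fm

variable {E : Type*} [NormedAddCommGroup E] [NormedSpace ℝ E] [FiniteDimensional ℝ E]
variable {ι : Type*} [Fintype ι] [DecidableEq ι]
variable {Ω : Set E} {f g : E → ℂ} {b : Frame E ι}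

theorem TF.D (hf : TF Ω f) (i : ι) : TF Ω (b.D i f) := hf.fderiv _

/-- shrinking into the box -/
theorem eventually_TB (b : Frame E ι) {r : ℝ} (hr : 0 < r) (hf : TF Ω f) :
    ∀ᶠ T : ℝ in Filter.atTop, b.TB r fun x => f (T • x) := by
  obtain ⟨M, hM⟩ := hf.compact.isCompact.isBounded.exists_norm_le
  have h1 : ∀ i, ∀ᶠ T : ℝ in Filter.atTop, ‖b.l i‖ * M < T * r := by
    intro i
    filter_upwards [Filter.eventually_gt_atTop (‖b.l i‖ * M / r)] with T hT
    rwa [div_lt_iff₀ hr] at hT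
  filter_upwards [Filter.eventually_all.2 h1, Filter.eventually_gt_atTop 0] with T hT hT0
  refine ⟨hf.smooth.comp (by fun_prop), fun x hx => ?_⟩
  by_contra h
  apply hx
  intro i
  have h2 : ‖T • x‖ ≤ M := hM _ (subset_tsupport f h)
  have h3 : |b.l i (T • x)| ≤ ‖b.l i‖ * M := by
    have := (b.l i).le_opNorm (T • x)
    rw [Real.norm_eq_abs] at this
    exact this.trans (mul_le_mul_of_nonneg_left h2 (norm_nonneg _))
  rw [map_smul, smul_eq_mul, abs_mul, abs_of_pos hT0] at h3
  have h4 := h3.trans (hT i).le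
  exact le_of_mul_le_mul_left h4 hT0

theorem exists_box (b : Frame E ι) (hΩ : IsOpen Ω) (h0 : (0 : E) ∈ Ω) :
    ∃ r, 0 < r ∧ b.box r ⊆ Ω := by
  obtain ⟨ε, hε, h1⟩ := Metric.isOpen_iff.1 hΩ 0 h0
  set C := ∑ i, ‖b.v i‖ with hC
  have hC0 : 0 ≤ C := Finset.sum_nonneg fun i _ => norm_nonneg _
  refine ⟨ε / (2 * (C + 1)), by positivity, fun x hx => h1 ?_⟩
  rw [Metric.mem_ball, dist_zero_right]
  refine (b.norm_le_of_mem_box hx).trans_lt ?_
  rw [← hC, div_mul_eq_mul_div, div_lt_iff₀ (by positivity)]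
  nlinarith

theorem contDiff_coord (b : Frame E ι) (i : ι) : ContDiff ℝ ∞ fun x => (b.l i x : ℂ) :=
  Complex.ofRealCLM.contDiff.comp (b.l i).contDiff

/-- Leibniz with a coordinate -/
theorem D_coord_mul (b : Frame E ι) (i j : ι) (hg : ContDiff ℝ ∞ g) (x : E) :
    b.D j (fun y => (b.l i y : ℂ) * g y) x =
      (if i = j then g x else 0) + (b.l i x : ℂ) * b.D j g x := by
  have h1 : HasFDerivAt (fun y => (b.l i y : ℂ)) (Complex.ofRealCLM ∘L b.l i) x :=
    Complex.ofRealCLM.hasFDerivAt.comp x (b.l i).hasFDerivAt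
  unfold Frame.D
  rw [(h1.fun_mul (hg.differentiable (by simp) x).hasFDerivAt).fderiv]
  simp only [add_apply, smul_apply, smul_eq_mul, ContinuousLinearMap.comp_apply,
    Complex.ofRealCLM_apply]
  rw [b.dual]
  split_ifs
  · push_cast; ring
  · push_cast; ring

variable [MeasurableSpace E] [BorelSpace E]

theorem exists_div_conv0 (b : Frame E ι) [Nonempty ι] (μ : Measure E) [μ.IsAddHaarMeasure]
    (hΩ : IsOpen Ω) (hc : Convex ℝ Ω) (h0 : (0 : E) ∈ Ω) (hf : TF Ω f) (hint : ∫ x, f x ∂μ = 0) :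
    ∃ V : ι → E → ℂ, (∀ i, TF Ω (V i)) ∧ ∀ x, f x = ∑ i, b.D i (V i) x := by
  obtain ⟨r, hr, hbox⟩ := exists_box b hΩ h0
  obtain ⟨χ⟩ := Frame.exists_bump hr
  obtain ⟨T, hT1, hT2⟩ := ((eventually_TB b hr hf).and (Filter.eventually_ge_atTop 1)).exists
  obtain ⟨k, hk⟩ : ∃ k, Fintype.card ι = k + 1 := ⟨Fintype.card ι - 1, by
    have := Fintype.card_pos (α := ι); omega⟩
  have hF : b.TB r fun x => ((T ^ (k + 1) : ℝ) : ℂ) * f (T • x) :=
    ⟨contDiff_const.mul hT1.smooth, fun x hx => by rw [hT1.zero x hx, mul_zero]⟩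
  have hFint : ∫ x, ((T ^ (k + 1) : ℝ) : ℂ) * f (T • x) ∂μ = 0 := by
    rw [integral_const_mul, Measure.integral_comp_smul, hint, smul_zero, mul_zero]
  obtain ⟨V, hV, hV1⟩ := Frame.exists_div μ χ hF hFint
  have hH := hf.Hom hT2 hc h0 k
  refine ⟨fun i x => V i x - (b.l i x : ℂ) * Hom T k f x, fun i =>
    ((hV i).toTF hbox).sub' (hH.mul (contDiff_coord b i)), fun x => ?_⟩
  have h1 : ∀ i, b.D i (fun x => V i x - (b.l i x : ℂ) * Hom T k f x) x =
      b.D i (V i) x - (Hom T k f x + (b.l i x : ℂ) * b.D i (Hom T k f) x) := by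
    intro i
    rw [Frame.D_sub (hV i).smooth ((contDiff_coord b i).mul hH.smooth),
      D_coord_mul b i i hH.smooth, if_pos rfl]
  simp only [h1, Finset.sum_sub_distrib, Finset.sum_add_distrib]
  rw [← hV1]
  have h2 := euler b T k hf.smooth x
  simp only [Finset.sum_const, Finset.card_univ, hk, nsmul_eq_mul]
  linear_combination h2

omit [MeasurableSpace E] [BorelSpace E] in
theorem exists_curl_conv0 (b : Frame E ι) (hι : 2 ≤ Fintype.card ι)
    (hΩ : IsOpen Ω) (hc : Convex ℝ Ω) (h0 : (0 : E) ∈ Ω) {V : ι → E → ℂ} (hV : ∀ i, TF Ω (V i))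
    (hdiv : ∀ x, ∑ i, b.D i (V i) x = 0) :
    ∃ B : ι → ι → E → ℂ, (∀ i j, TF Ω (B i j)) ∧ (∀ i j x, B i j x = -B j i x) ∧
      ∀ i x, V i x = ∑ j, b.D j (B i j) x := by
  obtain ⟨r, hr, hbox⟩ := exists_box b hΩ h0
  obtain ⟨χ⟩ := Frame.exists_bump hr
  obtain ⟨T, hT1, hT2⟩ := ((Filter.eventually_all.2 fun i => eventually_TB b hr (hV i)).and
    (Filter.eventually_ge_atTop 1)).exists
  obtain ⟨k, hk⟩ : ∃ k, Fintype.card ι = k + 2 := ⟨Fintype.card ι - 2, by omega⟩
  have hF : ∀ i, b.TB r fun x => ((T ^ (k + 1) : ℝ) : ℂ) * V i (T • x) := fun i =>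
    ⟨contDiff_const.mul (hT1 i).smooth, fun x hx => by rw [(hT1 i).zero x hx, mul_zero]⟩
  have hFD : ∀ i x, b.D i (fun x => ((T ^ (k + 1) : ℝ) : ℂ) * V i (T • x)) x =
      ((T ^ (k + 2) : ℝ) : ℂ) * b.D i (V i) (T • x) := by
    intro i x
    have h1 : HasFDerivAt (fun x : E => T • x) (T • ContinuousLinearMap.id ℝ E) x :=
      (hasFDerivAt_id x).const_smul T
    have h2 : HasFDerivAt (V i) (fderiv ℝ (V i) (T • x)) (T • x) :=
      ((hV i).smooth.differentiable (by simp) _).hasFDerivAt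
    have h3 := ((h2.comp x h1).const_mul ((T ^ (k + 1) : ℝ) : ℂ)).fderiv
    unfold Frame.D
    have h4 : (fun y => ((T ^ (k + 1) : ℝ) : ℂ) * (V i ∘ fun x => T • x) y) =
      fun x => ((T ^ (k + 1) : ℝ) : ℂ) * V i (T • x) := rfl
    rw [← h4, h3]
    simp only [smul_apply, smul_eq_mul, ContinuousLinearMap.comp_apply,
      ContinuousLinearMap.id_apply, map_smul, Complex.real_smul]
    push_cast
    ring
  obtain ⟨B, hB, hanti, hB1⟩ := Frame.exists_curl (b := b) χ hF (fun x => by
    simp only [hFD]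
    rw [← Finset.mul_sum, hdiv, mul_zero])
  have hH : ∀ i, TF Ω (Hom T k (V i)) := fun i => (hV i).Hom hT2 hc h0 k
  refine ⟨fun i j x => B i j x - ((b.l j x : ℂ) * Hom T k (V i) x -
    (b.l i x : ℂ) * Hom T k (V j) x), fun i j => ((hB i j).toTF hbox).sub'
    (((hH i).mul (contDiff_coord b j)).sub' ((hH j).mul (contDiff_coord b i))),
    fun i j x => ?_, fun i x => ?_⟩
  · have h1 := hanti i j x
    simp only
    linear_combination h1
  · have h1 : ∀ j, b.D j (fun x => B i j x - ((b.l j x : ℂ) * Hom T k (V i) x -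
        (b.l i x : ℂ) * Hom T k (V j) x)) x = b.D j (B i j) x -
        ((Hom T k (V i) x + (b.l j x : ℂ) * b.D j (Hom T k (V i)) x) -
          ((if i = j then Hom T k (V j) x else 0) + (b.l i x : ℂ) * b.D j (Hom T k (V j)) x)) := by
      intro j
      rw [Frame.D_sub (hB i j).smooth (((contDiff_coord b j).mul (hH i).smooth).sub
        ((contDiff_coord b i).mul (hH j).smooth)),
        Frame.D_sub ((contDiff_coord b j).mul (hH i).smooth)
          ((contDiff_coord b i).mul (hH j).smooth), D_coord_mul b j j (hH i).smooth, if_pos rfl,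
        D_coord_mul b i j (hH j).smooth]
    have h2 : ∑ j, b.D j (Hom T k (V j)) x = 0 := by
      have h3 : ∀ j, b.D j (Hom T k (V j)) x = ∫ s in (0 : ℝ)..1,
          (((1 + s * (T - 1)) ^ (k + 1) * (T - 1) : ℝ) : ℂ) *
            b.D j (V j) ((1 + s * (T - 1)) • x) := by
        intro j
        rw [Frame.D, fderiv_Hom T k (hV j).smooth]
        rfl
      simp only [h3]
      rw [← intervalIntegral.integral_finsetSum]
      · have h4 : ∀ s : ℝ, ∑ j, (((1 + s * (T - 1)) ^ (k + 1) * (T - 1) : ℝ) : ℂ) *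
            b.D j (V j) ((1 + s * (T - 1)) • x) = 0 := fun s => by
          rw [← Finset.mul_sum, hdiv, mul_zero]
        simp only [h4, intervalIntegral.integral_zero]
      · intro j _
        refine Continuous.intervalIntegrable ?_ _ _
        refine Continuous.mul (Complex.continuous_ofReal.comp (by fun_prop)) ?_
        exact ((hV j).D j).smooth.continuous.comp (by fun_prop)
    simp only [h1, Finset.sum_sub_distrib, Finset.sum_add_distrib]
    rw [← Finset.mul_sum (f := fun j => b.D j (Hom T k (V j)) x), h2, ← hB1]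
    simp only [Finset.sum_const, Finset.card_univ, hk, nsmul_eq_mul, Finset.sum_ite_eq,
      Finset.mem_univ, if_true]
    have h5 := euler b T k (hV i).smooth x
    push_cast at h5 ⊢
    linear_combination h5

omit [MeasurableSpace E] [BorelSpace E] in
theorem TF.comp_add (hf : TF Ω f) (p : E) : TF ((fun x => x + p) ⁻¹' Ω) fun x => f (x + p) := by
  refine TF.intro (K := (fun x => x - p) '' tsupport f)
    (hf.compact.isCompact.image (by fun_prop)) ?_ (hf.smooth.comp (by fun_prop)) fun x hx => ?_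
  · rintro _ ⟨y, hy, rfl⟩
    simpa using hf.sub hy
  · refine hf.eq_zero fun h => hx ⟨x + p, h, by simp⟩

omit [MeasurableSpace E] [BorelSpace E] in
theorem D_comp_add (b : Frame E ι) (i : ι) (g : E → ℂ) (p x : E) :
    b.D i (fun y => g (y + p)) x = b.D i g (x + p) := by
  unfold Frame.D
  rw [fderiv_comp_add_right]

omit [MeasurableSpace E] [BorelSpace E] in
theorem convex_preimage (hc : Convex ℝ Ω) (p : E) : Convex ℝ ((fun x => x + p) ⁻¹' Ω) := by
  have := hc.translate_preimage_left p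
  simpa using this

/-- **Degree `n`.** -/
theorem exists_div_conv (b : Frame E ι) [Nonempty ι] (μ : Measure E) [μ.IsAddHaarMeasure]
    (hΩ : IsOpen Ω) (hc : Convex ℝ Ω) (hf : TF Ω f) (hint : ∫ x, f x ∂μ = 0) :
    ∃ V : ι → E → ℂ, (∀ i, TF Ω (V i)) ∧ ∀ x, f x = ∑ i, b.D i (V i) x := by
  rcases Ω.eq_empty_or_nonempty with he | ⟨p, hp⟩
  · refine ⟨fun _ _ => 0, fun _ => TF.const, fun x => ?_⟩
    rw [hf.eq_zero fun h => by rw [he] at hf; exact hf.sub h]
    simp [Frame.D]
  · obtain ⟨V, hV, h1⟩ := exists_div_conv0 b μ (hΩ.preimage (by fun_prop : Continuous fun x => x + p))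
      (convex_preimage hc p) (by simpa using hp) (hf.comp_add p) (by
        rw [integral_add_right_eq_self]; exact hint)
    refine ⟨fun i x => V i (x + -p), fun i => ?_, fun x => ?_⟩
    · refine ((hV i).comp_add (-p)).mono fun x hx => ?_
      simpa using hx
    · simp only [D_comp_add]
      rw [← h1]
      simp

omit [MeasurableSpace E] [BorelSpace E] in
/-- **Degree `n - 1`.** -/
theorem exists_curl_conv (b : Frame E ι) (hι : 2 ≤ Fintype.card ι)
    (hΩ : IsOpen Ω) (hc : Convex ℝ Ω) {V : ι → E → ℂ} (hV : ∀ i, TF Ω (V i))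
    (hdiv : ∀ x, ∑ i, b.D i (V i) x = 0) :
    ∃ B : ι → ι → E → ℂ, (∀ i j, TF Ω (B i j)) ∧ (∀ i j x, B i j x = -B j i x) ∧
      ∀ i x, V i x = ∑ j, b.D j (B i j) x := by
  rcases Ω.eq_empty_or_nonempty with he | ⟨p, hp⟩
  · refine ⟨fun _ _ _ => 0, fun _ _ => TF.const, fun _ _ _ => by simp, fun i x => ?_⟩
    have := hV i
    rw [this.eq_zero fun h => by rw [he] at this; exact this.sub h]
    simp [Frame.D]
  · obtain ⟨B, hB, hanti, h1⟩ := exists_curl_conv0 b hι
      (hΩ.preimage (by fun_prop : Continuous fun x => x + p))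
      (convex_preimage hc p) (by simpa using hp) (fun i => (hV i).comp_add p) (fun x => by
        simp only [D_comp_add]; exact hdiv _)
    refine ⟨fun i j x => B i j (x + -p), fun i j => ?_, fun i j x => hanti i j _, fun i x => ?_⟩
    · refine ((hB i j).comp_add (-p)).mono fun x hx => ?_
      simpa using hx
    · simp only [D_comp_add]
      rw [← h1]
      simp

end Vale.Agent.P267.H368.Bog
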