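import Vale.Agent.P267.H368.XTf

/-!
# P267, UNI-XT (helper368): the duality theorem

Every finite cycle `y` of the nerve of a family of chart-convex open sets of a complex surface
(not assumed compact) is represented by a closed real compactly supported two-form `b`:
for every zigzag `(w, η, β, n)` over the family, `∫ w ∧ b = ∑ y i j k * n i j k`.
-/

set_option linter.unusedVariables false
set_option linter.unusedSectionVars false

open scoped Manifold ContDiff ComplexConjugate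
open MeasureTheory Set

noncomputable section

namespace Vale.Agent.P267.H368

open Vale.Agent.P267.FL
open Vale.Agent.P267.H469 (cj0 cj1 cj11 cjF del11)

variable {Y : Type*} [TopologicalSpace Y] [ChartedSpace C2 Y] [T2Space Y] [SigmaCompactSpace Y]
  [IsManifold 𝓘(ℂ, C2) ω Y]

/-- **Duality theorem.** `y` is a finite cycle of the nerve: it vanishes on triples with empty
intersection and satisfies the cycle condition (in the form adapted to zigzags). -/
theorem exists_dualForm {ι : Type*} (s : Finset ι) (U : ι → Set Y) (e : ι → Ch Y)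
    (hU : ∀ i ∈ s, IsOpen (U i)) (he : ∀ i ∈ s, e i ∈ atlas C2 Y)
    (hUe : ∀ i ∈ s, U i ⊆ (e i).source) (hc1 : ∀ i ∈ s, Convex ℝ (e i '' U i))
    (hc2 : ∀ i ∈ s, ∀ j ∈ s, Convex ℝ (e j '' (U i ∩ U j)))
    (y : ι → ι → ι → ℝ)
    (hy : ∀ i ∈ s, ∀ j ∈ s, ∀ k ∈ s, y i j k ≠ 0 → (U i ∩ U j ∩ U k).Nonempty)
    (hcyc : ∀ j ∈ s, ∀ k ∈ s, ∑ i ∈ s, (y i j k - y j i k + y j k i) = 0) :
    ∃ b : TwoF Y, IsDual s U y b := by
  obtain ⟨b, hb, d21, d12, hp⟩ := exists_dual_aux s U e hU he hUe hc1 hc2 y hy hcyc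
  have hcs := cjF_smooth hb.smooth
  have hadd := smooth_addF hb.smooth hcs
  obtain ⟨K, hK, hKU, h0⟩ := hb.supp
  have hd21 : ∀ x, (cjF b).d21 x = 0 := fun x => by
    rw [H469.d21_cj]
    funext i
    rw [cj1_apply, d12 x]
    simp
  have hd12 : ∀ x, (cjF b).d12 x = 0 := fun x => by
    rw [H469.d12_cj]
    funext i
    rw [cj1_apply, d21 x]
    simp
  set F : TwoF Y := ⟨fun x => b.f20 x + (cjF b).f20 x, fun x => b.f11 x + (cjF b).f11 x,
    fun x => b.f02 x + (cjF b).f02 x⟩ with hF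
  refine ⟨⟨fun x => (-(1 / 2) : ℂ) * F.f20 x, fun x => (-(1 / 2) : ℂ) • F.f11 x,
    fun x => (-(1 / 2) : ℂ) * F.f02 x⟩, ⟨smooth_smulF _ hadd, ⟨fun x j => ?_, fun x i => ?_⟩,
    fun x => ⟨?_, fun i j => ?_⟩, ⟨K, hK, hKU, fun x hx => ?_⟩, fun w η β n hz => ?_⟩⟩
  · rw [d21_smulF _ hadd, d21_addF hb.smooth hcs, d21, hd21]
    simp
  · rw [d12_smulF _ hadd, d12_addF hb.smooth hcs, d12, hd12]
    simp
  · simp only [hF, cjF, cj0, map_mul, map_add, map_neg, map_div₀, map_one, map_ofNat,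
      Complex.conj_conj]
    ring
  · simp only [hF, cjF, cj11, Matrix.smul_apply, Matrix.add_apply, Matrix.of_apply, smul_eq_mul,
      map_mul, map_add, map_neg, map_div₀, map_one, map_ofNat, Complex.conj_conj]
    ring
  · have h1 := h0 x hx
    refine ⟨?_, ?_, ?_⟩
    · simp [hF, cjF, cj0, h1.1, h1.2.2]
    · ext i j
      simp [hF, cjF, cj11, h1.2.1]
    · simp [hF, cjF, cj0, h1.1, h1.2.2]
  · obtain ⟨r1, c1, i1⟩ := hp w η β n hz
    obtain ⟨r2, c2, i2⟩ := hp _ _ _ _ hz.conj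
    have c3 : HasCompactSupport (fun x => (starRingEnd ℂ) ((cjF w).wedge b x)) :=
      HasCompactSupport.intro c2 fun x hx => by
        rw [image_eq_zero_of_notMem_tsupport (f := fun x => (cjF w).wedge b x) hx, map_zero]
    have hfun : (fun x => w.wedge ⟨fun x => (-(1 / 2) : ℂ) * F.f20 x,
        fun x => (-(1 / 2) : ℂ) • F.f11 x, fun x => (-(1 / 2) : ℂ) * F.f02 x⟩ x) =
        fun x => (-(1 / 2) : ℂ) * (w.wedge b x + (starRingEnd ℂ) ((cjF w).wedge b x)) := by
      funext x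
      rw [wedge_smulF, hF, wedge_addF, wedge_cjF]
    have c4 : HasCompactSupport
        (fun x => w.wedge b x + (starRingEnd ℂ) ((cjF w).wedge b x)) := c1.add c3
    have r3 : Reg2 0 1 (fun x => (starRingEnd ℂ) ((cjF w).wedge b x)) := reg2_conj r2
    rw [hfun, FL.intX_const_mul _ (Reg2.add r1 r3) c4, FL.intX_add r1 r3 c1 c3,
      FL.intX_conj r2 c2, i1, i2]
    have hcj : (starRingEnd ℂ) (-∑ k ∈ s, ∑ j ∈ s, ∑ i ∈ s,
        (y i j k : ℂ) * (starRingEnd ℂ) (n i j k)) =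
        -∑ k ∈ s, ∑ j ∈ s, ∑ i ∈ s, (y i j k : ℂ) * n i j k := by
      simp only [map_neg, map_sum, map_mul, Complex.conj_conj, Complex.conj_ofReal]
    rw [hcj]
    have hcomm : ∑ i ∈ s, ∑ j ∈ s, ∑ k ∈ s, (y i j k : ℂ) * n i j k =
        ∑ k ∈ s, ∑ j ∈ s, ∑ i ∈ s, (y i j k : ℂ) * n i j k := by
      rw [Finset.sum_congr rfl fun i _ => Finset.sum_comm, Finset.sum_comm]
      exact Finset.sum_congr rfl fun k _ => Finset.sum_comm
    rw [hcomm]
    ring

end Vale.Agent.P267.H368
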