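import Vale.Agent.P267.H399.Calc2

/-!
# P267, UNI-XT (helper368): definitions for the duality theorem

Duality between finite cycles of the nerve of a family of chart-convex open sets and closed
compactly supported two-forms, on a complex surface which need not be compact.
-/

set_option linter.unusedVariables false
set_option linter.unusedSectionVars false

open scoped Manifold ContDiff ComplexConjugate
open MeasureTheory Set

noncomputable section

namespace Vale.Agent.P267.H368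

open Vale.Agent.P267.FL

variable {Y : Type*} [TopologicalSpace Y] [ChartedSpace C2 Y]

/-- `f` is (real) smooth at `x`, in the preferred chart (= `H451.Sm`) -/
def Sm0 (f : Y → ℂ) (x : Y) : Prop :=
  ContDiffAt ℝ ∞ (fun z => f ((chartAt C2 x).symm z)) (chartAt C2 x x)

/-- the one-form `A` is smooth at `x`, in the preferred chart -/
structure Sm1 (A : OneF Y) (x : Y) : Prop where
  s10 : ∀ i, ContDiffAt ℝ ∞ (fun z => loc10 (chartAt C2 x) A.f10 z i) (chartAt C2 x x)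
  s01 : ∀ i, ContDiffAt ℝ ∞ (fun z => loc1 0 (chartAt C2 x) A.f01 z i) (chartAt C2 x x)

/-- values of a two-form at a point -/
def TwoF.At (F : TwoF Y) (x : Y) : ℂ × Matrix (Fin 2) (Fin 2) ℂ × ℂ := (F.f20 x, F.f11 x, F.f02 x)

/-- A zigzag for the two-form `w` over the open sets `U i`, `i ∈ s`:
`w = d η_i` on `U_i`, `η_j - η_i = d β_ij` on `U_i ∩ U_j`,
`β_jk - β_ik + β_ij = n_ijk` (constants) on `U_i ∩ U_j ∩ U_k`. -/
structure Zigzag {ι : Type*} (s : Finset ι) (U : ι → Set Y) (w : TwoF Y) (η : ι → OneF Y)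
    (β : ι → ι → Y → ℂ) (n : ι → ι → ι → ℂ) : Prop where
  sm1 : ∀ i ∈ s, ∀ x ∈ U i, Sm1 (η i) x
  sm0 : ∀ i ∈ s, ∀ j ∈ s, ∀ x ∈ U i ∩ U j, Sm0 (β i j) x
  d20 : ∀ i ∈ s, ∀ x ∈ U i, (η i).d.f20 x = w.f20 x
  d11 : ∀ i ∈ s, ∀ x ∈ U i, (η i).d.f11 x = w.f11 x
  d02 : ∀ i ∈ s, ∀ x ∈ U i, (η i).d.f02 x = w.f02 x
  d10 : ∀ i ∈ s, ∀ j ∈ s, ∀ x ∈ U i ∩ U j, (η j).f10 x - (η i).f10 x = (dF0 (β i j)).f10 x
  d01 : ∀ i ∈ s, ∀ j ∈ s, ∀ x ∈ U i ∩ U j, (η j).f01 x - (η i).f01 x = (dF0 (β i j)).f01 x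
  cst : ∀ i ∈ s, ∀ j ∈ s, ∀ k ∈ s, ∀ x ∈ U i ∩ U j ∩ U k, β j k x - β i k x + β i j x = n i j k

/-- The conclusion of the duality theorem: `b` is smooth, closed, real, compactly supported in the
union of the `U i`, and represents the cycle `y`. -/
structure IsDual {ι : Type*} (s : Finset ι) (U : ι → Set Y) (y : ι → ι → ι → ℝ) (b : TwoF Y) :
    Prop where
  smooth : b.Smooth
  closed : b.Closed
  real : b.Real
  supp : ∃ K : Set Y, IsCompact K ∧ K ⊆ ⋃ i ∈ s, U i ∧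
    ∀ x ∉ K, b.f20 x = 0 ∧ b.f11 x = 0 ∧ b.f02 x = 0
  pair : ∀ (w : TwoF Y) (η : ι → OneF Y) (β : ι → ι → Y → ℂ) (n : ι → ι → ι → ℂ),
    Zigzag s U w η β n →
      intX (fun x => w.wedge b x) = ∑ i ∈ s, ∑ j ∈ s, ∑ k ∈ s, (y i j k : ℂ) * n i j k

end Vale.Agent.P267.H368
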