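import Vale.Agent.P267.H368.BogE
import Vale.Agent.P267.H399.Wirt

/-!
# P267, UNI-XT (helper368): the compactly supported Poincare lemma in complex coordinates of `ℂ²`,
degrees `4` and `3`
-/

set_option linter.unusedVariables false
set_option linter.unusedSectionVars false

open scoped Manifold ContDiff ComplexConjugate
open MeasureTheory Set

noncomputable section

namespace Vale.Agent.P267.H368

open Vale.Agent.P267.FL Bog

/-- real coordinates of `ℂ²` -/
def fr : Frame C2 (Fin 2 ⊕ Fin 2) where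
  v := Sum.elim (fun j => Pi.single j 1) (fun j => Pi.single j Complex.I)
  l := Sum.elim (fun j => Complex.reCLM ∘L ContinuousLinearMap.proj j)
    (fun j => Complex.imCLM ∘L ContinuousLinearMap.proj j)
  dual := by
    rintro (i | i) (j | j)
    · by_cases h : i = j
      · subst h; simp
      · simp [h]
    · by_cases h : i = j
      · subst h; simp
      · simp [h]
    · by_cases h : i = j
      · subst h; simp
      · simp [h]
    · by_cases h : i = j
      · subst h; simp
      · simp [h]
  expand := by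
    intro x
    funext k
    simp only [Fintype.sum_sum_type, Fin.sum_univ_two, Sum.elim_inl, Sum.elim_inr, Pi.add_apply,
      Pi.smul_apply, ContinuousLinearMap.comp_apply, ContinuousLinearMap.proj_apply,
      Complex.reCLM_apply, Complex.imCLM_apply, Complex.real_smul]
    fin_cases k
    · simp [Complex.re_add_im]
    · simp [Complex.re_add_im]

theorem card_fr : 2 ≤ Fintype.card (Fin 2 ⊕ Fin 2) := by simp

theorem D_inl (j : Fin 2) (g : C2 → ℂ) (z : C2) : fr.D (Sum.inl j) g z = dz j g z + dzb j g z := by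
  simp only [Frame.D, fr, Sum.elim_inl, dz, dzb, smul_eq_mul]
  ring

theorem D_inr (j : Fin 2) (g : C2 → ℂ) (z : C2) :
    fr.D (Sum.inr j) g z = Complex.I * (dz j g z - dzb j g z) := by
  simp only [Frame.D, fr, Sum.elim_inr, dz, dzb, smul_eq_mul]
  linear_combination (fderiv ℝ g z (Pi.single j Complex.I)) * Complex.I_mul_I

variable {Ω : Set C2}

theorem _root_.Vale.Agent.P267.H368.Bog.TF.dz {f : C2 → ℂ} (hf : TF Ω f) (j : Fin 2) : TF Ω (FL.dz j f) :=
  ((hf.fderiv _).sub' ((hf.fderiv _).const_mul Complex.I)).const_mul (1 / 2)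

theorem _root_.Vale.Agent.P267.H368.Bog.TF.dzb {f : C2 → ℂ} (hf : TF Ω f) (j : Fin 2) : TF Ω (FL.dzb j f) :=
  ((hf.fderiv _).add ((hf.fderiv _).const_mul Complex.I)).const_mul (1 / 2)

theorem _root_.Vale.Agent.P267.H368.Bog.TF.diff {f : C2 → ℂ} (hf : TF Ω f) (z : C2) : DifferentiableAt ℝ f z :=
  hf.smooth.differentiable (by simp) z

theorem integral_dz {f : C2 → ℂ} (hf : TF Ω f) (j : Fin 2) : ∫ z, FL.dz j f z = 0 := by
  have h1 := Vale.Agent.P231.Fm.integral_fderiv_fibre (volume : Measure C2)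
    (hf.smooth.of_le (by simp)) hf.compact (Pi.single j 1)
  have h2 := Vale.Agent.P231.Fm.integral_fderiv_fibre (volume : Measure C2)
    (hf.smooth.of_le (by simp)) hf.compact (Pi.single j Complex.I)
  unfold FL.dz
  simp only [smul_eq_mul]
  rw [integral_const_mul, integral_sub (hf.fderiv _).integrable
    ((hf.fderiv _).const_mul _).integrable, integral_const_mul, h1, h2]
  simp

theorem integral_dzb {f : C2 → ℂ} (hf : TF Ω f) (j : Fin 2) : ∫ z, FL.dzb j f z = 0 := by
  have h1 := Vale.Agent.P231.Fm.integral_fderiv_fibre (volume : Measure C2)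
    (hf.smooth.of_le (by simp)) hf.compact (Pi.single j 1)
  have h2 := Vale.Agent.P231.Fm.integral_fderiv_fibre (volume : Measure C2)
    (hf.smooth.of_le (by simp)) hf.compact (Pi.single j Complex.I)
  unfold FL.dzb
  simp only [smul_eq_mul]
  rw [integral_const_mul, integral_add (hf.fderiv _).integrable
    ((hf.fderiv _).const_mul _).integrable, integral_const_mul, h1, h2]
  simp

/-- **Degree four.** -/
theorem exists_three (hΩ : IsOpen Ω) (hc : Convex ℝ Ω) {f : C2 → ℂ} (hf : TF Ω f)
    (hint : ∫ z, f z = 0) :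
    ∃ s t : Fin 2 → C2 → ℂ, (∀ i, TF Ω (s i)) ∧ (∀ i, TF Ω (t i)) ∧
      ∀ z, f z = (dzb 0 (s 1) z - dzb 1 (s 0) z) + (dz 0 (t 1) z - dz 1 (t 0) z) := by
  obtain ⟨V, hV, h1⟩ := exists_div_conv fr volume hΩ hc hf hint
  let p : Fin 2 → C2 → ℂ := fun j z => V (Sum.inl j) z + Complex.I * V (Sum.inr j) z
  let q : Fin 2 → C2 → ℂ := fun j z => V (Sum.inl j) z - Complex.I * V (Sum.inr j) z
  have hp : ∀ j, TF Ω (p j) := fun j => (hV _).add ((hV _).const_mul _)
  have hq : ∀ j, TF Ω (q j) := fun j => (hV _).sub' ((hV _).const_mul _)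
  have hdp : ∀ j z, dz j (p j) z = dz j (V (Sum.inl j)) z + Complex.I * dz j (V (Sum.inr j)) z := by
    intro j z
    have := dz_const_smul Complex.I ((hV (Sum.inr j)).diff z) j
    simp only [smul_eq_mul] at this
    rw [dz_add ((hV _).diff z) (((hV _).const_mul _).diff z), this]
  have hdq : ∀ j z, dzb j (q j) z =
      dzb j (V (Sum.inl j)) z - Complex.I * dzb j (V (Sum.inr j)) z := by
    intro j z
    have := dzb_const_smul Complex.I ((hV (Sum.inr j)).diff z) j
    simp only [smul_eq_mul] at this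
    rw [dzb_sub ((hV _).diff z) (((hV _).const_mul _).diff z), this]
  refine ⟨![fun z => -q 1 z, q 0], ![fun z => -p 1 z, p 0], ?_, ?_, fun z => ?_⟩
  · intro i
    fin_cases i
    · exact (hq 1).neg
    · exact hq 0
  · intro i
    fin_cases i
    · exact (hp 1).neg
    · exact hp 0
  · have e1 : (![fun z => -q 1 z, q 0] : Fin 2 → C2 → ℂ) 0 = fun z => -q 1 z := rfl
    have e2 : (![fun z => -q 1 z, q 0] : Fin 2 → C2 → ℂ) 1 = q 0 := rfl
    have e3 : (![fun z => -p 1 z, p 0] : Fin 2 → C2 → ℂ) 0 = fun z => -p 1 z := rfl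
    have e4 : (![fun z => -p 1 z, p 0] : Fin 2 → C2 → ℂ) 1 = p 0 := rfl
    rw [e1, e2, e3, e4, dzb_neg, dz_neg, hdp, hdp, hdq, hdq, h1]
    simp only [Fintype.sum_sum_type, Fin.sum_univ_two, D_inl, D_inr]
    ring

/-- **Degree three.** -/
theorem exists_two (hΩ : IsOpen Ω) (hc : Convex ℝ Ω) {s t : Fin 2 → C2 → ℂ}
    (hs : ∀ i, TF Ω (s i)) (ht : ∀ i, TF Ω (t i))
    (hcl : ∀ z, (dzb 0 (s 1) z - dzb 1 (s 0) z) + (dz 0 (t 1) z - dz 1 (t 0) z) = 0) :
    ∃ (u v : C2 → ℂ) (g : Fin 2 → Fin 2 → C2 → ℂ), TF Ω u ∧ TF Ω v ∧ (∀ i j, TF Ω (g i j)) ∧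
      (∀ j z, s j z = dzb j u z + (dz 0 (g 1 j) z - dz 1 (g 0 j) z)) ∧
      ∀ i z, t i z = dz i v z - (dzb 0 (g i 1) z - dzb 1 (g i 0) z) := by
  let p : Fin 2 → C2 → ℂ := ![t 1, fun z => -t 0 z]
  let q : Fin 2 → C2 → ℂ := ![s 1, fun z => -s 0 z]
  have hp : ∀ j, TF Ω (p j) := by
    intro j
    fin_cases j
    · exact ht 1
    · exact (ht 0).neg
  have hq : ∀ j, TF Ω (q j) := by
    intro j
    fin_cases j
    · exact hs 1
    · exact (hs 0).neg
  let V : Fin 2 ⊕ Fin 2 → C2 → ℂ := Sum.elim (fun j z => 1 / 2 * (p j z + q j z))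
    (fun j z => -(Complex.I / 2) * (p j z - q j z))
  have hV : ∀ a, TF Ω (V a) := by
    rintro (j | j)
    · exact ((hp j).add (hq j)).const_mul _
    · exact ((hp j).sub' (hq j)).const_mul _
  have hpq : ∀ j z, p j z = V (Sum.inl j) z + Complex.I * V (Sum.inr j) z := by
    intro j z
    simp only [V, Sum.elim_inl, Sum.elim_inr]
    linear_combination (p j z - q j z) / 2 * Complex.I_mul_I
  have hqp : ∀ j z, q j z = V (Sum.inl j) z - Complex.I * V (Sum.inr j) z := by
    intro j z
    simp only [V, Sum.elim_inl, Sum.elim_inr]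
    linear_combination -(p j z - q j z) / 2 * Complex.I_mul_I
  have hdl : ∀ j z, fr.D (Sum.inl j) (V (Sum.inl j)) z = 1 / 2 *
      (dz j (p j) z + dz j (q j) z + dzb j (p j) z + dzb j (q j) z) := by
    intro j z
    rw [D_inl]
    have a1 := dz_const_smul (1 / 2 : ℂ) (((hp j).add (hq j)).diff z) j
    have a2 := dzb_const_smul (1 / 2 : ℂ) (((hp j).add (hq j)).diff z) j
    simp only [smul_eq_mul] at a1 a2
    change dz j (fun z => 1 / 2 * (p j z + q j z)) z + dzb j (fun z => 1 / 2 * (p j z + q j z)) z = _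
    rw [a1, a2, dz_add ((hp j).diff z) ((hq j).diff z), dzb_add ((hp j).diff z) ((hq j).diff z)]
    ring
  have hdr : ∀ j z, fr.D (Sum.inr j) (V (Sum.inr j)) z = 1 / 2 *
      (dz j (p j) z - dz j (q j) z - dzb j (p j) z + dzb j (q j) z) := by
    intro j z
    rw [D_inr]
    have a1 := dz_const_smul (-(Complex.I / 2) : ℂ) (((hp j).sub' (hq j)).diff z) j
    have a2 := dzb_const_smul (-(Complex.I / 2) : ℂ) (((hp j).sub' (hq j)).diff z) j
    simp only [smul_eq_mul] at a1 a2
    change Complex.I * (dz j (fun z => -(Complex.I / 2) * (p j z - q j z)) z -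
      dzb j (fun z => -(Complex.I / 2) * (p j z - q j z)) z) = _
    rw [a1, a2, dz_sub ((hp j).diff z) ((hq j).diff z), dzb_sub ((hp j).diff z) ((hq j).diff z)]
    linear_combination (-(1 / 2) * (dz j (p j) z - dz j (q j) z - dzb j (p j) z + dzb j (q j) z)) *
      Complex.I_mul_I
  have hp0 : p 0 = t 1 := rfl
  have hp1 : p 1 = fun z => -t 0 z := rfl
  have hq0 : q 0 = s 1 := rfl
  have hq1 : q 1 = fun z => -s 0 z := rfl
  have hdiv : ∀ z, ∑ a, fr.D a (V a) z = 0 := by
    intro z
    simp only [Fintype.sum_sum_type, Fin.sum_univ_two, hdl, hdr]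
    have := hcl z
    rw [hp0, hp1, hq0, hq1, dz_neg, dzb_neg, dz_neg, dzb_neg]
    linear_combination this
  obtain ⟨B, hB, hanti, hB1⟩ := exists_curl_conv fr card_fr hΩ hc hV hdiv
  -- complex components of the bivector
  let C : Bool → Bool → Fin 2 → Fin 2 → C2 → ℂ := fun ε δ i j z =>
    B (Sum.inl i) (Sum.inl j) z +
      (if ε then Complex.I else -Complex.I) * B (Sum.inr i) (Sum.inl j) z +
      (if δ then Complex.I else -Complex.I) * B (Sum.inl i) (Sum.inr j) z +
      (if ε then Complex.I else -Complex.I) * (if δ then Complex.I else -Complex.I) *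
        B (Sum.inr i) (Sum.inr j) z
  have hC : ∀ ε δ i j, TF Ω (C ε δ i j) := fun ε δ i j =>
    (((hB _ _).add ((hB _ _).const_mul _)).add ((hB _ _).const_mul _)).add ((hB _ _).const_mul _)
  have hCa : ∀ ε δ i j z, C ε δ i j z = -C δ ε j i z := by
    intro ε δ i j z
    simp only [C]
    rw [hanti (Sum.inl i) (Sum.inl j), hanti (Sum.inr i) (Sum.inl j), hanti (Sum.inl i) (Sum.inr j),
      hanti (Sum.inr i) (Sum.inr j)]
    ring
  have hlin : ∀ (L : (C2 → ℂ) → ℂ) (hadd : ∀ f g : C2 → ℂ, TF Ω f → TF Ω g →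
      L (fun z => f z + g z) = L f + L g) (hsm : ∀ (c : ℂ) (f : C2 → ℂ), TF Ω f →
      L (fun z => c * f z) = c * L f) (ε δ : Bool) (i j : Fin 2),
      L (C ε δ i j) = L (B (Sum.inl i) (Sum.inl j)) +
        (if ε then Complex.I else -Complex.I) * L (B (Sum.inr i) (Sum.inl j)) +
        (if δ then Complex.I else -Complex.I) * L (B (Sum.inl i) (Sum.inr j)) +
        (if ε then Complex.I else -Complex.I) * (if δ then Complex.I else -Complex.I) *
          L (B (Sum.inr i) (Sum.inr j)) := by
    intro L hadd hsm ε δ i j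
    simp only [C]
    rw [hadd _ _ (((hB _ _).add ((hB _ _).const_mul _)).add ((hB _ _).const_mul _))
        ((hB _ _).const_mul _), hadd _ _ ((hB _ _).add ((hB _ _).const_mul _))
        ((hB _ _).const_mul _), hadd _ _ (hB _ _) ((hB _ _).const_mul _), hsm _ _ (hB _ _),
        hsm _ _ (hB _ _), hsm _ _ (hB _ _)]
  have hdz : ∀ (k : Fin 2) (z : C2) (ε δ : Bool) (i j : Fin 2),
      dz k (C ε δ i j) z = dz k (B (Sum.inl i) (Sum.inl j)) z +
        (if ε then Complex.I else -Complex.I) * dz k (B (Sum.inr i) (Sum.inl j)) z +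
        (if δ then Complex.I else -Complex.I) * dz k (B (Sum.inl i) (Sum.inr j)) z +
        (if ε then Complex.I else -Complex.I) * (if δ then Complex.I else -Complex.I) *
          dz k (B (Sum.inr i) (Sum.inr j)) z := fun k z =>
    hlin (fun f => dz k f z) (fun f g hf hg => dz_add (hf.diff z) (hg.diff z) k)
      (fun c f hf => by simpa using dz_const_smul c (hf.diff z) k)
  have hdzb : ∀ (k : Fin 2) (z : C2) (ε δ : Bool) (i j : Fin 2),
      dzb k (C ε δ i j) z = dzb k (B (Sum.inl i) (Sum.inl j)) z +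
        (if ε then Complex.I else -Complex.I) * dzb k (B (Sum.inr i) (Sum.inl j)) z +
        (if δ then Complex.I else -Complex.I) * dzb k (B (Sum.inl i) (Sum.inr j)) z +
        (if ε then Complex.I else -Complex.I) * (if δ then Complex.I else -Complex.I) *
          dzb k (B (Sum.inr i) (Sum.inr j)) z := fun k z =>
    hlin (fun f => dzb k f z) (fun f g hf hg => dzb_add (hf.diff z) (hg.diff z) k)
      (fun c f hf => by simpa using dzb_const_smul c (hf.diff z) k)
  -- the equation in complex components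
  have hP : ∀ i z, p i z = ∑ j, (dz j (C true true i j) z + dzb j (C true false i j) z) := by
    intro i z
    rw [hpq, hB1, hB1]
    simp only [Fintype.sum_sum_type, Fin.sum_univ_two, D_inl, D_inr, hdz, hdzb, if_true,
      Bool.false_eq_true, if_false]
    ring_nf
  have hQ : ∀ i z, q i z = ∑ j, (dz j (C false true i j) z + dzb j (C false false i j) z) := by
    intro i z
    rw [hqp, hB1, hB1]
    simp only [Fintype.sum_sum_type, Fin.sum_univ_two, D_inl, D_inr, hdz, hdzb, if_true,
      Bool.false_eq_true, if_false]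
    ring_nf
  have hself : ∀ ε i, C ε ε i i = fun _ => 0 := by
    intro ε i
    funext z
    have := hCa ε ε i i z
    have h2 : (2 : ℂ) * C ε ε i i z = 0 := by linear_combination this
    simpa using h2
  have hft : ∀ i j, C false true i j = fun z => -C true false j i z := fun i j => by
    funext z; exact hCa _ _ _ _ z
  have h10 : ∀ ε, C ε ε 1 0 = fun z => -C ε ε 0 1 z := fun ε => by
    funext z; exact hCa _ _ _ _ z
  refine ⟨C false false 0 1, C true true 0 1,
    ![![fun z => -C true false 1 1 z, C true false 1 0],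
      ![C true false 0 1, fun z => -C true false 0 0 z]], hC _ _ _ _, hC _ _ _ _, ?_, ?_, ?_⟩
  · intro i j
    fin_cases i <;> fin_cases j
    · exact (hC _ _ _ _).neg
    · exact hC _ _ _ _
    · exact hC _ _ _ _
    · exact (hC _ _ _ _).neg
  · refine Fin.forall_fin_two.2 ⟨fun z => ?_, fun z => ?_⟩
    · have e1 := hQ 1 z
      rw [hq1] at e1
      simp only [Fin.sum_univ_two] at e1
      rw [hself, hft, hft, dz_neg, dz_neg, h10, dzb_neg, dzb_const] at e1
      change s 0 z = dzb 0 (C false false 0 1) z + (dz 0 (C true false 0 1) z -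
        dz 1 (fun z => -C true false 1 1 z) z)
      rw [dz_neg]
      linear_combination -e1
    · have e0 := hQ 0 z
      rw [hq0] at e0
      simp only [Fin.sum_univ_two] at e0
      rw [hself, hft, hft, dz_neg, dz_neg, dzb_const] at e0
      change s 1 z = dzb 1 (C false false 0 1) z + (dz 0 (fun z => -C true false 0 0 z) z -
        dz 1 (C true false 1 0) z)
      rw [dz_neg]
      linear_combination e0
  · refine Fin.forall_fin_two.2 ⟨fun z => ?_, fun z => ?_⟩
    · have e1 := hP 1 z
      rw [hp1] at e1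
      simp only [Fin.sum_univ_two] at e1
      rw [hself, h10, dz_neg, dz_const] at e1
      change t 0 z = dz 0 (C true true 0 1) z - (dzb 0 (C true false 1 0) z -
        dzb 1 (fun z => -C true false 1 1 z) z)
      rw [dzb_neg]
      linear_combination -e1
    · have e0 := hP 0 z
      rw [hp0] at e0
      simp only [Fin.sum_univ_two] at e0
      rw [hself, dz_const] at e0
      change t 1 z = dz 1 (C true true 0 1) z - (dzb 0 (fun z => -C true false 0 0 z) z -
        dzb 1 (C true false 0 1) z)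
      rw [dzb_neg]
      linear_combination e0

end Vale.Agent.P267.H368
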