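import Vale.Agent.P267.H368.XTa
import Vale.Agent.P267.H439.OfLoc
import Vale.Agent.P267.H469.Del2
import Vale.Agent.P267.H928.Int.FLLin

/-!
# P267, UNI-XT (helper368): compactly supported forms of degree 2, 3, 4 in one chart
-/

set_option linter.unusedVariables false
set_option linter.unusedSectionVars false

open scoped Manifold ContDiff ComplexConjugate Matrix
open MeasureTheory Set Filter Topology

noncomputable section

namespace Vale.Agent.P267.H368

open Vale.Agent.P267.FL Bog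
open Vale.Agent.P267.H439 (of0 of1 of2)
open Vale.Agent.P267.H469 (cj0 cj1 cj11 cjF del11)

variable {Y : Type*} [TopologicalSpace Y] [ChartedSpace C2 Y]

/-! ### classes of compactly supported forms -/

/-- `(2,2)`-forms with compact support in `U` -/
structure TD (U : Set Y) (ρ : Y → ℂ) : Prop where
  reg : Reg2 ∞ 1 ρ
  supp : ∃ K, IsCompact K ∧ K ⊆ U ∧ ∀ x ∉ K, ρ x = 0

/-- three-forms (`s` = the `(2,1)`-part, `t` = the `(1,2)`-part) with compact support in `U` -/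
structure T3 (U : Set Y) (s t : Y → Fin 2 → ℂ) : Prop where
  rs : Reg1 ∞ 1 s
  rt : Reg1 ∞ 1 (cj1 t)
  supp : ∃ K, IsCompact K ∧ K ⊆ U ∧ ∀ x ∉ K, s x = 0 ∧ t x = 0

/-- two-forms with compact support in `U` -/
structure T2 (U : Set Y) (b : TwoF Y) : Prop where
  smooth : b.Smooth
  supp : ∃ K, IsCompact K ∧ K ⊆ U ∧ ∀ x ∉ K, b.f20 x = 0 ∧ b.f11 x = 0 ∧ b.f02 x = 0

/-- exterior derivative of a three-form -/
def d3 (s t : Y → Fin 2 → ℂ) (x : Y) : ℂ := dbar1 1 s x + conj (dbar1 1 (cj1 t) x)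

theorem cj1_apply (t : Y → Fin 2 → ℂ) (x : Y) (i : Fin 2) : cj1 t x i = conj (t x i) := rfl

theorem cj1_eq_zero {t : Y → Fin 2 → ℂ} {x : Y} (h : t x = 0) : cj1 t x = 0 := by
  funext i
  rw [cj1_apply, h]
  simp

/-- from the manifold to the chart -/
theorem tf_chart {e : Ch Y} {U K : Set Y} {g : C2 → ℂ} (hg : ContDiffOn ℝ ∞ g e.target)
    (hK : IsCompact K) (hKU : K ⊆ U) (hUe : U ⊆ e.source)
    (h0 : ∀ z ∈ e.target, e.symm z ∉ K → g z = 0) : TF (e '' U) (e.target.indicator g) := by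
  have hKc : IsCompact (e '' K) := hK.image_of_continuousOn (e.continuousOn.mono (hKU.trans hUe))
  have hz0 : ∀ z ∉ e '' K, e.target.indicator g z = 0 := by
    intro z hz
    by_cases hzt : z ∈ e.target
    · rw [indicator_of_mem hzt]
      exact h0 z hzt fun h => hz ⟨e.symm z, h, e.right_inv hzt⟩
    · exact indicator_of_notMem hzt _
  refine TF.intro hKc (image_mono hKU) ?_ hz0
  rw [contDiff_iff_contDiffAt]
  intro z
  by_cases hzt : z ∈ e.target
  · refine (hg.contDiffAt (e.open_target.mem_nhds hzt)).congr_of_eventuallyEq ?_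
    filter_upwards [e.open_target.mem_nhds hzt] with y hy
    exact indicator_of_mem hy _
  · have hzK : z ∉ e '' K := by
      rintro ⟨x, hx, rfl⟩
      exact hzt (e.map_source (hUe (hKU hx)))
    refine (contDiffAt_const (c := (0 : ℂ))).congr_of_eventuallyEq ?_
    filter_upwards [hKc.isClosed.isOpen_compl.mem_nhds hzK] with y hy
    exact hz0 y hy

theorem ind_eventually {e : Ch Y} {g : C2 → ℂ} {z : C2} (hz : z ∈ e.target) :
    e.target.indicator g =ᶠ[𝓝 z] g := by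
  filter_upwards [e.open_target.mem_nhds hz] with y hy
  exact indicator_of_mem hy _

/-- a common compact support for finitely many test functions -/
theorem exists_common {Ω : Set C2} {κ : Type*} [Finite κ] {f : κ → C2 → ℂ} (hf : ∀ i, TF Ω (f i)) :
    ∃ K, IsCompact K ∧ K ⊆ Ω ∧ ∀ z ∉ K, ∀ i, f i z = 0 := by
  refine ⟨⋃ i, tsupport (f i), isCompact_iUnion fun i => (hf i).compact,
    iUnion_subset fun i => (hf i).sub, fun z hz i => ?_⟩
  exact (hf i).eq_zero fun h => hz (mem_iUnion.2 ⟨i, h⟩)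

variable [IsManifold 𝓘(ℂ, C2) ω Y]

/-- two `(2,2)`-forms with the same components in one chart, zero off the chart -/
theorem eq_of_loc2 {e : Ch Y} (he : e ∈ atlas C2 Y) {κ : ℤ} {b b' : Y → ℂ}
    (h : ∀ z ∈ e.target, loc2 κ e b z = loc2 κ e b' z) (h0 : ∀ x ∉ e.source, b x = b' x) : b = b' := by
  funext x
  by_cases hx : x ∈ e.source
  · exact H439.loc2_inj he hx (h _ (e.map_source hx))
  · exact h0 x hx

theorem loc2_one_add (e : Ch Y) (b b' : Y → ℂ) (z : C2) :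
    loc2 1 e (fun x => b x + b' x) z = loc2 1 e b z + loc2 1 e b' z := by
  rw [loc2_add]

theorem loc2_one_conj' (e : Ch Y) (b : Y → ℂ) (z : C2) :
    loc2 1 e (fun x => conj (b x)) z = conj (loc2 1 e b z) :=
  H469.loc21_cj0 e b z

/-- component of `d` of a three-form -/
theorem loc2_d3 {s t : Y → Fin 2 → ℂ} (hs : Reg1 ∞ 1 s) (ht : Reg1 ∞ 1 (cj1 t)) {e : Ch Y}
    (he : e ∈ atlas C2 Y) {z : C2} (hz : z ∈ e.target) :
    loc2 1 e (d3 s t) z = (dzb 0 (fun v => loc1 1 e s v 1) z - dzb 1 (fun v => loc1 1 e s v 0) z) +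
      conj (dzb 0 (fun v => loc1 1 e (cj1 t) v 1) z - dzb 1 (fun v => loc1 1 e (cj1 t) v 0) z) := by
  have h1 : d3 s t = fun x => dbar1 1 s x + (fun y => conj (dbar1 1 (cj1 t) y)) x := rfl
  rw [h1, loc2_one_add, loc2_one_conj']
  rw [H469.dbar1_law (hs.of_le (by simp)) he hz, H469.dbar1_law (ht.of_le (by simp)) he hz]

variable [T2Space Y]

theorem d3_zero {s t : Y → Fin 2 → ℂ} {K : Set Y} (hK : IsClosed K)
    (h0 : ∀ x ∉ K, s x = 0 ∧ t x = 0) {x : Y} (hx : x ∉ K) : d3 s t x = 0 := by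
  have h1 := dbar1_eq_zero_of_notMem (κ := 1) hK (fun y hy => (h0 y hy).1) hx
  have h2 := dbar1_eq_zero_of_notMem (κ := 1) hK (fun y hy => cj1_eq_zero (h0 y hy).2) hx
  rw [d3, h1, h2]
  simp

/-- **Degree four, on the manifold.** -/
theorem exists_T3 [SigmaCompactSpace Y] {e : Ch Y} (he : e ∈ atlas C2 Y) {U : Set Y}
    (hU : IsOpen U) (hUe : U ⊆ e.source) (hc : Convex ℝ (e '' U)) {ρ : Y → ℂ} (hρ : TD U ρ)
    (hint : intX ρ = 0) : ∃ s t, T3 U s t ∧ d3 s t = ρ := by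
  obtain ⟨K, hK, hKU, h0⟩ := hρ.supp
  have hf : TF (e '' U) (e.target.indicator (loc2 1 e ρ)) :=
    tf_chart (hρ.reg e he) hK hKU hUe fun z _ hz => by
      rw [loc2, h0 _ hz]
      simp
  have hcs : HasCompactSupport ρ := HasCompactSupport.intro hK h0
  have hi : ∫ z, e.target.indicator (loc2 1 e ρ) z = 0 := by
    rw [integral_indicator e.open_target.measurableSet]
    have h1 := intX_chart (integrableX_of_reg (hρ.reg.zero_order) hcs) hcs he
      (fun x hx => h0 x fun h => hx (hUe (hKU h)))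
    rw [hint] at h1
    have h4 : (4 : ℂ) ≠ 0 := by norm_num
    exact (mul_eq_zero.1 h1.symm).resolve_left h4
  have hΩ : IsOpen (e '' U) := e.isOpen_image_of_subset_source hU hUe
  have hΩt : e '' U ⊆ e.target := by
    rintro _ ⟨x, hx, rfl⟩
    exact e.map_source (hUe hx)
  obtain ⟨s', t', hs', ht', h1⟩ := exists_three hΩ hc hf hi
  obtain ⟨K₁, hK₁, hK₁Ω, hK₁0⟩ := exists_common hs'
  obtain ⟨K₂, hK₂, hK₂Ω, hK₂0⟩ := exists_common ht'
  have hKK : IsCompact (K₁ ∪ K₂) := hK₁.union hK₂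
  have hKKΩ : K₁ ∪ K₂ ⊆ e '' U := union_subset hK₁Ω hK₂Ω
  have hKKt : K₁ ∪ K₂ ⊆ e.target := hKKΩ.trans hΩt
  have hs0 : ∀ z ∉ K₁ ∪ K₂, (fun i => s' i z) = 0 := fun z hz => by
    funext i; exact hK₁0 z (fun h => hz (Or.inl h)) i
  have ht0 : ∀ z ∉ K₁ ∪ K₂, (fun i => conj (t' i z)) = 0 := fun z hz => by
    funext i
    simp only [Pi.zero_apply]
    rw [hK₂0 z (fun h => hz (Or.inr h)) i, map_zero]
  have hsc : ContDiffOn ℝ ∞ (fun z i => s' i z) e.target :=
    (contDiff_pi.2 fun i => (hs' i).smooth).contDiffOn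
  have htc : ContDiffOn ℝ ∞ (fun z i => conj (t' i z)) e.target :=
    (contDiff_pi.2 fun i => Complex.conjCLE.contDiff.comp (ht' i).smooth).contDiffOn
  set s : Y → Fin 2 → ℂ := of1 1 e fun z i => s' i z with hs
  set τ : Y → Fin 2 → ℂ := of1 1 e fun z i => conj (t' i z) with hτ
  have rs : Reg1 ∞ 1 s := H439.reg1_of1 he hKK hKKt hs0 hsc
  have rτ : Reg1 ∞ 1 τ := H439.reg1_of1 he hKK hKKt ht0 htc
  have rt : Reg1 ∞ 1 (cj1 (cj1 τ)) := by rw [H469.cj1_cj1]; exact rτ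
  have hKs : e.symm '' (K₁ ∪ K₂) ⊆ U := by
    rintro _ ⟨z, hz, rfl⟩
    obtain ⟨x, hx, rfl⟩ := hKKΩ hz
    rwa [e.left_inv (hUe hx)]
  have hsupp : ∀ x ∉ e.symm '' (K₁ ∪ K₂), s x = 0 ∧ cj1 τ x = 0 := by
    intro x hx
    refine ⟨H439.of1_zero_of fun hxs => hs0 _ (H439.notMem_symm_image hx hxs), cj1_eq_zero ?_⟩
    exact H439.of1_zero_of fun hxs => ht0 _ (H439.notMem_symm_image hx hxs)
  have hKc := H439.isCompact_symm_image hKK hKKt
  refine ⟨s, cj1 τ, ⟨rs, rt, _, hKc, hKs, hsupp⟩, ?_⟩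
  refine eq_of_loc2 (κ := 1) he (fun z hz => ?_) (fun x hx => ?_)
  · rw [loc2_d3 rs rt he hz, H469.cj1_cj1]
    have e1 : ∀ i, (fun v => loc1 1 e s v i) =ᶠ[𝓝 z] s' i := fun i => by
      filter_upwards [e.open_target.mem_nhds hz] with v hv
      exact H439.loc1_of1 he hv _ i
    have e2 : ∀ i, (fun v => loc1 1 e τ v i) =ᶠ[𝓝 z] fun v => conj (t' i v) := fun i => by
      filter_upwards [e.open_target.mem_nhds hz] with v hv
      exact H439.loc1_of1 he hv _ i
    rw [dzb_congr (e1 1), dzb_congr (e1 0), dzb_congr (e2 1), dzb_congr (e2 0),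
      dzb_conj ((ht' 1).diff z), dzb_conj ((ht' 0).diff z), map_sub, Complex.conj_conj,
      Complex.conj_conj, ← h1 z, indicator_of_mem hz]
  · rw [d3_zero hKc.isClosed hsupp (fun h => hx (hUe (hKs h))), h0 x fun h => hx (hUe (hKU h))]

end Vale.Agent.P267.H368
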