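import Vale.Agent.P267.H368.XTb

/-!
# P267, UNI-XT (helper368): locality; `(1,1)`-forms supported in a chart; degree 3 on the manifold
-/

set_option linter.unusedVariables false
set_option linter.unusedSectionVars false

open scoped Manifold ContDiff ComplexConjugate Matrix
open MeasureTheory Set Filter Topology

noncomputable section

namespace Vale.Agent.P267.H368

open Vale.Agent.P267.FL Bog
open Vale.Agent.P267.H439 (of0 of1 of2)
open Vale.Agent.P267.H469 (cj0 cj1 cj11 cjF del11 ov tr J ov_nhds)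

variable {Y : Type*} [TopologicalSpace Y] [ChartedSpace C2 Y]

/-! ### locality -/

theorem loc10_congr {e : Ch Y} {x : Y} (hx : x ∈ e.source) {s t : Y → Fin 2 → ℂ}
    (h : s =ᶠ[𝓝 x] t) (i : Fin 2) :
    (fun z => loc10 e s z i) =ᶠ[𝓝 (e x)] fun z => loc10 e t z i := by
  filter_upwards [(tendsto_symm_nhds hx).eventually h] with z hz
  rw [loc10, loc10, hz]

theorem loc1_congr' {κ : ℤ} {e : Ch Y} {x : Y} (hx : x ∈ e.source) {s t : Y → Fin 2 → ℂ}
    (h : s =ᶠ[𝓝 x] t) (i : Fin 2) :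
    (fun z => loc1 κ e s z i) =ᶠ[𝓝 (e x)] fun z => loc1 κ e t z i := by
  filter_upwards [(tendsto_symm_nhds hx).eventually h] with z hz
  rw [loc1, loc1, hz]

theorem loc11_congr {e : Ch Y} {x : Y} (hx : x ∈ e.source) {s t : Y → Matrix (Fin 2) (Fin 2) ℂ}
    (h : s =ᶠ[𝓝 x] t) (i j : Fin 2) :
    (fun z => loc11 e s z i j) =ᶠ[𝓝 (e x)] fun z => loc11 e t z i j := by
  filter_upwards [(tendsto_symm_nhds hx).eventually h] with z hz
  rw [loc11, loc11, Matrix.of_apply, Matrix.of_apply, hz]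

theorem del0_congr {s t : Y → ℂ} {x : Y} (h : s =ᶠ[𝓝 x] t) : del0 s x = del0 t x := by
  funext i
  refine dz_congr ?_ i
  exact (tendsto_symm_nhds (mem_chart_source C2 x)).eventually h

theorem del10_congr {s t : Y → Fin 2 → ℂ} {x : Y} (h : s =ᶠ[𝓝 x] t) : del10 s x = del10 t x := by
  rw [del10, del10, dz_congr (loc10_congr (mem_chart_source C2 x) h 1),
    dz_congr (loc10_congr (mem_chart_source C2 x) h 0)]

theorem del1_congr {s t : Y → Fin 2 → ℂ} {x : Y} (h : s =ᶠ[𝓝 x] t) : del1 s x = del1 t x := by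
  ext i j
  rw [del1, del1, Matrix.of_apply, Matrix.of_apply,
    dz_congr (loc1_congr' (mem_chart_source C2 x) h j)]

theorem dbar10_congr {s t : Y → Fin 2 → ℂ} {x : Y} (h : s =ᶠ[𝓝 x] t) :
    dbar10 s x = dbar10 t x := by
  ext i j
  rw [dbar10, dbar10, Matrix.of_apply, Matrix.of_apply,
    dzb_congr (loc10_congr (mem_chart_source C2 x) h i)]

theorem del11_congr {s t : Y → Matrix (Fin 2) (Fin 2) ℂ} {x : Y} (h : s =ᶠ[𝓝 x] t) :
    del11 s x = del11 t x := by
  funext j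
  rw [del11, del11, dz_congr (loc11_congr (mem_chart_source C2 x) h 1 j),
    dz_congr (loc11_congr (mem_chart_source C2 x) h 0 j)]

theorem dF0_congr {s t : Y → ℂ} {x : Y} (h : s =ᶠ[𝓝 x] t) :
    (dF0 s).f10 x = (dF0 t).f10 x ∧ (dF0 s).f01 x = (dF0 t).f01 x :=
  ⟨del0_congr h, dbar0_congr h⟩

theorem d_congr {A B : OneF Y} {x : Y} (h : A.f10 =ᶠ[𝓝 x] B.f10) (h' : A.f01 =ᶠ[𝓝 x] B.f01) :
    A.d.f20 x = B.d.f20 x ∧ A.d.f11 x = B.d.f11 x ∧ A.d.f02 x = B.d.f02 x := by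
  refine ⟨del10_congr h, ?_, dbar1_congr h'⟩
  change del1 A.f01 x + dbar10 A.f10 x = del1 B.f01 x + dbar10 B.f10 x
  rw [del1_congr h', dbar10_congr h]

theorem d21_congr {F G : TwoF Y} {x : Y} (h : F.f20 =ᶠ[𝓝 x] G.f20) (h' : F.f11 =ᶠ[𝓝 x] G.f11) :
    F.d21 x = G.d21 x := by
  funext j
  have h1 : dbar0 1 F.f20 x = dbar0 1 G.f20 x := dbar0_congr h
  change dbar0 1 F.f20 x j + del11 F.f11 x j = dbar0 1 G.f20 x j + del11 G.f11 x j
  rw [h1, del11_congr h']

theorem cj0_congr {s t : Y → ℂ} {x : Y} (h : s =ᶠ[𝓝 x] t) : cj0 s =ᶠ[𝓝 x] cj0 t := by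
  filter_upwards [h] with y hy
  rw [cj0, cj0, hy]

theorem cj11_congr {s t : Y → Matrix (Fin 2) (Fin 2) ℂ} {x : Y} (h : s =ᶠ[𝓝 x] t) :
    cj11 s =ᶠ[𝓝 x] cj11 t := by
  filter_upwards [h] with y hy
  rw [cj11, cj11, hy]

section mfd

variable [IsManifold 𝓘(ℂ, C2) ω Y]

theorem d12_eq (F : TwoF Y) : F.d12 = cj1 ((cjF F).d21) := by
  rw [H469.d21_cj, H469.cj1_cj1]

theorem d12_congr {F G : TwoF Y} {x : Y} (h : F.f02 =ᶠ[𝓝 x] G.f02) (h' : F.f11 =ᶠ[𝓝 x] G.f11) :
    F.d12 x = G.d12 x := by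
  have h1 : (cjF F).d21 x = (cjF G).d21 x := d21_congr (cj0_congr h) (cj11_congr h')
  rw [d12_eq, d12_eq]
  funext i
  rw [cj1_apply, cj1_apply, h1]

theorem d21_zeroF (x : Y) : (⟨fun _ => 0, fun _ => 0, fun _ => 0⟩ : TwoF Y).d21 x = 0 := by
  funext j
  have h1 : dbar0 1 (fun _ : Y => (0 : ℂ)) x = 0 := dbar0_zero
  have h2 : del11 (fun _ : Y => (0 : Matrix (Fin 2) (Fin 2) ℂ)) x j = 0 := by
    have h3 : ∀ i, (fun z => loc11 (chartAt C2 x) (fun _ : Y => (0 : Matrix (Fin 2) (Fin 2) ℂ)) z i j)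
        = fun _ => 0 := by
      intro i
      funext z
      simp [loc11]
    rw [del11, h3, h3, dz_const, dz_const, sub_zero]
  change dbar0 1 (fun _ : Y => (0 : ℂ)) x j +
    del11 (fun _ : Y => (0 : Matrix (Fin 2) (Fin 2) ℂ)) x j = 0
  rw [h1, h2]
  simp

theorem d12_zeroF (x : Y) : (⟨fun _ => 0, fun _ => 0, fun _ => 0⟩ : TwoF Y).d12 x = 0 := by
  have h0 : cjF (⟨fun _ => 0, fun _ => 0, fun _ => 0⟩ : TwoF Y) = ⟨fun _ => 0, fun _ => 0, fun _ => 0⟩ := by
    have h1 : cj0 (fun _ : Y => (0 : ℂ)) = fun _ => 0 := by funext x; simp [cj0]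
    have h2 : cj11 (fun _ : Y => (0 : Matrix (Fin 2) (Fin 2) ℂ)) = fun _ => 0 := by
      funext x; ext i j; simp [cj11]
    simp only [cjF, h1, h2]
  rw [d12_eq, h0]
  funext i
  rw [cj1_apply, d21_zeroF]
  simp

theorem d2_zero {F : TwoF Y} {K : Set Y} (hK : IsClosed K)
    (h0 : ∀ x ∉ K, F.f20 x = 0 ∧ F.f11 x = 0 ∧ F.f02 x = 0) {x : Y} (hx : x ∉ K) :
    F.d21 x = 0 ∧ F.d12 x = 0 := by
  have hn := hK.isOpen_compl.mem_nhds hx
  have h1 : F.f20 =ᶠ[𝓝 x] fun _ => 0 := by filter_upwards [hn] with y hy; exact (h0 y hy).1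
  have h2 : F.f11 =ᶠ[𝓝 x] fun _ => 0 := by filter_upwards [hn] with y hy; exact (h0 y hy).2.1
  have h3 : F.f02 =ᶠ[𝓝 x] fun _ => 0 := by filter_upwards [hn] with y hy; exact (h0 y hy).2.2
  refine ⟨?_, ?_⟩
  · rw [← d21_zeroF x]
    exact d21_congr h1 h2
  · rw [← d12_zeroF x]
    exact d12_congr h3 h2

end mfd

/-! ### `(1,1)`-forms with given components in a chart -/

theorem loc11_eq_mul (e : Ch Y) (g : Y → Matrix (Fin 2) (Fin 2) ℂ) (z : C2) :
    loc11 e g z = (jac e (e.symm z))ᵀ * g (e.symm z) *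
      (jac e (e.symm z)).map (starRingEnd ℂ) := by
  ext i j
  simp only [loc11, Matrix.of_apply, Matrix.mul_apply, Matrix.transpose_apply, Matrix.map_apply,
    Fin.sum_univ_two, smul_eq_mul]
  ring

open Classical in
/-- the `(1,1)`-form with components `g` in the chart `e` -/
def of11 (e : Ch Y) (g : C2 → Matrix (Fin 2) (Fin 2) ℂ) (x : Y) : Matrix (Fin 2) (Fin 2) ℂ :=
  if x ∈ e.source then ((jac e x)⁻¹)ᵀ * g (e x) * ((jac e x)⁻¹).map (starRingEnd ℂ) else 0

theorem of11_zero_of {e : Ch Y} {x : Y} {g : C2 → Matrix (Fin 2) (Fin 2) ℂ}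
    (h : x ∈ e.source → g (e x) = 0) : of11 e g x = 0 := by
  by_cases hx : x ∈ e.source
  · rw [of11, if_pos hx, h hx]
    simp
  · exact if_neg hx

variable [IsManifold 𝓘(ℂ, C2) ω Y]

theorem loc11_of11 {e : Ch Y} (he : e ∈ atlas C2 Y) {z : C2} (hz : z ∈ e.target)
    (g : C2 → Matrix (Fin 2) (Fin 2) ℂ) : loc11 e (of11 e g) z = g z := by
  have hx := e.map_target hz
  have hd := jac_det_ne_zero he hx
  have hu : IsUnit (jac e (e.symm z)).det := isUnit_iff_ne_zero.2 hd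
  have hmul : (jac e (e.symm z))⁻¹ * jac e (e.symm z) = 1 := Matrix.nonsing_inv_mul _ hu
  rw [loc11_eq_mul, of11, if_pos hx, e.right_inv hz]
  set M := jac e (e.symm z)
  calc Mᵀ * ((M⁻¹)ᵀ * g z * (M⁻¹).map (starRingEnd ℂ)) * M.map (starRingEnd ℂ)
      = (Mᵀ * (M⁻¹)ᵀ) * g z * ((M⁻¹).map (starRingEnd ℂ) * M.map (starRingEnd ℂ)) := by
        simp only [Matrix.mul_assoc]
    _ = (M⁻¹ * M)ᵀ * g z * (M⁻¹ * M).map (starRingEnd ℂ) := by
        rw [Matrix.transpose_mul, Matrix.map_mul]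
    _ = g z := by
        rw [hmul, Matrix.transpose_one, Matrix.one_mul,
          Matrix.map_one _ (map_zero _) (map_one _), Matrix.mul_one]

theorem reg11_of11 [T2Space Y] {e : Ch Y} (he : e ∈ atlas C2 Y) {K : Set C2} (hK : IsCompact K)
    (hKe : K ⊆ e.target) {g : C2 → Matrix (Fin 2) (Fin 2) ℂ} (hg : ∀ z ∉ K, g z = 0)
    (hgc : ∀ i j, ContDiffOn ℝ ∞ (fun z => g z i j) e.target) : Reg11 ∞ (of11 e g) := by
  intro e' he' i j z' hz'
  refine ContDiffAt.contDiffWithinAt ?_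
  by_cases hx : e'.symm z' ∈ e.source
  · have hov : z' ∈ ov e' e := ⟨hz', hx⟩
    refine ContDiffAt.congr_of_eventuallyEq ?_ (H469.loc11_near he' he hov (of11 e g) i j)
    refine ContDiffAt.sum fun p _ => ContDiffAt.sum fun q _ => ?_
    have h1 : ContDiffAt ℝ ∞ (J e' e p i) z' := (H469.J_real he' he p i).contDiffAt (ov_nhds hov)
    have h2 : ContDiffAt ℝ ∞ (J e' e q j) z' := (H469.J_real he' he q j).contDiffAt (ov_nhds hov)
    have h3 : ContDiffAt ℝ ∞ (fun u => loc11 e (of11 e g) u p q) (tr e' e z') := by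
      refine ((hgc p q).contDiffAt
        (e.open_target.mem_nhds (H469.tr_mem hov))).congr_of_eventuallyEq ?_
      filter_upwards [e.open_target.mem_nhds (H469.tr_mem hov)] with v hv
      rw [loc11_of11 he hv]
    exact (h1.mul (Complex.conjCLE.contDiff.contDiffAt.comp _ h2)).smul
      (h3.comp _ ((H469.tr_real he' he).contDiffAt (ov_nhds hov)))
  · have h1 : e'.symm z' ∉ e.symm '' K := fun h => hx (H439.symm_image_subset hKe h)
    have h2 : ∀ᶠ v in 𝓝 z', e'.symm v ∉ e.symm '' K :=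
      (e'.continuousAt_symm hz').eventually
        ((H439.isCompact_symm_image hK hKe).isClosed.isOpen_compl.mem_nhds h1)
    refine (contDiffAt_const (c := (0 : ℂ))).congr_of_eventuallyEq ?_
    filter_upwards [h2] with v hv
    rw [loc11_eq_mul, of11_zero_of fun hxs => hg _ (H439.notMem_symm_image hv hxs)]
    simp

/-- two `(0,1)`-forms with the same components in one chart, equal off the chart -/
theorem eq_of_loc1 {e : Ch Y} (he : e ∈ atlas C2 Y) {κ : ℤ} {b b' : Y → Fin 2 → ℂ}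
    (h : ∀ z ∈ e.target, ∀ i, loc1 κ e b z i = loc1 κ e b' z i)
    (h0 : ∀ x ∉ e.source, b x = b' x) : b = b' := by
  funext x
  by_cases hx : x ∈ e.source
  · exact H439.loc1_inj he hx (h _ (e.map_source hx))
  · exact h0 x hx

variable [T2Space Y]

/-- **Degree three, on the manifold.** -/
theorem exists_T2 {e : Ch Y} (he : e ∈ atlas C2 Y) {U : Set Y}
    (hU : IsOpen U) (hUe : U ⊆ e.source) (hc : Convex ℝ (e '' U)) {s t : Y → Fin 2 → ℂ}
    (h3 : T3 U s t) (hcl : ∀ x, d3 s t x = 0) : ∃ b : TwoF Y, T2 U b ∧ b.d21 = s ∧ b.d12 = t := by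
  obtain ⟨K, hK, hKU, h0⟩ := h3.supp
  have rs := h3.rs
  have rt := h3.rt
  set s' : Fin 2 → C2 → ℂ := fun j => e.target.indicator fun z => loc1 1 e s z j with hs'
  set t' : Fin 2 → C2 → ℂ := fun i => e.target.indicator fun z => conj (loc1 1 e (cj1 t) z i)
    with ht'
  have hs : ∀ j, TF (e '' U) (s' j) := fun j =>
    tf_chart (contDiffOn_pi.1 (rs e he) j) hK hKU hUe fun z _ hz => by
      rw [loc1, (h0 _ hz).1]
      simp
  have ht : ∀ i, TF (e '' U) (t' i) := fun i =>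
    tf_chart (Complex.conjCLE.contDiff.comp_contDiffOn (contDiffOn_pi.1 (rt e he) i)) hK hKU hUe
      fun z _ hz => by
        rw [loc1, cj1_eq_zero (h0 _ hz).2]
        simp
  have hΩ : IsOpen (e '' U) := e.isOpen_image_of_subset_source hU hUe
  have hΩt : e '' U ⊆ e.target := by
    rintro _ ⟨x, hx, rfl⟩
    exact e.map_source (hUe hx)
  have hoff : ∀ {f : C2 → ℂ}, TF (e '' U) f → ∀ z ∉ e.target, f z = 0 := fun {f} hf z hz =>
    hf.eq_zero fun h => hz (hΩt (hf.sub h))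
  have hdcl : ∀ z, (dzb 0 (s' 1) z - dzb 1 (s' 0) z) + (dz 0 (t' 1) z - dz 1 (t' 0) z) = 0 := by
    intro z
    by_cases hz : z ∈ e.target
    · have h1 := loc2_d3 rs rt he hz
      have h2 : loc2 1 e (d3 s t) z = 0 := by
        rw [loc2, hcl]
        simp
      rw [h2] at h1
      rw [hs', ht']
      simp only
      rw [dzb_congr (ind_eventually hz), dzb_congr (ind_eventually hz),
        dz_congr (ind_eventually hz), dz_congr (ind_eventually hz), H469.dz_conj, H469.dz_conj,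
        ← map_sub]
      exact h1.symm
    · rw [hoff ((hs 1).dzb 0) z hz, hoff ((hs 0).dzb 1) z hz, hoff ((ht 1).dz 0) z hz,
        hoff ((ht 0).dz 1) z hz]
      simp
  obtain ⟨u, v, g, hu, hv, hg, e1, e2⟩ := exists_two hΩ hc hs ht hdcl
  obtain ⟨K₁, hK₁, hK₁Ω, hK₁0⟩ := exists_common (f := fun p : Fin 2 × Fin 2 => g p.1 p.2)
    fun p => hg p.1 p.2
  set K' : Set C2 := K₁ ∪ (tsupport u ∪ tsupport v) with hK'
  have hK'c : IsCompact K' := hK₁.union (hu.compact.union hv.compact)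
  have hK'Ω : K' ⊆ e '' U := union_subset hK₁Ω (union_subset hu.sub hv.sub)
  have hK't : K' ⊆ e.target := hK'Ω.trans hΩt
  have zu : ∀ z ∉ K', u z = 0 := fun z hz => hu.eq_zero fun h => hz (Or.inr (Or.inl h))
  have zv : ∀ z ∉ K', v z = 0 := fun z hz => hv.eq_zero fun h => hz (Or.inr (Or.inr h))
  set G : C2 → Matrix (Fin 2) (Fin 2) ℂ := fun z => Matrix.of fun i j => g i j z with hG
  have zg : ∀ z ∉ K', G z = 0 := fun z hz => by
    ext i j
    exact hK₁0 z (fun h => hz (Or.inl h)) (i, j)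
  have hKs : e.symm '' K' ⊆ U := by
    rintro _ ⟨z, hz, rfl⟩
    obtain ⟨x, hx, rfl⟩ := hK'Ω hz
    rwa [e.left_inv (hUe hx)]
  set b : TwoF Y := ⟨of0 1 e u, of11 e G, of2 0 e v⟩ with hb
  have hsupp : ∀ x ∉ e.symm '' K', b.f20 x = 0 ∧ b.f11 x = 0 ∧ b.f02 x = 0 := fun x hx =>
    ⟨H439.of0_zero_of fun hxs => zu _ (H439.notMem_symm_image hx hxs),
      of11_zero_of fun hxs => zg _ (H439.notMem_symm_image hx hxs),
      H439.of2_zero_of fun hxs => zv _ (H439.notMem_symm_image hx hxs)⟩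
  have hbs : b.Smooth := ⟨H439.reg0_of0 he hK'c hK't zu hu.smooth.contDiffOn,
    reg11_of11 he hK'c hK't zg fun i j => (hg i j).smooth.contDiffOn,
    H439.reg2_of2 he hK'c hK't zv hv.smooth.contDiffOn⟩
  have hKc := H439.isCompact_symm_image hK'c hK't
  have hd0 : ∀ x ∉ e.symm '' K', b.d21 x = 0 ∧ b.d12 x = 0 := fun x hx =>
    d2_zero hKc.isClosed hsupp hx
  have n20 : ∀ z ∈ e.target, loc0 1 e b.f20 =ᶠ[𝓝 z] u := fun z hz => by
    filter_upwards [e.open_target.mem_nhds hz] with w hw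
    exact H439.loc0_of0 he hw u
  have n02 : ∀ z ∈ e.target, loc2 0 e b.f02 =ᶠ[𝓝 z] v := fun z hz => by
    filter_upwards [e.open_target.mem_nhds hz] with w hw
    exact H439.loc2_of2 he hw v
  have n11 : ∀ z ∈ e.target, ∀ i j, (fun w => loc11 e b.f11 w i j) =ᶠ[𝓝 z] g i j :=
    fun z hz i j => by
      filter_upwards [e.open_target.mem_nhds hz] with w hw
      change loc11 e (of11 e G) w i j = g i j w
      rw [loc11_of11 he hw]
      rfl
  refine ⟨b, ⟨hbs, _, hKc, hKs, hsupp⟩, ?_, ?_⟩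
  · refine eq_of_loc1 (κ := 1) he (fun z hz j => ?_) fun x hx => ?_
    · have h1 : b.d21 = dbar0 1 b.f20 + del11 b.f11 := rfl
      rw [h1, H469.loc1_add, H469.dbar0_law (H469.r0mono hbs.s20 H469.one_le_infty) he hz,
        H469.del11_law (H469.r11mono hbs.s11 H469.one_le_infty) he hz, dzb_congr (n20 z hz),
        dz_congr (n11 z hz 1 j), dz_congr (n11 z hz 0 j), ← e1, hs']
      exact indicator_of_mem hz _
    · rw [(hd0 x fun h => hx (hUe (hKs h))).1, (h0 x fun h => hx (hUe (hKU h))).1]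
  · have h1 : (cjF b).d21 = cj1 t := by
      refine eq_of_loc1 (κ := 1) he (fun z hz j => ?_) fun x hx => ?_
      · have h1 : (cjF b).d21 = dbar0 1 (cj0 b.f02) + del11 (cj11 b.f11) := rfl
        have r0 : Reg0 ∞ 1 (cj0 b.f02) := H469.r2cj hbs.s02
        have r11 : Reg11 ∞ (cj11 b.f11) := H469.r11cj hbs.s11
        have c0 : loc0 1 e (cj0 b.f02) =ᶠ[𝓝 z] fun w => conj (v w) := by
          filter_upwards [n02 z hz] with w hw
          rw [H469.loc0_cj0', hw]
        have c11 : ∀ i, (fun w => loc11 e (cj11 b.f11) w i j) =ᶠ[𝓝 z] fun w => -conj (g j i w) := by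
          intro i
          filter_upwards [n11 z hz j i] with w hw
          rw [H469.loc11_cj11, hw]
        rw [h1, H469.loc1_add, H469.dbar0_law (H469.r0mono r0 H469.one_le_infty) he hz,
          H469.del11_law (H469.r11mono r11 H469.one_le_infty) he hz, dzb_congr c0,
          dz_congr (c11 1), dz_congr (c11 0), H469.dz_neg, H469.dz_neg, H469.dz_conj,
          H469.dz_conj, H469.dzb_conj]
        have h2 := e2 j z
        have h3 : t' j z = conj (loc1 1 e (cj1 t) z j) := indicator_of_mem hz _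
        have h4 : loc1 1 e (cj1 t) z j = conj (t' j z) := by rw [h3, Complex.conj_conj]
        rw [h4, h2, map_sub, map_sub]
        ring
      · rw [H469.d21_cj]
        funext i
        rw [cj1_apply, cj1_apply, (hd0 x fun h => hx (hUe (hKs h))).2,
          (h0 x fun h => hx (hUe (hKU h))).2]
    rw [d12_eq, h1, H469.cj1_cj1]

end Vale.Agent.P267.H368
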