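import Vale.Agent.P267.H368.XTc
import Vale.Agent.P267.H368.XTIface

/-!
# P267, UNI-XT (helper368): cutoffs, bumps, local algebra, Stokes
-/

set_option linter.unusedVariables false
set_option linter.unusedSectionVars false

open scoped Manifold ContDiff ComplexConjugate Matrix
open MeasureTheory Set Filter Topology

noncomputable section

namespace Vale.Agent.P267.H368

open Vale.Agent.P267.FL Bog
open Vale.Agent.P267.H439 (of0 of1 of2)
open Vale.Agent.P267.H469 (cj0 cj1 cj11 cjF del11 ov tr J ov_nhds)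

variable {Y : Type*} [TopologicalSpace Y] [ChartedSpace C2 Y] [IsManifold 𝓘(ℂ, C2) ω Y]

/-! ### cutoffs and bumps -/

theorem exists_cut [T2Space Y] {e : Ch Y} (he : e ∈ atlas C2 Y) {U K : Set Y} (hU : IsOpen U)
    (hUe : U ⊆ e.source) (hK : IsCompact K) (hKU : K ⊆ U) :
    ∃ χ : Y → ℂ, Reg0 ∞ 0 χ ∧ (∃ K', IsCompact K' ∧ K' ⊆ U ∧ ∀ x ∉ K', χ x = 0) ∧
      ∀ x ∈ K, ∀ᶠ y in 𝓝 x, χ y = 1 := by
  have hΩ : IsOpen (e '' U) := e.isOpen_image_of_subset_source hU hUe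
  have hL : IsCompact (e '' K) := hK.image_of_continuousOn (e.continuousOn.mono (hKU.trans hUe))
  obtain ⟨L, hLc, hKL, hLΩ⟩ := exists_compact_between hL hΩ (image_mono hKU)
  obtain ⟨f, hf1, hf0, -⟩ := exists_contMDiffMap_one_nhds_of_subset_interior 𝓘(ℝ, C2) (n := ⊤)
    hL.isClosed hKL
  have hfs : ContDiff ℝ ∞ (fun z => ((f z : ℝ) : ℂ)) := Complex.ofRealCLM.contDiff.comp
    f.contMDiff.contDiff
  have hLt : L ⊆ e.target := by
    intro z hz
    obtain ⟨x, hx, rfl⟩ := hLΩ hz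
    exact e.map_source (hUe hx)
  have z0 : ∀ z ∉ L, ((f z : ℝ) : ℂ) = 0 := fun z hz => by rw [hf0 z hz]; simp
  refine ⟨of0 0 e fun z => ((f z : ℝ) : ℂ), H439.reg0_of0 he hLc hLt z0 hfs.contDiffOn,
    ⟨e.symm '' L, H439.isCompact_symm_image hLc hLt, ?_, fun x hx => ?_⟩, fun x hx => ?_⟩
  · rintro _ ⟨z, hz, rfl⟩
    obtain ⟨x, hx, rfl⟩ := hLΩ hz
    rwa [e.left_inv (hUe hx)]
  · exact H439.of0_zero_of fun hxs => z0 _ (H439.notMem_symm_image hx hxs)
  · have hxs : x ∈ e.source := hUe (hKU hx)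
    have h1 : ∀ᶠ z in 𝓝 (e x), f z = 1 :=
      (eventually_nhdsSet_iff_forall.1 hf1) _ (mem_image_of_mem e hx)
    filter_upwards [(e.continuousAt hxs).eventually h1, e.open_source.mem_nhds hxs] with y hy hys
    rw [H439.of0_source hys, hy]
    simp

theorem exists_bump [T2Space Y] [SigmaCompactSpace Y] {e : Ch Y} (he : e ∈ atlas C2 Y) {U : Set Y}
    (hU : IsOpen U) (hUe : U ⊆ e.source) (hne : U.Nonempty) : ∃ ρ : Y → ℂ, TD U ρ ∧ intX ρ = 1 := by
  obtain ⟨x, hx⟩ := hne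
  have hΩ : IsOpen (e '' U) := e.isOpen_image_of_subset_source hU hUe
  obtain ⟨r, hr, hrΩ⟩ := Metric.isOpen_iff.1 hΩ (e x) (mem_image_of_mem e hx)
  let f : ContDiffBump (e x) := ⟨r / 4, r / 2, by positivity, by linarith⟩
  have hts : tsupport (f.normed volume) ⊆ e '' U := by
    rw [f.tsupport_normed_eq]
    refine Subset.trans ?_ hrΩ
    exact Metric.closedBall_subset_ball (by change r / 2 < r; linarith)
  have hc : IsCompact (tsupport (f.normed (volume : Measure C2))) := f.hasCompactSupport_normed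
  have hts' : tsupport (f.normed (volume : Measure C2)) ⊆ e.target := by
    intro z hz
    obtain ⟨y, hy, rfl⟩ := hts hz
    exact e.map_source (hUe hy)
  set g : C2 → ℂ := fun z => (1 / 4 : ℂ) * ((f.normed volume z : ℝ) : ℂ) with hg
  have hgs : ContDiff ℝ ∞ g := contDiff_const.mul (Complex.ofRealCLM.contDiff.comp
    f.contDiff_normed)
  have z0 : ∀ z ∉ tsupport (f.normed (volume : Measure C2)), g z = 0 := fun z hz => by
    rw [hg]
    simp only
    rw [image_eq_zero_of_notMem_tsupport hz]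
    simp
  have hKs : e.symm '' (tsupport (f.normed (volume : Measure C2))) ⊆ U := by
    rintro _ ⟨z, hz, rfl⟩
    obtain ⟨y, hy, rfl⟩ := hts hz
    rwa [e.left_inv (hUe hy)]
  have hKc := H439.isCompact_symm_image hc hts'
  have hreg : Reg2 ∞ 1 (of2 1 e g) := H439.reg2_of2 he hc hts' z0 hgs.contDiffOn
  have h0 : ∀ x ∉ e.symm '' (tsupport (f.normed (volume : Measure C2))), of2 1 e g x = 0 :=
    fun x hx => H439.of2_zero_of fun hxs => z0 _ (H439.notMem_symm_image hx hxs)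
  have hcs : HasCompactSupport (of2 1 e g) := HasCompactSupport.intro hKc h0
  refine ⟨of2 1 e g, ⟨hreg, _, hKc, hKs, h0⟩, ?_⟩
  rw [intX_chart (integrableX_of_reg hreg.zero_order hcs) hcs he
    (fun y hy => h0 y fun h => hy (hUe (hKs h)))]
  have h1 : ∫ z in e.target, loc2 1 e (of2 1 e g) z = ∫ z in e.target, g z :=
    setIntegral_congr_fun e.open_target.measurableSet fun z hz => H439.loc2_of2 he hz g
  have h2 : ∫ z in e.target, g z = ∫ z, g z :=
    setIntegral_eq_integral_of_forall_compl_eq_zero fun z hz => z0 z fun h => hz (hts' h)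
  rw [h1, h2, hg, integral_const_mul, integral_complex_ofReal, f.integral_normed]
  norm_num

/-! ### smoothness at a point -/

theorem sm0_iff {f : Y → ℂ} {x : Y} : Sm0 f x ↔ At0 ∞ 0 f x := by
  have : loc0 0 (chartAt C2 x) f = fun z => f ((chartAt C2 x).symm z) := by
    funext z; simp [loc0]
  rw [Sm0, At0, this]

theorem at1_cj {s : Y → Fin 2 → ℂ} {x : Y}
    (h : ∀ i, ContDiffAt ℝ ∞ (fun z => loc10 (chartAt C2 x) s z i) (chartAt C2 x x)) :
    At1 ∞ 0 (cj1 s) x := by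
  rw [At1, contDiffAt_pi]
  intro i
  have h1 : (fun z => loc1 0 (chartAt C2 x) (cj1 s) z i) =
      fun z => conj (loc10 (chartAt C2 x) s z i) := by
    funext z; exact H469.loc1_cj1 _ _ _ _
  rw [h1]
  exact Complex.conjCLE.contDiff.contDiffAt.comp _ (h i)

theorem At2.conj' {b : Y → ℂ} {x : Y} (h : At2 ∞ 1 b x) : At2 ∞ 1 (fun y => conj (b y)) x := by
  have h1 : loc2 1 (chartAt C2 x) (fun y => conj (b y)) =
      fun z => conj (loc2 1 (chartAt C2 x) b z) := by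
    funext z; exact loc2_one_conj' _ _ _
  rw [At2, h1]
  exact Complex.conjCLE.contDiff.contDiffAt.comp _ h

theorem At0.conj' {b : Y → ℂ} {x : Y} (h : At0 ∞ 0 b x) : At0 ∞ 0 (fun y => conj (b y)) x := by
  have h1 : loc0 0 (chartAt C2 x) (fun y => conj (b y)) =
      fun z => conj (loc0 0 (chartAt C2 x) b z) := by
    funext z; exact H469.loc0_cj0 _ _ _
  rw [At0, h1]
  exact Complex.conjCLE.contDiff.contDiffAt.comp _ h

/-- `(2,2)`-part of `A ∧ (s,t)` -/
def w3 (A : OneF Y) (s t : Y → Fin 2 → ℂ) (x : Y) : ℂ :=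
  (A.f10 x 0 * t x 1 - A.f10 x 1 * t x 0) + (A.f01 x 0 * s x 1 - A.f01 x 1 * s x 0)

theorem w3_at {A : OneF Y} {s t : Y → Fin 2 → ℂ} {x : Y} (hA : Sm1 A x) (hs : At1 ∞ 1 s x)
    (ht : At1 ∞ 1 (cj1 t) x) : At2 ∞ 1 (w3 A s t) x := by
  have h1 : At2 ∞ 1 (fun y => A.f01 y 0 • s y 1 - A.f01 y 1 • s y 0) x := by
    refine At2.wedge_smul ?_ hs
    exact contDiffAt_pi.2 hA.s01
  have h2 : At2 ∞ 1 (fun y => cj1 A.f10 y 0 • cj1 t y 1 - cj1 A.f10 y 1 • cj1 t y 0) x :=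
    At2.wedge_smul (at1_cj hA.s10) ht
  refine (At2.add (At2.conj' h2) h1).congr (Eventually.of_forall fun y => ?_)
  simp only [w3, cj1_apply, smul_eq_mul, map_sub, map_mul, Complex.conj_conj]

theorem reg2_of_at {b : Y → ℂ} {U K : Set Y} (h : ∀ x ∈ U, At2 ∞ 1 b x) (hK : IsClosed K)
    (hKU : K ⊆ U) (h0 : ∀ x ∉ K, b x = 0) : Reg2 ∞ 1 b := by
  rw [reg2_iff_at]
  intro x
  by_cases hx : x ∈ K
  · exact h x (hKU hx)
  · refine (at2_zero (n := ∞) (κ := 1) (V := ℂ)).congr ?_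
    filter_upwards [hK.isOpen_compl.mem_nhds hx] with y hy
    exact h0 y hy

theorem reg1_of_at {κ : ℤ} {b : Y → Fin 2 → ℂ} {U K : Set Y} (h : ∀ x ∈ U, At1 ∞ κ b x)
    (hK : IsClosed K) (hKU : K ⊆ U) (h0 : ∀ x ∉ K, b x = 0) : Reg1 ∞ κ b := by
  rw [reg1_iff_at]
  intro x
  by_cases hx : x ∈ K
  · exact h x (hKU hx)
  · refine (at1_zero (n := ∞) (κ := κ) (V := ℂ)).congr ?_
    filter_upwards [hK.isOpen_compl.mem_nhds hx] with y hy
    exact h0 y hy

section T2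

variable [T2Space Y]

theorem TD.hcs {U : Set Y} {ρ : Y → ℂ} (h : TD U ρ) : HasCompactSupport ρ := by
  obtain ⟨K, hK, -, h0⟩ := h.supp
  exact HasCompactSupport.intro hK h0

theorem td_w3 {A : OneF Y} {s t : Y → Fin 2 → ℂ} {U : Set Y} (hA : ∀ x ∈ U, Sm1 A x)
    (h : T3 U s t) : TD U (w3 A s t) := by
  obtain ⟨K, hK, hKU, h0⟩ := h.supp
  have h1 : ∀ x ∉ K, w3 A s t x = 0 := fun x hx => by
    rw [w3, (h0 x hx).1, (h0 x hx).2]
    simp
  exact ⟨reg2_of_at (fun x hx => w3_at (hA x hx) (h.rs.at x) (h.rt.at x)) hK.isClosed hKU h1,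
    K, hK, hKU, h1⟩

theorem td_smul {β ρ : Y → ℂ} {U : Set Y} (hβ : ∀ x ∈ U, Sm0 β x) (h : TD U ρ) :
    TD U (fun x => β x * ρ x) := by
  obtain ⟨K, hK, hKU, h0⟩ := h.supp
  have h1 : ∀ x ∉ K, β x * ρ x = 0 := fun x hx => by
    rw [h0 x hx]
    simp
  refine ⟨reg2_of_at (fun x hx => ?_) hK.isClosed hKU h1, K, hK, hKU, h1⟩
  exact At2.smul (sm0_iff.1 (hβ x hx)) (h.reg.at x)

theorem TD.mono {U V : Set Y} {ρ : Y → ℂ} (h : TD U ρ) (hUV : U ⊆ V) : TD V ρ := by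
  obtain ⟨K, hK, hKU, h0⟩ := h.supp
  exact ⟨h.reg, K, hK, hKU.trans hUV, h0⟩

theorem TD.add {U : Set Y} {ρ ρ' : Y → ℂ} (h : TD U ρ) (h' : TD U ρ') :
    TD U (fun x => ρ x + ρ' x) := by
  obtain ⟨K, hK, hKU, h0⟩ := h.supp
  obtain ⟨K', hK', hKU', h0'⟩ := h'.supp
  refine ⟨h.reg.add h'.reg, K ∪ K', hK.union hK', union_subset hKU hKU', fun x hx => ?_⟩
  rw [h0 x fun h => hx (Or.inl h), h0' x fun h => hx (Or.inr h), add_zero]

theorem TD.const_mul {U : Set Y} {ρ : Y → ℂ} (h : TD U ρ) (c : ℂ) : TD U (fun x => c * ρ x) := by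
  obtain ⟨K, hK, hKU, h0⟩ := h.supp
  refine ⟨h.reg.const_smul c, K, hK, hKU, fun x hx => ?_⟩
  rw [h0 x hx, mul_zero]

theorem TD.sub {U : Set Y} {ρ ρ' : Y → ℂ} (h : TD U ρ) (h' : TD U ρ') :
    TD U (fun x => ρ x - ρ' x) := by
  have := h.add (h'.const_mul (-1))
  refine cast ?_ this
  congr 1
  funext x
  ring

theorem td_zero {U : Set Y} : TD U (fun _ : Y => (0 : ℂ)) := by
  refine ⟨?_, ∅, isCompact_empty, empty_subset _, fun _ _ => rfl⟩
  rw [reg2_iff_at]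
  exact fun x => at2_zero

theorem TD.sum {κ : Type*} (s : Finset κ) {U : Set Y} {ρ : κ → Y → ℂ} (h : ∀ i ∈ s, TD U (ρ i)) :
    TD U (fun x => ∑ i ∈ s, ρ i x) := by
  classical
  induction s using Finset.induction_on with
  | empty => simpa using td_zero
  | insert a s ha ih =>
    simp only [Finset.sum_insert ha]
    exact (h a (Finset.mem_insert_self a s)).add (ih fun i hi => h i (Finset.mem_insert_of_mem hi))

variable [SigmaCompactSpace Y]

theorem TD.intX_add' {U V : Set Y} {ρ ρ' : Y → ℂ} (h : TD U ρ) (h' : TD V ρ') :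
    intX (fun x => ρ x + ρ' x) = intX ρ + intX ρ' := FL.intX_add h.reg h'.reg h.hcs h'.hcs

theorem TD.intX_sub' {U V : Set Y} {ρ ρ' : Y → ℂ} (h : TD U ρ) (h' : TD V ρ') :
    intX (fun x => ρ x - ρ' x) = intX ρ - intX ρ' := FL.intX_sub h.reg h'.reg h.hcs h'.hcs

theorem TD.intX_mul' {U : Set Y} {ρ : Y → ℂ} (h : TD U ρ) (c : ℂ) :
    intX (fun x => c * ρ x) = c * intX ρ := FL.intX_const_mul c h.reg h.hcs

theorem td_intX_sum {κ : Type*} (s : Finset κ) {U : κ → Set Y} {ρ : κ → Y → ℂ}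
    (h : ∀ i ∈ s, TD (U i) (ρ i)) : intX (fun x => ∑ i ∈ s, ρ i x) = ∑ i ∈ s, intX (ρ i) :=
  FL.intX_sum s (fun i hi => (h i hi).reg) fun i hi => (h i hi).hcs

/-- **Stokes** -/
theorem stokes_w3 {β : Y → ℂ} {s t : Y → Fin 2 → ℂ} {U : Set Y} (hU : IsOpen U)
    (hβ : ∀ x ∈ U, Sm0 β x) (h : T3 U s t) :
    intX (w3 (dF0 β) s t) = -intX (fun x => β x * d3 s t x) := by
  obtain ⟨K, hK, hKU, h0⟩ := h.supp
  have hβ' : ∀ x ∈ U, At0 ∞ 0 β x := fun x hx => sm0_iff.1 (hβ x hx)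
  -- the two forms `β s`, `conj (β t)`
  set S : Y → Fin 2 → ℂ := fun y i => β y • s y i with hS
  set T : Y → Fin 2 → ℂ := fun y i => (conj (β y)) • cj1 t y i with hT
  have S0 : ∀ x ∉ K, S x = 0 := fun x hx => by
    funext i
    simp only [hS, (h0 x hx).1]
    simp
  have T0 : ∀ x ∉ K, T x = 0 := fun x hx => by
    funext i
    simp only [hT, cj1_apply, (h0 x hx).2]
    simp
  have rS : Reg1 ∞ 1 S := reg1_of_at (fun x hx => At1.smul (hβ' x hx) (h.rs.at x)) hK.isClosed hKU S0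
  have rT : Reg1 ∞ 1 T := reg1_of_at
    (fun x hx => At1.smul (At0.conj' (hβ' x hx)) (h.rt.at x)) hK.isClosed hKU T0
  have cS : HasCompactSupport S := HasCompactSupport.intro hK S0
  have cT : HasCompactSupport T := HasCompactSupport.intro hK T0
  have i1 : intX (dbar1 1 S) = 0 := intX_dbar1 (rS.of_le (by simp)) cS
  have i2 : intX (dbar1 1 T) = 0 := intX_dbar1 (rT.of_le (by simp)) cT
  have z1 : ∀ x ∉ K, dbar1 1 S x = 0 := fun x hx => dbar1_eq_zero_of_notMem hK.isClosed S0 hx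
  have z2 : ∀ x ∉ K, dbar1 1 T x = 0 := fun x hx => dbar1_eq_zero_of_notMem hK.isClosed T0 hx
  have t1 : TD U (dbar1 1 S) := ⟨rS.dbar infty_add_one_le, K, hK, hKU, z1⟩
  have t2 : TD U (dbar1 1 T) := ⟨rT.dbar infty_add_one_le, K, hK, hKU, z2⟩
  have t3 : TD U (fun x => conj (dbar1 1 T x)) := ⟨reg2_conj t2.reg, K, hK, hKU, fun x hx => by
    rw [z2 x hx, map_zero]⟩
  have i3 : intX (fun x => conj (dbar1 1 T x)) = 0 := by
    rw [intX_conj t2.reg t2.hcs, i2, map_zero]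
  have hsum : intX (fun x => dbar1 1 S x + conj (dbar1 1 T x)) = 0 := by
    rw [t1.intX_add' t3, i1, i3, add_zero]
  -- Leibniz
  have hL : (fun x => dbar1 1 S x + conj (dbar1 1 T x)) =
      fun x => w3 (dF0 β) s t x + β x * d3 s t x := by
    funext x
    by_cases hx : x ∈ U
    · have b1 : At0 1 0 β x := (hβ' x hx).of_le (by simp)
      have b2 : At0 1 0 (fun y => conj (β y)) x := (At0.conj' (hβ' x hx)).of_le (by simp)
      have e1 := dbar1_smul b1 ((h.rs.at x).of_le (m := 1) (by simp))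
      have e2 := dbar1_smul b2 ((h.rt.at x).of_le (m := 1) (by simp))
      have e3 : dbar0 0 (fun y => conj (β y)) = cj1 (del0 β) := H469.dbar0_cj β
      rw [hS, hT, e1, e2, e3]
      simp only [w3, dF0, d3, cj1_apply, smul_eq_mul, map_add, map_sub, map_mul,
        Complex.conj_conj]
      ring
    · have hxK : x ∉ K := fun h => hx (hKU h)
      rw [z1 x hxK, z2 x hxK, d3_zero hK.isClosed h0 hxK, w3, (h0 x hxK).1, (h0 x hxK).2]
      simp
  rw [hL] at hsum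
  have hsm : ∀ x ∈ U, Sm1 (dF0 β) x := by
    intro x hx
    have c1 : At1 ∞ 0 (dbar0 0 β) x := (hβ' x hx).dbar infty_add_one_le
    have c2 : At1 ∞ 0 (dbar0 0 (fun y => conj (β y))) x :=
      (At0.conj' (hβ' x hx)).dbar infty_add_one_le
    refine ⟨fun i => ?_, contDiffAt_pi.1 c1⟩
    have e3 : dbar0 0 (fun y => conj (β y)) = cj1 (del0 β) := H469.dbar0_cj β
    rw [e3] at c2
    have e4 : (fun z => loc10 (chartAt C2 x) (dF0 β).f10 z i) =
        fun z => conj (loc1 0 (chartAt C2 x) (cj1 (del0 β)) z i) := by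
      funext z
      rw [H469.loc1_cj1, Complex.conj_conj]
      rfl
    rw [e4]
    exact Complex.conjCLE.contDiff.contDiffAt.comp _ (contDiffAt_pi.1 c2 i)
  have t4 : TD U (w3 (dF0 β) s t) := td_w3 hsm h
  have t5 : TD U (d3 s t) := by
    refine ⟨?_, K, hK, hKU, fun x hx => d3_zero hK.isClosed h0 hx⟩
    exact (h.rs.dbar infty_add_one_le).add (reg2_conj (h.rt.dbar infty_add_one_le))
  have t6 : TD U (fun x => β x * d3 s t x) := td_smul hβ t5
  rw [t4.intX_add' t6] at hsum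
  linear_combination hsum

end T2

end Vale.Agent.P267.H368
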