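import Vale.Agent.P267.H368.XTd

/-!
# P267, UNI-XT (helper368): pairing of compactly supported two-forms with locally exact ones
-/

set_option linter.unusedVariables false
set_option linter.unusedSectionVars false

open scoped Manifold ContDiff ComplexConjugate Matrix
open MeasureTheory Set Filter Topology

noncomputable section

namespace Vale.Agent.P267.H368

open Vale.Agent.P267.FL Bog
open Vale.Agent.P267.H469 (cj0 cj1 cj11 cjF del11)

variable {Y : Type*} [TopologicalSpace Y] [ChartedSpace C2 Y] [IsManifold 𝓘(ℂ, C2) ω Y]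

/-! ### three-forms -/

theorem T3.mono {U V : Set Y} {s t : Y → Fin 2 → ℂ} (h : T3 U s t) (hUV : U ⊆ V) : T3 V s t := by
  obtain ⟨K, hK, hKU, h0⟩ := h.supp
  exact ⟨h.rs, h.rt, K, hK, hKU.trans hUV, h0⟩

theorem T3.sub {U : Set Y} {s t s' t' : Y → Fin 2 → ℂ} (h : T3 U s t) (h' : T3 U s' t') :
    T3 U (fun x => s x - s' x) (fun x => t x - t' x) := by
  obtain ⟨K, hK, hKU, h0⟩ := h.supp
  obtain ⟨K', hK', hKU', h0'⟩ := h'.supp
  refine ⟨reg1_iff_at.2 fun x => (h.rs.at x).sub (h'.rs.at x), reg1_iff_at.2 fun x => ?_,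
    K ∪ K', hK.union hK', union_subset hKU hKU', fun x hx => ?_⟩
  · refine ((h.rt.at x).sub (h'.rt.at x)).congr (Eventually.of_forall fun y => ?_)
    funext i
    simp [cj1]
  · have a := h0 x fun h => hx (Or.inl h)
    have b := h0' x fun h => hx (Or.inr h)
    rw [a.1, a.2, b.1, b.2, sub_zero]
    exact ⟨rfl, rfl⟩

theorem T3.add {U : Set Y} {s t s' t' : Y → Fin 2 → ℂ} (h : T3 U s t) (h' : T3 U s' t') :
    T3 U (fun x => s x + s' x) (fun x => t x + t' x) := by
  obtain ⟨K, hK, hKU, h0⟩ := h.supp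
  obtain ⟨K', hK', hKU', h0'⟩ := h'.supp
  refine ⟨reg1_iff_at.2 fun x => (h.rs.at x).add (h'.rs.at x), reg1_iff_at.2 fun x => ?_,
    K ∪ K', hK.union hK', union_subset hKU hKU', fun x hx => ?_⟩
  · refine ((h.rt.at x).add (h'.rt.at x)).congr (Eventually.of_forall fun y => ?_)
    funext i
    simp [cj1]
  · have a := h0 x fun h => hx (Or.inl h)
    have b := h0' x fun h => hx (Or.inr h)
    rw [a.1, a.2, b.1, b.2, add_zero]
    exact ⟨rfl, rfl⟩

theorem t3_zero {U : Set Y} : T3 U (fun _ : Y => (0 : Fin 2 → ℂ)) (fun _ => 0) := by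
  have h : Reg1 ∞ 1 (fun _ : Y => (0 : Fin 2 → ℂ)) :=
    reg1_iff_at.2 fun x => at1_zero (n := ∞) (κ := 1) (V := ℂ)
  refine ⟨h, ?_, ∅, isCompact_empty, empty_subset _, fun _ _ => ⟨rfl, rfl⟩⟩
  have : cj1 (fun _ : Y => (0 : Fin 2 → ℂ)) = fun _ => 0 := by
    funext x i
    simp [cj1]
  rw [this]
  exact h

theorem T3.sum {κ : Type*} (S : Finset κ) {U : Set Y} {s t : κ → Y → Fin 2 → ℂ}
    (h : ∀ i ∈ S, T3 U (s i) (t i)) :
    T3 U (fun x => ∑ i ∈ S, s i x) (fun x => ∑ i ∈ S, t i x) := by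
  classical
  induction S using Finset.induction_on with
  | empty => simpa using t3_zero
  | insert a S ha ih =>
    simp only [Finset.sum_insert ha]
    exact (h a (Finset.mem_insert_self a S)).add (ih fun i hi => h i (Finset.mem_insert_of_mem hi))

theorem d3_add {U U' : Set Y} {s t s' t' : Y → Fin 2 → ℂ} (h : T3 U s t) (h' : T3 U' s' t') (x : Y) :
    d3 (fun x => s x + s' x) (fun x => t x + t' x) x = d3 s t x + d3 s' t' x := by
  have e : cj1 (fun x => t x + t' x) = fun x => cj1 t x + cj1 t' x := by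
    funext y i
    simp [cj1]
  rw [d3, e, dbar1_add ((h.rs.at x).of_le (by simp)) ((h'.rs.at x).of_le (by simp)),
    dbar1_add ((h.rt.at x).of_le (by simp)) ((h'.rt.at x).of_le (by simp)), d3, d3, map_add]
  ring

theorem d3_sub {U U' : Set Y} {s t s' t' : Y → Fin 2 → ℂ} (h : T3 U s t) (h' : T3 U' s' t') (x : Y) :
    d3 (fun x => s x - s' x) (fun x => t x - t' x) x = d3 s t x - d3 s' t' x := by
  have e : cj1 (fun x => t x - t' x) = fun x => cj1 t x - cj1 t' x := by
    funext y i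
    simp [cj1]
  rw [d3, e, dbar1_sub ((h.rs.at x).of_le (by simp)) ((h'.rs.at x).of_le (by simp)),
    dbar1_sub ((h.rt.at x).of_le (by simp)) ((h'.rt.at x).of_le (by simp)), d3, d3, map_sub]
  ring

theorem d3_sum {κ : Type*} (S : Finset κ) {U : Set Y} {s t : κ → Y → Fin 2 → ℂ}
    (h : ∀ i ∈ S, T3 U (s i) (t i)) (x : Y) :
    d3 (fun x => ∑ i ∈ S, s i x) (fun x => ∑ i ∈ S, t i x) x = ∑ i ∈ S, d3 (s i) (t i) x := by
  classical
  induction S using Finset.induction_on with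
  | empty =>
    have e : cj1 (fun _ : Y => (0 : Fin 2 → ℂ)) = fun _ => 0 := by
      funext x i
      simp [cj1]
    have e2 : dbar1 1 (fun _ : Y => (0 : Fin 2 → ℂ)) x = 0 := dbar1_zero
    simp only [Finset.sum_empty]
    rw [d3, e, e2]
    simp
  | insert a S ha ih =>
    simp only [Finset.sum_insert ha]
    rw [d3_add (h a (Finset.mem_insert_self a S)) (T3.sum S fun i hi =>
      h i (Finset.mem_insert_of_mem hi)), ih fun i hi => h i (Finset.mem_insert_of_mem hi)]

/-! ### two-forms -/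

theorem d21_reg {b : TwoF Y} (hb : b.Smooth) : Reg1 ∞ 1 b.d21 :=
  reg1_iff_at.2 fun x => (((H469.reg_dbar0 hb.s20).at x).add ((H469.reg_del11 hb.s11).at x))

theorem cjF_smooth {b : TwoF Y} (hb : b.Smooth) : (cjF b).Smooth :=
  ⟨H469.r2cj hb.s02, H469.r11cj hb.s11, H469.r0cj' hb.s20⟩

theorem cj_d12_reg {b : TwoF Y} (hb : b.Smooth) : Reg1 ∞ 1 (cj1 b.d12) := by
  rw [← H469.d21_cj]
  exact d21_reg (cjF_smooth hb)

theorem wedge_zero {w b : TwoF Y} {x : Y} (h0 : b.f20 x = 0 ∧ b.f11 x = 0 ∧ b.f02 x = 0) :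
    w.wedge b x = 0 := by
  rw [TwoF.wedge, h0.1, h0.2.1, h0.2.2]
  simp

section T2

variable [T2Space Y]

theorem T2.d3 {U : Set Y} {b : TwoF Y} (h : T2 U b) : T3 U b.d21 b.d12 := by
  obtain ⟨K, hK, hKU, h0⟩ := h.supp
  exact ⟨d21_reg h.smooth, cj_d12_reg h.smooth, K, hK, hKU, fun x hx => d2_zero hK.isClosed h0 hx⟩

theorem T2.mono {U V : Set Y} {b : TwoF Y} (h : T2 U b) (hUV : U ⊆ V) : T2 V b := by
  obtain ⟨K, hK, hKU, h0⟩ := h.supp
  exact ⟨h.smooth, K, hK, hKU.trans hUV, h0⟩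

variable [SigmaCompactSpace Y]

/-- the pairing of `w = dη` with a compactly supported form -/
theorem pair_T2 {e : Ch Y} (he : e ∈ atlas C2 Y) {U : Set Y} (hU : IsOpen U) (hUe : U ⊆ e.source)
    {b : TwoF Y} (hb : T2 U b) {η : OneF Y} (hη : ∀ x ∈ U, Sm1 η x) {w : TwoF Y}
    (h20 : ∀ x ∈ U, η.d.f20 x = w.f20 x) (h11 : ∀ x ∈ U, η.d.f11 x = w.f11 x)
    (h02 : ∀ x ∈ U, η.d.f02 x = w.f02 x) :
    Reg2 0 1 (fun x => w.wedge b x) ∧ HasCompactSupport (fun x => w.wedge b x) ∧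
      intX (fun x => w.wedge b x) = intX (w3 η b.d21 b.d12) := by
  obtain ⟨K, hK, hKU, h0⟩ := hb.supp
  obtain ⟨χ, rχ, ⟨K', hK', hKU', χ0⟩, χ1⟩ := exists_cut he hU hUe hK hKU
  set A : OneF Y := ⟨fun x i => χ x • η.f10 x i, fun x i => χ x • η.f01 x i⟩ with hA
  have A0 : ∀ x ∉ K', A.f10 x = 0 ∧ A.f01 x = 0 := fun x hx => by
    constructor <;> funext i <;> simp [hA, χ0 x hx]
  have r01 : Reg1 ∞ 0 A.f01 := reg1_of_at
    (fun x hx => At1.smul (rχ.at x) (contDiffAt_pi.2 (hη x hx).s01)) hK'.isClosed hKU'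
    fun x hx => (A0 x hx).2
  have r10' : Reg1 ∞ 0 (cj1 A.f10) := by
    refine reg1_of_at (fun x hx => ?_) hK'.isClosed hKU' fun x hx => cj1_eq_zero (A0 x hx).1
    refine (At1.smul (At0.conj' (rχ.at x)) (at1_cj (hη x hx).s10)).congr
      (Eventually.of_forall fun y => ?_)
    funext i
    simp [cj1, hA]
  have r10 : Reg10 ∞ A.f10 := by
    have := H469.r1cj r10'
    rwa [H469.cj1_cj1] at this
  have hAs : A.Smooth := ⟨r10, r01⟩
  have hAn : ∀ x ∈ K, A.f10 =ᶠ[𝓝 x] η.f10 ∧ A.f01 =ᶠ[𝓝 x] η.f01 := fun x hx => by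
    constructor
    · filter_upwards [χ1 x hx] with y hy
      funext i
      simp [hA, hy]
    · filter_upwards [χ1 x hx] with y hy
      funext i
      simp [hA, hy]
  have hw : (fun x => w.wedge b x) = A.d.wedge b := by
    funext x
    by_cases hx : x ∈ K
    · obtain ⟨d1, d2, d3⟩ := d_congr (hAn x hx).1 (hAn x hx).2
      rw [TwoF.wedge, TwoF.wedge, d1, d2, d3, h20 x (hKU hx), h11 x (hKU hx), h02 x (hKU hx)]
    · rw [wedge_zero (h0 x hx), wedge_zero (h0 x hx)]
  have hw3 : wedge3 A b = w3 η b.d21 b.d12 := by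
    funext x
    by_cases hx : x ∈ K
    · have e1 := (hAn x hx).1.eq_of_nhds
      have e2 := (hAn x hx).2.eq_of_nhds
      rw [wedge3, w3, e1, e2]
    · have hd := d2_zero hK.isClosed h0 hx
      rw [wedge3, w3, hd.1, hd.2]
      simp
  have td : TD U (wedge3 A b) := by
    rw [hw3]
    exact td_w3 hη hb.d3
  have hAc := hAs.c1
  have hbc := hb.smooth.c1
  have rP : Reg2 0 1 (fun x => dbar1 1 (w21 A b) x + conj (dbar1 1 (w12c A b) x)) :=
    Reg2.add ((reg1_w21 hAc hbc).dbar (by simp)) (reg2_conj ((reg1_w12c hAc hbc).dbar (by simp)))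
  have hP : (fun x => dbar1 1 (w21 A b) x + conj (dbar1 1 (w12c A b) x)) =
      fun x => A.d.wedge b x - wedge3 A b x := by
    funext x
    exact d_wedge hAc hbc x
  rw [hP] at rP
  have cW : HasCompactSupport (A.d.wedge b) :=
    HasCompactSupport.intro hK fun x hx => wedge_zero (h0 x hx)
  have rW : Reg2 0 1 (A.d.wedge b) := by
    have h1 := Reg2.add rP td.reg.zero_order
    have h2 : (fun x => (A.d.wedge b x - wedge3 A b x) + wedge3 A b x) = A.d.wedge b := by
      funext x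
      ring
    rwa [h2] at h1
  have cP : HasCompactSupport (fun x => A.d.wedge b x - wedge3 A b x) := cW.sub td.hcs
  obtain ⟨i1, i2⟩ := integral_dA_wedge hAc hbc hK fun x hx => Or.inr (h0 x hx)
  have i3 : intX (fun x => A.d.wedge b x - wedge3 A b x) = 0 := by
    rw [intX_eq_intV i1 cP, i2]
  rw [FL.intX_sub rW td.reg.zero_order cW td.hcs] at i3
  rw [hw]
  refine ⟨rW, cW, ?_⟩
  rw [← hw3]
  linear_combination i3

end T2

/-! ### sums of two-forms -/

section lin

theorem wedge_addF (w F G : TwoF Y) (x : Y) :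
    w.wedge ⟨fun x => F.f20 x + G.f20 x, fun x => F.f11 x + G.f11 x, fun x => F.f02 x + G.f02 x⟩ x =
      w.wedge F x + w.wedge G x := by
  simp only [TwoF.wedge, Matrix.add_apply]
  ring

theorem wedge_smulF (c : ℂ) (w F : TwoF Y) (x : Y) :
    w.wedge ⟨fun x => c * F.f20 x, fun x => c • F.f11 x, fun x => c * F.f02 x⟩ x =
      c * w.wedge F x := by
  simp only [TwoF.wedge, Matrix.smul_apply, smul_eq_mul]
  ring

theorem smooth_addF {F G : TwoF Y} (hF : F.Smooth) (hG : G.Smooth) :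
    (⟨fun x => F.f20 x + G.f20 x, fun x => F.f11 x + G.f11 x, fun x => F.f02 x + G.f02 x⟩ :
      TwoF Y).Smooth := by
  refine ⟨reg0_iff_at.2 fun x => (hF.s20.at x).add (hG.s20.at x), fun e he i j => ?_,
    Reg2.add hF.s02 hG.s02⟩
  refine ((hF.s11 e he i j).add (hG.s11 e he i j)).congr fun z _ => ?_
  exact H469.loc11_add e z F.f11 G.f11 i j

theorem smooth_smulF {F : TwoF Y} (c : ℂ) (hF : F.Smooth) :
    (⟨fun x => c * F.f20 x, fun x => c • F.f11 x, fun x => c * F.f02 x⟩ : TwoF Y).Smooth := by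
  refine ⟨reg0_iff_at.2 fun x => (hF.s20.at x).const_smul c, fun e he i j => ?_,
    Reg2.const_smul hF.s02 c⟩
  refine ((hF.s11 e he i j).const_smul c).congr fun z _ => ?_
  exact H469.loc11_smul e z c F.f11 i j

theorem del11_add {g g' : Y → Matrix (Fin 2) (Fin 2) ℂ} (h : Reg11 ∞ g) (h' : Reg11 ∞ g') (x : Y) :
    del11 (fun x => g x + g' x) x = del11 g x + del11 g' x := by
  have he := chart_mem_atlas C2 x
  have hn := (chartAt C2 x).open_target.mem_nhds (mem_chart_target C2 x)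
  funext j
  have e1 : ∀ i, (fun z => loc11 (chartAt C2 x) (fun x => g x + g' x) z i j) = fun z =>
      loc11 (chartAt C2 x) g z i j + loc11 (chartAt C2 x) g' z i j := fun i => by
    funext z
    exact H469.loc11_add _ z g g' i j
  have d1 : ∀ i, DifferentiableAt ℝ (fun z => loc11 (chartAt C2 x) g z i j) (chartAt C2 x x) :=
    fun i => ((h _ he i j).contDiffAt hn).differentiableAt (by simp)
  have d2 : ∀ i, DifferentiableAt ℝ (fun z => loc11 (chartAt C2 x) g' z i j) (chartAt C2 x x) :=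
    fun i => ((h' _ he i j).contDiffAt hn).differentiableAt (by simp)
  rw [Pi.add_apply, del11, del11, del11, e1, e1, dz_add (d1 1) (d2 1), dz_add (d1 0) (d2 0)]
  ring

theorem del11_smul {g : Y → Matrix (Fin 2) (Fin 2) ℂ} (h : Reg11 ∞ g) (c : ℂ) (x : Y) :
    del11 (fun x => c • g x) x = c • del11 g x := by
  have he := chart_mem_atlas C2 x
  have hn := (chartAt C2 x).open_target.mem_nhds (mem_chart_target C2 x)
  funext j
  have e1 : ∀ i, (fun z => loc11 (chartAt C2 x) (fun x => c • g x) z i j) = fun z =>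
      c • loc11 (chartAt C2 x) g z i j := fun i => by
    funext z
    exact H469.loc11_smul _ z c g i j
  have d1 : ∀ i, DifferentiableAt ℝ (fun z => loc11 (chartAt C2 x) g z i j) (chartAt C2 x x) :=
    fun i => ((h _ he i j).contDiffAt hn).differentiableAt (by simp)
  rw [Pi.smul_apply, del11, del11, e1, e1, dz_const_smul c (d1 1), dz_const_smul c (d1 0)]
  simp only [smul_eq_mul]
  ring

theorem d21_addF {F G : TwoF Y} (hF : F.Smooth) (hG : G.Smooth) (x : Y) :
    (⟨fun x => F.f20 x + G.f20 x, fun x => F.f11 x + G.f11 x, fun x => F.f02 x + G.f02 x⟩ :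
      TwoF Y).d21 x = F.d21 x + G.d21 x := by
  funext j
  have h1 := dbar0_add ((hF.s20.at x).of_le (m := 1) (by simp)) ((hG.s20.at x).of_le (m := 1) (by simp))
  have h2 := del11_add hF.s11 hG.s11 x
  change dbar0 1 (fun x => F.f20 x + G.f20 x) x j + del11 (fun x => F.f11 x + G.f11 x) x j =
    (dbar0 1 F.f20 x j + del11 F.f11 x j) + (dbar0 1 G.f20 x j + del11 G.f11 x j)
  rw [h1, h2, Pi.add_apply, Pi.add_apply]
  ring

theorem d21_smulF {F : TwoF Y} (c : ℂ) (hF : F.Smooth) (x : Y) :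
    (⟨fun x => c * F.f20 x, fun x => c • F.f11 x, fun x => c * F.f02 x⟩ : TwoF Y).d21 x =
      c • F.d21 x := by
  funext j
  have h1 := dbar0_const_smul c ((hF.s20.at x).of_le (m := 1) (by simp)) j
  have h2 := del11_smul hF.s11 c x
  change dbar0 1 (fun x => c • F.f20 x) x j + del11 (fun x => c • F.f11 x) x j =
    c * (dbar0 1 F.f20 x j + del11 F.f11 x j)
  rw [h1, h2, Pi.smul_apply, smul_eq_mul, smul_eq_mul]
  ring

theorem d12_addF {F G : TwoF Y} (hF : F.Smooth) (hG : G.Smooth) (x : Y) :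
    (⟨fun x => F.f20 x + G.f20 x, fun x => F.f11 x + G.f11 x, fun x => F.f02 x + G.f02 x⟩ :
      TwoF Y).d12 x = F.d12 x + G.d12 x := by
  have e : cjF (⟨fun x => F.f20 x + G.f20 x, fun x => F.f11 x + G.f11 x,
      fun x => F.f02 x + G.f02 x⟩ : TwoF Y) = ⟨fun x => (cjF F).f20 x + (cjF G).f20 x,
      fun x => (cjF F).f11 x + (cjF G).f11 x, fun x => (cjF F).f02 x + (cjF G).f02 x⟩ := by
    simp only [cjF, TwoF.mk.injEq]
    refine ⟨?_, ?_, ?_⟩
    · funext x; simp [cj0]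
    · funext x; ext i j; simp [cj11]; ring
    · funext x; simp [cj0]
  rw [d12_eq, d12_eq, d12_eq, e]
  funext i
  rw [cj1_apply, d21_addF (cjF_smooth hF) (cjF_smooth hG), Pi.add_apply, Pi.add_apply, map_add]
  rfl

theorem d12_smulF {F : TwoF Y} (c : ℂ) (hF : F.Smooth) (x : Y) :
    (⟨fun x => c * F.f20 x, fun x => c • F.f11 x, fun x => c * F.f02 x⟩ : TwoF Y).d12 x =
      c • F.d12 x := by
  have e : cjF (⟨fun x => c * F.f20 x, fun x => c • F.f11 x, fun x => c * F.f02 x⟩ : TwoF Y) =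
      ⟨fun x => conj c * (cjF F).f20 x, fun x => conj c • (cjF F).f11 x,
        fun x => conj c * (cjF F).f02 x⟩ := by
    simp only [cjF, TwoF.mk.injEq]
    refine ⟨?_, ?_, ?_⟩
    · funext x; simp [cj0]
    · funext x; ext i j; simp [cj11]
    · funext x; simp [cj0]
  rw [d12_eq, d12_eq, e]
  funext i
  rw [cj1_apply, d21_smulF _ (cjF_smooth hF), Pi.smul_apply, Pi.smul_apply, smul_eq_mul, map_mul,
    Complex.conj_conj]
  rfl

/-- sums of two-forms -/
theorem exists_sumF {κ : Type*} (S : Finset κ) {V : Set Y} {B : κ → TwoF Y}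
    (hB : ∀ k ∈ S, T2 V (B k)) : ∃ b : TwoF Y, T2 V b ∧ (∀ x, b.d21 x = ∑ k ∈ S, (B k).d21 x) ∧
      (∀ x, b.d12 x = ∑ k ∈ S, (B k).d12 x) ∧
      ∀ (w : TwoF Y) x, w.wedge b x = ∑ k ∈ S, w.wedge (B k) x := by
  classical
  induction S using Finset.induction_on with
  | empty =>
    refine ⟨⟨fun _ => 0, fun _ => 0, fun _ => 0⟩, ⟨⟨?_, ?_, ?_⟩, ∅, isCompact_empty,
      empty_subset _, fun _ _ => ⟨rfl, rfl, rfl⟩⟩, fun x => ?_, fun x => ?_, fun w x => ?_⟩
    · exact reg0_iff_at.2 fun x => at0_zero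
    · intro e he i j
      refine (contDiffOn_const (c := (0 : ℂ))).congr fun z _ => ?_
      simp [loc11]
    · exact reg2_iff_at.2 fun x => at2_zero
    · rw [d21_zeroF]; simp
    · rw [d12_zeroF]; simp
    · rw [wedge_zero ⟨rfl, rfl, rfl⟩]; simp
  | insert a S ha ih =>
    obtain ⟨b, hb, h1, h2, h3⟩ := ih fun k hk => hB k (Finset.mem_insert_of_mem hk)
    have hBa := hB a (Finset.mem_insert_self a S)
    obtain ⟨K, hK, hKU, h0⟩ := hBa.supp
    obtain ⟨K', hK', hKU', h0'⟩ := hb.supp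
    refine ⟨⟨fun x => (B a).f20 x + b.f20 x, fun x => (B a).f11 x + b.f11 x,
      fun x => (B a).f02 x + b.f02 x⟩, ⟨smooth_addF hBa.smooth hb.smooth, K ∪ K', hK.union hK',
      union_subset hKU hKU', fun x hx => ?_⟩, fun x => ?_, fun x => ?_, fun w x => ?_⟩
    · have u := h0 x fun h => hx (Or.inl h)
      have v := h0' x fun h => hx (Or.inr h)
      simp only [u.1, u.2.1, u.2.2, v.1, v.2.1, v.2.2, add_zero]
      exact ⟨trivial, trivial, trivial⟩
    · rw [d21_addF hBa.smooth hb.smooth, h1, Finset.sum_insert ha]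
    · rw [d12_addF hBa.smooth hb.smooth, h2, Finset.sum_insert ha]
    · rw [wedge_addF, h3, Finset.sum_insert ha]

end lin

end Vale.Agent.P267.H368
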