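import Vale.Agent.P267.H368.XTe

/-!
# P267, UNI-XT (helper368): the dual form of a cycle (before taking the real part)
-/

set_option linter.unusedVariables false
set_option linter.unusedSectionVars false

open scoped Manifold ContDiff ComplexConjugate Matrix
open MeasureTheory Set Filter Topology

noncomputable section

namespace Vale.Agent.P267.H368

open Vale.Agent.P267.FL Bog
open Vale.Agent.P267.H469 (cj0 cj1 cj11 cjF del11)

variable {Y : Type*} [TopologicalSpace Y] [ChartedSpace C2 Y]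

/-! ### conjugation of zigzags -/

/-- conjugate of a one-form -/
def cjO (A : OneF Y) : OneF Y := ⟨cj1 A.f01, cj1 A.f10⟩

section cj

variable [IsManifold 𝓘(ℂ, C2) ω Y]

theorem cjO_d (A : OneF Y) : (cjO A).d = cjF A.d := by
  have h1 : del10 (cj1 A.f01) = cj0 (dbar1 0 A.f01) := H469.del10_cj _
  have h2 : dbar1 0 (cj1 A.f10) = cj0 (del10 A.f10) := H469.dbar1_cj _
  have h3 : del1 (cj1 A.f10) = cj11 (dbar10 A.f10) := H469.del1_cj _
  have h4 : dbar10 (cj1 A.f01) = cj11 (del1 A.f01) := H469.dbar10_cj _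
  have h5 : del1 (cj1 A.f10) + dbar10 (cj1 A.f01) = cj11 (del1 A.f01 + dbar10 A.f10) := by
    rw [h3, h4]
    funext x
    ext i j
    simp [cj11]
  change (⟨del10 (cj1 A.f01), del1 (cj1 A.f10) + dbar10 (cj1 A.f01), dbar1 0 (cj1 A.f10)⟩ :
    TwoF Y) = ⟨cj0 (dbar1 0 A.f01), cj11 (del1 A.f01 + dbar10 A.f10), cj0 (del10 A.f10)⟩
  rw [h1, h2, h5]

theorem Sm0.conj {f : Y → ℂ} {x : Y} (h : Sm0 f x) : Sm0 (cj0 f) x :=
  Complex.conjCLE.contDiff.contDiffAt.comp _ h

theorem Sm1.conj {A : OneF Y} {x : Y} (h : Sm1 A x) : Sm1 (cjO A) x := by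
  refine ⟨fun i => ?_, fun i => ?_⟩
  · have e : (fun z => loc10 (chartAt C2 x) (cjO A).f10 z i) =
        fun z => (starRingEnd ℂ) (loc1 0 (chartAt C2 x) A.f01 z i) := by
      funext z; exact H469.loc10_cj1 _ _ _ _
    rw [e]
    exact Complex.conjCLE.contDiff.contDiffAt.comp _ (h.s01 i)
  · have e : (fun z => loc1 0 (chartAt C2 x) (cjO A).f01 z i) =
        fun z => (starRingEnd ℂ) (loc10 (chartAt C2 x) A.f10 z i) := by
      funext z; exact H469.loc1_cj1 _ _ _ _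
    rw [e]
    exact Complex.conjCLE.contDiff.contDiffAt.comp _ (h.s10 i)

theorem Zigzag.conj {ι : Type*} {s : Finset ι} {U : ι → Set Y} {w : TwoF Y} {η : ι → OneF Y}
    {β : ι → ι → Y → ℂ} {n : ι → ι → ι → ℂ} (h : Zigzag s U w η β n) :
    Zigzag s U (cjF w) (fun i => cjO (η i)) (fun i j => cj0 (β i j))
      (fun i j k => (starRingEnd ℂ) (n i j k)) := by
  refine ⟨fun i hi x hx => (h.sm1 i hi x hx).conj, fun i hi j hj x hx => (h.sm0 i hi j hj x hx).conj,
    fun i hi x hx => ?_, fun i hi x hx => ?_, fun i hi x hx => ?_, fun i hi j hj x hx => ?_,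
    fun i hi j hj x hx => ?_, fun i hi j hj k hk x hx => ?_⟩
  · rw [cjO_d]
    exact congrArg (starRingEnd ℂ) (h.d02 i hi x hx)
  · rw [cjO_d]
    have := h.d11 i hi x hx
    change cj11 (η i).d.f11 x = cj11 w.f11 x
    rw [cj11, cj11, this]
  · rw [cjO_d]
    exact congrArg (starRingEnd ℂ) (h.d20 i hi x hx)
  · have := h.d01 i hi j hj x hx
    change cj1 (η j).f01 x - cj1 (η i).f01 x = del0 (cj0 (β i j)) x
    rw [H469.del0_cj]
    funext p
    have h2 := congrArg (starRingEnd ℂ) (congrFun this p)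
    simpa [cj1, dF0] using h2
  · have := h.d10 i hi j hj x hx
    change cj1 (η j).f10 x - cj1 (η i).f10 x = dbar0 0 (cj0 (β i j)) x
    rw [H469.dbar0_cj]
    funext p
    have h2 := congrArg (starRingEnd ℂ) (congrFun this p)
    simpa [cj1, dF0] using h2
  · have := congrArg (starRingEnd ℂ) (h.cst i hi j hj k hk x hx)
    simpa [cj0] using this

theorem wedge_cjF (w b : TwoF Y) (x : Y) :
    w.wedge (cjF b) x = (starRingEnd ℂ) ((cjF w).wedge b x) := by
  simp only [TwoF.wedge, cjF, cj0, cj11, Matrix.of_apply, map_sub, map_add, map_mul, map_neg,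
    Complex.conj_conj]
  ring

end cj

/-! ### the construction -/

variable [IsManifold 𝓘(ℂ, C2) ω Y] [T2Space Y] [SigmaCompactSpace Y]

theorem w3_sub_sum {ι : Type*} (s : Finset ι) (A : OneF Y) (σ τ σ' τ' : ι → Y → Fin 2 → ℂ) :
    w3 A (fun x => ∑ j ∈ s, (σ j x - σ' j x)) (fun x => ∑ j ∈ s, (τ j x - τ' j x)) =
      fun x => ∑ j ∈ s, (w3 A (σ j) (τ j) x - w3 A (σ' j) (τ' j) x) := by
  funext x
  simp only [w3, Finset.sum_apply, Pi.sub_apply, Finset.mul_sum]
  rw [← Finset.sum_sub_distrib, ← Finset.sum_sub_distrib, ← Finset.sum_add_distrib]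
  refine Finset.sum_congr rfl fun j _ => ?_
  ring

/-- the complex dual form -/
theorem exists_dual_aux {ι : Type*} (s : Finset ι) (U : ι → Set Y) (e : ι → Ch Y)
    (hU : ∀ i ∈ s, IsOpen (U i)) (he : ∀ i ∈ s, e i ∈ atlas C2 Y)
    (hUe : ∀ i ∈ s, U i ⊆ (e i).source) (hc1 : ∀ i ∈ s, Convex ℝ (e i '' U i))
    (hc2 : ∀ i ∈ s, ∀ j ∈ s, Convex ℝ (e j '' (U i ∩ U j)))
    (y : ι → ι → ι → ℝ)
    (hy : ∀ i ∈ s, ∀ j ∈ s, ∀ k ∈ s, y i j k ≠ 0 → (U i ∩ U j ∩ U k).Nonempty)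
    (hcyc : ∀ j ∈ s, ∀ k ∈ s, ∑ i ∈ s, (y i j k - y j i k + y j k i) = 0) :
    ∃ b : TwoF Y, T2 (⋃ i ∈ s, U i) b ∧ (∀ x, b.d21 x = 0) ∧ (∀ x, b.d12 x = 0) ∧
      ∀ (w : TwoF Y) (η : ι → OneF Y) (β : ι → ι → Y → ℂ) (n : ι → ι → ι → ℂ),
        Zigzag s U w η β n → Reg2 0 1 (fun x => w.wedge b x) ∧
          HasCompactSupport (fun x => w.wedge b x) ∧
          intX (fun x => w.wedge b x) = -∑ k ∈ s, ∑ j ∈ s, ∑ i ∈ s, (y i j k : ℂ) * n i j k := by
  classical
  -- bumps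
  have hΘ : ∀ i j k, ∃ θ : Y → ℂ, i ∈ s → j ∈ s → k ∈ s →
      TD (U i ∩ U j ∩ U k) θ ∧ intX θ = y i j k := by
    intro i j k
    by_cases h : i ∈ s ∧ j ∈ s ∧ k ∈ s
    · obtain ⟨hi, hj, hk⟩ := h
      by_cases hne : (U i ∩ U j ∩ U k).Nonempty
      · obtain ⟨ρ, h1, h2⟩ := exists_bump (he k hk) (((hU i hi).inter (hU j hj)).inter (hU k hk))
          (fun x hx => hUe k hk hx.2) hne
        exact ⟨fun x => (y i j k : ℂ) * ρ x, fun _ _ _ => ⟨h1.const_mul _, by
          rw [h1.intX_mul', h2, mul_one]⟩⟩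
      · have h0 : y i j k = 0 := by_contra fun h0 => hne (hy i hi j hj k hk h0)
        exact ⟨fun _ => 0, fun _ _ _ => ⟨td_zero, by rw [h0, FL.intX_zero]; simp⟩⟩
    · exact ⟨fun _ => 0, fun hi hj hk => absurd ⟨hi, hj, hk⟩ h⟩
  choose Θ hΘ using hΘ
  have s1 : ∀ i j k : ι, U i ∩ U j ∩ U k ⊆ U j ∩ U k := fun i j k x hx => ⟨hx.1.2, hx.2⟩
  have s2 : ∀ i j k : ι, U j ∩ U i ∩ U k ⊆ U j ∩ U k := fun i j k x hx => ⟨hx.1.1, hx.2⟩
  have s3 : ∀ i j k : ι, U j ∩ U k ∩ U i ⊆ U j ∩ U k := fun i j k x hx => hx.1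
  -- three-forms
  have hR : ∀ j k, ∃ σ τ : Y → Fin 2 → ℂ, j ∈ s → k ∈ s → T3 (U j ∩ U k) σ τ ∧
      d3 σ τ = fun x => ∑ i ∈ s, (Θ i j k x - Θ j i k x + Θ j k i x) := by
    intro j k
    by_cases h : j ∈ s ∧ k ∈ s
    · obtain ⟨hj, hk⟩ := h
      have t1 : TD (U j ∩ U k) (fun x => ∑ i ∈ s, (Θ i j k x - Θ j i k x + Θ j k i x)) :=
        TD.sum s fun i hi => (((hΘ i j k hi hj hk).1.mono (s1 i j k)).sub
          ((hΘ j i k hj hi hk).1.mono (s2 i j k))).add ((hΘ j k i hj hk hi).1.mono (s3 i j k))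
      have t2 : intX (fun x => ∑ i ∈ s, (Θ i j k x - Θ j i k x + Θ j k i x)) = 0 := by
        rw [td_intX_sum (U := fun _ => U j ∩ U k) s fun i hi =>
          (((hΘ i j k hi hj hk).1.mono (s1 i j k)).sub
          ((hΘ j i k hj hi hk).1.mono (s2 i j k))).add ((hΘ j k i hj hk hi).1.mono (s3 i j k))]
        have h1 : ∀ i ∈ s, intX (fun x => Θ i j k x - Θ j i k x + Θ j k i x) =
            ((y i j k - y j i k + y j k i : ℝ) : ℂ) := fun i hi => by
          rw [(((hΘ i j k hi hj hk).1.mono (s1 i j k)).sub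
            ((hΘ j i k hj hi hk).1.mono (s2 i j k))).intX_add' (hΘ j k i hj hk hi).1,
            (hΘ i j k hi hj hk).1.intX_sub' (hΘ j i k hj hi hk).1, (hΘ i j k hi hj hk).2,
            (hΘ j i k hj hi hk).2, (hΘ j k i hj hk hi).2]
          push_cast
          ring
        rw [Finset.sum_congr rfl h1, ← Complex.ofReal_sum, hcyc j hj k hk, Complex.ofReal_zero]
      obtain ⟨σ, τ, h3, h4⟩ := exists_T3 (he k hk) ((hU j hj).inter (hU k hk))
        (fun x hx => hUe k hk hx.2) (hc2 j hj k hk) t1 t2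
      exact ⟨σ, τ, fun _ _ => ⟨h3, h4⟩⟩
    · exact ⟨0, 0, fun hj hk => absurd ⟨hj, hk⟩ h⟩
  choose σ τ hστ using hR
  have hin1 : ∀ j k : ι, U j ∩ U k ⊆ U k := fun j k x hx => hx.2
  have hin2 : ∀ j k : ι, U k ∩ U j ⊆ U k := fun j k x hx => hx.1
  -- two-forms
  have hB : ∀ k, ∃ b : TwoF Y, k ∈ s → T2 (U k) b ∧
      b.d21 = (fun x => ∑ j ∈ s, (σ j k x - σ k j x)) ∧
      b.d12 = fun x => ∑ j ∈ s, (τ j k x - τ k j x) := by
    intro k
    by_cases hk : k ∈ s
    · have t1 : ∀ j ∈ s, T3 (U k) (fun x => σ j k x - σ k j x) (fun x => τ j k x - τ k j x) :=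
        fun j hj => ((hστ j k hj hk).1.mono (hin1 j k)).sub ((hστ k j hk hj).1.mono (hin2 j k))
      have t2 := T3.sum s t1
      have t3 : ∀ x, d3 (fun x => ∑ j ∈ s, (σ j k x - σ k j x))
          (fun x => ∑ j ∈ s, (τ j k x - τ k j x)) x = 0 := by
        intro x
        rw [d3_sum s t1]
        have h1 : ∀ j ∈ s, d3 (fun x => σ j k x - σ k j x) (fun x => τ j k x - τ k j x) x =
            (∑ i ∈ s, (Θ i j k x - Θ j i k x + Θ j k i x)) -
              ∑ i ∈ s, (Θ i k j x - Θ k i j x + Θ k j i x) := fun j hj => by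
          rw [d3_sub (hστ j k hj hk).1 (hστ k j hk hj).1, (hστ j k hj hk).2, (hστ k j hk hj).2]
        rw [Finset.sum_congr rfl h1, Finset.sum_sub_distrib]
        simp only [Finset.sum_add_distrib, Finset.sum_sub_distrib]
        rw [Finset.sum_comm (f := fun j i => Θ j i k x), Finset.sum_comm (f := fun j i => Θ k j i x),
          Finset.sum_comm (f := fun j i => Θ j k i x)]
        ring
      obtain ⟨b, h1, h2, h3⟩ := exists_T2 (he k hk) (hU k hk) (hUe k hk) (hc1 k hk) t2 t3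
      exact ⟨b, fun _ => ⟨h1, h2, h3⟩⟩
    · exact ⟨⟨fun _ => 0, fun _ => 0, fun _ => 0⟩, fun h => absurd h hk⟩
  choose B hB using hB
  have hBV : ∀ k ∈ s, T2 (⋃ i ∈ s, U i) (B k) := fun k hk =>
    (hB k hk).1.mono (subset_biUnion_of_mem (u := U) hk)
  obtain ⟨b, hb, b1, b2, b3⟩ := exists_sumF s hBV
  refine ⟨b, hb, fun x => ?_, fun x => ?_, fun w η β n hz => ?_⟩
  · rw [b1, Finset.sum_congr rfl fun k hk => congrFun (hB k hk).2.1 x]
    simp only [Finset.sum_sub_distrib]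
    rw [Finset.sum_comm (f := fun k j => σ k j x), sub_self]
  · rw [b2, Finset.sum_congr rfl fun k hk => congrFun (hB k hk).2.2 x]
    simp only [Finset.sum_sub_distrib]
    rw [Finset.sum_comm (f := fun k j => τ k j x), sub_self]
  · have hp : ∀ k ∈ s, Reg2 0 1 (fun x => w.wedge (B k) x) ∧
        HasCompactSupport (fun x => w.wedge (B k) x) ∧
        intX (fun x => w.wedge (B k) x) = intX (w3 (η k) (B k).d21 (B k).d12) := fun k hk =>
      pair_T2 (he k hk) (hU k hk) (hUe k hk) (hB k hk).1 (hz.sm1 k hk) (hz.d20 k hk)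
        (hz.d11 k hk) (hz.d02 k hk)
    have hwb : (fun x => w.wedge b x) = fun x => ∑ k ∈ s, w.wedge (B k) x := by
      funext x
      exact b3 w x
    have cW : HasCompactSupport (fun x => w.wedge b x) := by
      obtain ⟨K, hK, hKU, h0⟩ := hb.supp
      exact HasCompactSupport.intro hK fun x hx => wedge_zero (h0 x hx)
    have rW : Reg2 0 1 (fun x => w.wedge b x) := by
      rw [hwb, reg2_iff_at]
      exact fun x => At2.sum fun k hk => (hp k hk).1.at x
    refine ⟨rW, cW, ?_⟩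
    rw [hwb, FL.intX_sum s (fun k hk => (hp k hk).1) fun k hk => (hp k hk).2.1,
      Finset.sum_congr rfl fun k hk => (hp k hk).2.2]
    -- expand
    set I : ι → ι → ι → ℂ := fun a j k => intX (w3 (η a) (σ j k) (τ j k)) with hI
    have tI1 : ∀ j ∈ s, ∀ k ∈ s, TD (U j ∩ U k) (w3 (η k) (σ j k) (τ j k)) := fun j hj k hk =>
      td_w3 (fun x hx => hz.sm1 k hk x hx.2) (hστ j k hj hk).1
    have tI2 : ∀ j ∈ s, ∀ k ∈ s, TD (U j ∩ U k) (w3 (η j) (σ j k) (τ j k)) := fun j hj k hk =>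
      td_w3 (fun x hx => hz.sm1 j hj x hx.1) (hστ j k hj hk).1
    have e1 : ∀ k ∈ s, intX (w3 (η k) (B k).d21 (B k).d12) = ∑ j ∈ s, (I k j k - I k k j) := by
      intro k hk
      rw [(hB k hk).2.1, (hB k hk).2.2, w3_sub_sum,
        td_intX_sum (U := fun _ => U k) s fun j hj =>
          ((tI1 j hj k hk).mono (hin1 j k)).sub ((tI2 k hk j hj).mono (hin2 j k))]
      exact Finset.sum_congr rfl fun j hj => (tI1 j hj k hk).intX_sub' (tI2 k hk j hj)
    rw [Finset.sum_congr rfl e1]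
    simp only [Finset.sum_sub_distrib]
    rw [Finset.sum_comm (f := fun k j => I k k j), ← Finset.sum_sub_distrib,
      ← Finset.sum_neg_distrib]
    have e2 : ∀ j ∈ s, ∀ k ∈ s, I k j k - I j j k = -intX (fun x => β j k x * d3 (σ j k) (τ j k) x) := by
      intro j hj k hk
      have h3 := (hστ j k hj hk).1
      rw [hI]
      simp only
      rw [← (tI1 j hj k hk).intX_sub' (tI2 j hj k hk),
        ← stokes_w3 ((hU j hj).inter (hU k hk)) (hz.sm0 j hj k hk) h3]
      congr 1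
      funext x
      by_cases hx : x ∈ U j ∩ U k
      · have d1 := hz.d10 j hj k hk x hx
        have d2 := hz.d01 j hj k hk x hx
        rw [w3, w3, w3, ← d1, ← d2]
        simp only [Pi.sub_apply]
        ring
      · obtain ⟨K, hK, hKU, h0⟩ := h3.supp
        have h00 := h0 x fun h => hx (hKU h)
        rw [w3, w3, w3, h00.1, h00.2]
        simp
    have e3 : ∀ j ∈ s, ∀ k ∈ s, intX (fun x => β j k x * d3 (σ j k) (τ j k) x) =
        ∑ i ∈ s, (intX (fun x => β j k x * Θ i j k x) - intX (fun x => β j k x * Θ j i k x) +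
          intX (fun x => β j k x * Θ j k i x)) := by
      intro j hj k hk
      have q1 : ∀ i ∈ s, TD (U j ∩ U k) (fun x => β j k x * Θ i j k x) := fun i hi =>
        td_smul (hz.sm0 j hj k hk) ((hΘ i j k hi hj hk).1.mono (s1 i j k))
      have q2 : ∀ i ∈ s, TD (U j ∩ U k) (fun x => β j k x * Θ j i k x) := fun i hi =>
        td_smul (hz.sm0 j hj k hk) ((hΘ j i k hj hi hk).1.mono (s2 i j k))
      have q3 : ∀ i ∈ s, TD (U j ∩ U k) (fun x => β j k x * Θ j k i x) := fun i hi =>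
        td_smul (hz.sm0 j hj k hk) ((hΘ j k i hj hk hi).1.mono (s3 i j k))
      have hfun : (fun x => β j k x * d3 (σ j k) (τ j k) x) = fun x => ∑ i ∈ s,
          (β j k x * Θ i j k x - β j k x * Θ j i k x + β j k x * Θ j k i x) := by
        funext x
        rw [(hστ j k hj hk).2, Finset.mul_sum]
        refine Finset.sum_congr rfl fun i _ => ?_
        ring
      rw [hfun, td_intX_sum (U := fun _ => U j ∩ U k) s fun i hi =>
        ((q1 i hi).sub (q2 i hi)).add (q3 i hi)]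
      refine Finset.sum_congr rfl fun i hi => ?_
      rw [((q1 i hi).sub (q2 i hi)).intX_add' (q3 i hi), (q1 i hi).intX_sub' (q2 i hi)]
    have e4 : ∀ i ∈ s, ∀ j ∈ s, ∀ k ∈ s, intX (fun x => β j k x * Θ i j k x) -
        intX (fun x => β i k x * Θ i j k x) + intX (fun x => β i j x * Θ i j k x) =
        (y i j k : ℂ) * n i j k := by
      intro i hi j hj k hk
      have hT := hΘ i j k hi hj hk
      have q1 : TD (U i ∩ U j ∩ U k) (fun x => β j k x * Θ i j k x) :=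
        td_smul (fun x hx => hz.sm0 j hj k hk x ⟨hx.1.2, hx.2⟩) hT.1
      have q2 : TD (U i ∩ U j ∩ U k) (fun x => β i k x * Θ i j k x) :=
        td_smul (fun x hx => hz.sm0 i hi k hk x ⟨hx.1.1, hx.2⟩) hT.1
      have q3 : TD (U i ∩ U j ∩ U k) (fun x => β i j x * Θ i j k x) :=
        td_smul (fun x hx => hz.sm0 i hi j hj x hx.1) hT.1
      rw [← q1.intX_sub' q2, ← (q1.sub q2).intX_add' q3]
      have hfun : (fun x => β j k x * Θ i j k x - β i k x * Θ i j k x + β i j x * Θ i j k x) =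
          fun x => n i j k * Θ i j k x := by
        funext x
        by_cases hx : x ∈ U i ∩ U j ∩ U k
        · rw [← hz.cst i hi j hj k hk x hx]
          ring
        · obtain ⟨K, hK, hKU, h0⟩ := hT.1.supp
          rw [h0 x fun h => hx (hKU h)]
          ring
      rw [hfun, hT.1.intX_mul', hT.2, mul_comm]
    -- summation
    have f2 : ∑ k ∈ s, ∑ j ∈ s, ∑ i ∈ s, intX (fun x => β j k x * Θ j i k x) =
        ∑ k ∈ s, ∑ j ∈ s, ∑ i ∈ s, intX (fun x => β i k x * Θ i j k x) :=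
      Finset.sum_congr rfl fun k _ => Finset.sum_comm
    have f3 : ∑ k ∈ s, ∑ j ∈ s, ∑ i ∈ s, intX (fun x => β j k x * Θ j k i x) =
        ∑ k ∈ s, ∑ j ∈ s, ∑ i ∈ s, intX (fun x => β i j x * Θ i j k x) := by
      rw [Finset.sum_congr rfl fun k _ => Finset.sum_comm, Finset.sum_comm]
    have f4 : ∑ k ∈ s, ∑ j ∈ s, ∑ i ∈ s, (y i j k : ℂ) * n i j k =
        ∑ k ∈ s, ∑ j ∈ s, ∑ i ∈ s, intX (fun x => β j k x * Θ i j k x) -
        ∑ k ∈ s, ∑ j ∈ s, ∑ i ∈ s, intX (fun x => β j k x * Θ j i k x) +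
        ∑ k ∈ s, ∑ j ∈ s, ∑ i ∈ s, intX (fun x => β j k x * Θ j k i x) := by
      rw [f2, f3]
      simp only [← Finset.sum_sub_distrib, ← Finset.sum_add_distrib]
      exact Finset.sum_congr rfl fun k hk => Finset.sum_congr rfl fun j hj =>
        Finset.sum_congr rfl fun i hi => (e4 i hi j hj k hk).symm
    have f5 : ∑ k ∈ s, (∑ j ∈ s, I k j k - ∑ j ∈ s, I j j k) =
        -(∑ k ∈ s, ∑ j ∈ s, ∑ i ∈ s, intX (fun x => β j k x * Θ i j k x) -
        ∑ k ∈ s, ∑ j ∈ s, ∑ i ∈ s, intX (fun x => β j k x * Θ j i k x) +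
        ∑ k ∈ s, ∑ j ∈ s, ∑ i ∈ s, intX (fun x => β j k x * Θ j k i x)) := by
      simp only [← Finset.sum_sub_distrib, ← Finset.sum_add_distrib, ← Finset.sum_neg_distrib]
      refine Finset.sum_congr rfl fun k hk => Finset.sum_congr rfl fun j hj => ?_
      rw [e2 j hj k hk, e3 j hj k hk, ← Finset.sum_neg_distrib]
    rw [Finset.sum_neg_distrib, f4]
    exact f5

end Vale.Agent.P267.H368
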